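import Vale.Agent.P242.H448.Grow
import Vale.Agent.P242.H655.E4Proj
import Vale.Agent.P242.H751.Uc

/-! P242 (helper448): growth of the gradient of the coordinate functions, (P3g):
`|∇u_v|²(z) ≤ C exp(2A d(x,z)²/t) G_t(x)(v,v)` for almost all `z`. -/

set_option linter.all false

open MeasureTheory Filter Topology Set Metric
open scoped ENNReal NNReal InnerProductSpace

universe u

namespace Vale.Agent.P242.H448

open Vale.Agent.P233 Vale.Agent.P233.RA Vale.Agent.P242.H990 Vale.Agent.P242.H520 Vale.Agent.P242.H71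

section lin

variable {M : Type u} [MeasurableSpace M] {m : Measure M} {C : Calc m} {n : ℕ}

theorem sum_abs_sq_le (c : E n) : (∑ i, |c i|) ^ 2 ≤ n * ‖c‖ ^ 2 := by
  have h := sq_sum_le_card_mul_sum_sq (s := (Finset.univ : Finset (Fin n))) (f := fun i => |c i|)
  rw [Finset.card_univ, Fintype.card_fin] at h
  refine h.trans (le_of_eq ?_)
  rw [EuclideanSpace.norm_sq_eq]
  congr 1

theorem uc_mem_W (hC : IsDir C) {f : Fin n → M →ₘ[m] ℝ} (hf : ∀ i, f i ∈ C.W) (c : E n)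
    (s : Finset (Fin n)) : ∑ i ∈ s, c i • f i ∈ C.W := by
  classical
  induction s using Finset.induction_on with
  | empty => simpa using hC.zero_mem
  | insert a s ha ih =>
    rw [Finset.sum_insert ha]
    exact hC.add_mem _ (hC.smul_mem _ _ (hf a)) _ ih

theorem Γ_exp_ae (hC : IsDir C) {f g : M →ₘ[m] ℝ} (t : ℝ) (hf : f ∈ C.W) (hg : g ∈ C.W) :
    ∀ᵐ x ∂m, C.Γ (f + t • g) (f + t • g) x
      = C.Γ f f x + 2 * t * C.Γ f g x + t ^ 2 * C.Γ g g x := by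
  rw [hC.Γ_expand t hf hg]
  filter_upwards [add_ae (C.Γ f f + (2 * t) • C.Γ f g) ((t ^ 2) • C.Γ g g),
    add_ae (C.Γ f f) ((2 * t) • C.Γ f g), smul_ae (C.Γ f g) (2 * t),
    smul_ae (C.Γ g g) (t ^ 2)] with x h1 h2 h3 h4
  rw [h1, h2, h3, h4]

/-- pointwise gradient bound of a linear combination -/
theorem Γ_uc_le (hC : IsDir C) {f : Fin n → M →ₘ[m] ℝ} (hf : ∀ i, f i ∈ C.W) {b : ℝ} (hb : 0 ≤ b)
    (h : ∀ i, ∀ᵐ x ∂m, C.Γ (f i) (f i) x ≤ b ^ 2) (c : E n) :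
    ∀ᵐ x ∂m, C.Γ (uc f c) (uc f c) x ≤ n * ‖c‖ ^ 2 * b ^ 2 := by
  classical
  have key : ∀ s : Finset (Fin n), ∀ᵐ x ∂m,
      C.Γ (∑ i ∈ s, c i • f i) (∑ i ∈ s, c i • f i) x ≤ ((∑ i ∈ s, |c i|) * b) ^ 2 := by
    intro s
    induction s using Finset.induction_on with
    | empty =>
      simp only [Finset.sum_empty]
      rw [hC.Γ_zero_left hC.zero_mem]
      filter_upwards [zero_ae (M := M) (m := m)] with x hx
      rw [hx]; positivity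
    | insert a s ha ih =>
      have hW := uc_mem_W hC hf c s
      rw [Finset.sum_insert ha, Finset.sum_insert ha, add_comm (c a • f a)]
      filter_upwards [ih, Γ_exp_ae hC (c a) hW (hf a), hC.Γ_abs_ae hW (hf a), h a,
        hC.Γ_nonneg_ae (hf a), hC.Γ_nonneg_ae hW] with x h1 h2 h3 h4 h5 h6
      rw [h2]
      have hS : 0 ≤ (∑ i ∈ s, |c i|) * b :=
        mul_nonneg (Finset.sum_nonneg fun i _ => abs_nonneg _) hb
      have r1 : √(C.Γ (∑ i ∈ s, c i • f i) (∑ i ∈ s, c i • f i) x) ≤ (∑ i ∈ s, |c i|) * b :=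
        Real.sqrt_le_iff.2 ⟨hS, h1⟩
      have r2 : √(C.Γ (f a) (f a) x) ≤ b := Real.sqrt_le_iff.2 ⟨hb, h4⟩
      have r3 : |C.Γ (∑ i ∈ s, c i • f i) (f a) x| ≤ (∑ i ∈ s, |c i|) * b * b :=
        h3.trans (mul_le_mul r1 r2 (Real.sqrt_nonneg _) hS)
      have r4 : c a * C.Γ (∑ i ∈ s, c i • f i) (f a) x ≤ |c a| * ((∑ i ∈ s, |c i|) * b * b) := by
        refine (le_abs_self _).trans ?_
        rw [abs_mul]
        exact mul_le_mul_of_nonneg_left r3 (abs_nonneg _)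
      have r5 : (c a) ^ 2 * C.Γ (f a) (f a) x ≤ (c a) ^ 2 * b ^ 2 :=
        mul_le_mul_of_nonneg_left h4 (sq_nonneg _)
      have r6 : |c a| ^ 2 = (c a) ^ 2 := sq_abs _
      nlinarith
  have h1 := key Finset.univ
  have h2 := sum_abs_sq_le c
  filter_upwards [h1] with x hx
  refine hx.trans ?_
  rw [mul_pow]
  exact mul_le_mul_of_nonneg_right h2 (sq_nonneg _)

/-- averaged gradient bound of a linear combination -/
theorem I_Γ_uc_le (hC : IsDir C) {f : Fin n → M →ₘ[m] ℝ} (hf : ∀ i, f i ∈ C.W) {b : ℝ} (hb : 0 ≤ b)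
    {φ : M →ₘ[m] ℝ} (hφ : MemLp φ ∞ m) (h0 : 0 ≤ φ)
    (h : ∀ i, I (φ * C.Γ (f i) (f i)) ≤ b ^ 2) (c : E n) :
    I (φ * C.Γ (uc f c) (uc f c)) ≤ n * ‖c‖ ^ 2 * b ^ 2 := by
  classical
  have key : ∀ s : Finset (Fin n),
      I (φ * C.Γ (∑ i ∈ s, c i • f i) (∑ i ∈ s, c i • f i)) ≤ ((∑ i ∈ s, |c i|) * b) ^ 2 := by
    intro s
    induction s using Finset.induction_on with
    | empty =>
      simp only [Finset.sum_empty]
      rw [hC.Γ_zero_left hC.zero_mem, mul_zero, I_zero]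
      positivity
    | insert a s ha ih =>
      have hW := uc_mem_W hC hf c s
      rw [Finset.sum_insert ha, Finset.sum_insert ha, add_comm (c a • f a),
        H655.wE_expand hC hφ (c a) hW (hf a)]
      have h3 := H655.wE_abs_le hC hφ h0 hW (hf a)
      have hS : 0 ≤ (∑ i ∈ s, |c i|) * b :=
        mul_nonneg (Finset.sum_nonneg fun i _ => abs_nonneg _) hb
      have r1 : √(I (φ * C.Γ (∑ i ∈ s, c i • f i) (∑ i ∈ s, c i • f i)))
          ≤ (∑ i ∈ s, |c i|) * b := Real.sqrt_le_iff.2 ⟨hS, ih⟩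
      have r2 : √(I (φ * C.Γ (f a) (f a))) ≤ b := Real.sqrt_le_iff.2 ⟨hb, h a⟩
      have r3 : |I (φ * C.Γ (∑ i ∈ s, c i • f i) (f a))| ≤ (∑ i ∈ s, |c i|) * b * b :=
        h3.trans (mul_le_mul r1 r2 (Real.sqrt_nonneg _) hS)
      have r4 : c a * I (φ * C.Γ (∑ i ∈ s, c i • f i) (f a))
          ≤ |c a| * ((∑ i ∈ s, |c i|) * b * b) := by
        refine (le_abs_self _).trans ?_
        rw [abs_mul]
        exact mul_le_mul_of_nonneg_left r3 (abs_nonneg _)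
      have r5 : (c a) ^ 2 * I (φ * C.Γ (f a) (f a)) ≤ (c a) ^ 2 * b ^ 2 :=
        mul_le_mul_of_nonneg_left (h a) (sq_nonneg _)
      have r6 : |c a| ^ 2 = (c a) ^ 2 := sq_abs _
      nlinarith
  have h2 := sum_abs_sq_le c
  refine (key Finset.univ).trans ?_
  rw [mul_pow]
  exact mul_le_mul_of_nonneg_right h2 (sq_nonneg _)

end lin

section ker

variable {M : Type u} [MetricSpace M] [MeasurableSpace M] {m : Measure M} {n : ℕ} {o : M} {A : ℝ}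
  {p : ℝ → M → M → ℝ}

theorem cen_ph (hC : IsGamma (sob m)) (hp : Ker0 m p) (hk : KB n o A p) (x : M) :
    Cen (sob m) (fun s => ph m p s x) where
  mem2 s hs := ph_mem2 hp hs x
  top s hs := ph_top hC hp hk hs x
  nonneg s hs := ph_nonneg hp hs x
  mem1 s hs := ph_mem1 hp hs x
  mass s hs := I_ph hp hs x
  semi s t hs ht := by
    rw [P_ph hC.toIsDir hp ht hs x]

/-- an average bound at all small times gives an a.e. bound -/
theorem ae_le_of_avg (hC : IsDir (sob m)) (hp : Ker0 m p) {F : M →ₘ[m] ℝ} (hF : MemLp F 2 m)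
    {s : ℝ} (hs : 0 < s) {U : Set M} {b : M → ℝ}
    (h : ∀ z ∈ U, ∀ σ, 0 < σ → σ ≤ s → PP m p σ z F ≤ b z) : ∀ᵐ z ∂m, z ∈ U → F z ≤ b z := by
  have hσ : ∀ j : ℕ, 0 < s / ((j : ℝ) + 1) := fun j => by positivity
  have hσs : ∀ j : ℕ, s / ((j : ℝ) + 1) ≤ s := fun j =>
    div_le_self hs.le (by have : (0 : ℝ) ≤ j := Nat.cast_nonneg j
                          linarith)
  have hlim : Tendsto (fun j : ℕ => s / ((j : ℝ) + 1)) atTop (𝓝 0) := by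
    have h1 := (tendsto_one_div_add_atTop_nhds_zero_nat (𝕜 := ℝ)).const_mul s
    rw [mul_zero] at h1
    refine h1.congr fun j => ?_
    rw [mul_one_div]
  have h0 := hC.P_cont hF 0
  rw [hC.P_zero_time hF] at h0
  have h1 := h0.comp hlim
  obtain ⟨ns, hns, hae⟩ := exists_subseq_of_I_sq (fun j => hC.P_mem2 (s / ((j : ℝ) + 1)) hF) hF h1
  have hrep : ∀ᵐ z ∂m, ∀ j : ℕ, (sob m).P (s / ((j : ℝ) + 1)) F z
      = PP m p (s / ((j : ℝ) + 1)) z F := by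
    refine ae_all_iff.2 fun j => ?_
    filter_upwards [hp.rep _ (hσ j) F hF] with z hz
    rw [hz, PP, I_ph_mul hp (hσ j)]
  filter_upwards [hae, hrep] with z hz1 hz2 hzU
  refine le_of_tendsto hz1 (Eventually.of_forall fun j => ?_)
  rw [hz2]
  exact h z hzU _ (hσ _) (hσs _)

end ker

section main

variable {M : Type u} [MetricSpace M] [MeasurableSpace M] [BorelSpace M] {m : Measure M} {n : ℕ}
  {K : ℝ} {o : M} {A : ℝ} {p : ℝ → M → M → ℝ}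

theorem rpow_eighth_le {y : ℝ} (hy : 1 ≤ y) : y ^ (1 / 8 : ℝ) ≤ y := by
  calc y ^ (1 / 8 : ℝ) ≤ y ^ (1 : ℝ) := Real.rpow_le_rpow_of_exponent_le hy (by norm_num)
    _ = y := Real.rpow_one y

theorem rpow_eighth_ge {y : ℝ} (hy0 : 0 ≤ y) (hy : y ≤ 1) : y ≤ y ^ (1 / 8 : ℝ) := by
  rcases hy0.eq_or_lt with rfl | hy0
  · rw [Real.zero_rpow (by norm_num)]
  calc y = y ^ (1 : ℝ) := (Real.rpow_one y).symm
    _ ≤ y ^ (1 / 8 : ℝ) := Real.rpow_le_rpow_of_exponent_ge hy0 hy (by norm_num)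

/-- `Γ(u_v,u_v) ≤ 4 n |v|²` everywhere -/
theorem grad_glob (hC : IsGamma (sob m)) {R Q η ρ : ℝ} {u : Fin n → M →ₘ[m] ℝ} {uu : M → E n}
    (hu : Cfg m n K o p R Q η ρ u uu) (v : E n) :
    ∀ᵐ z ∂m, (sob m).Γ (uc u v) (uc u v) z ≤ 4 * n * ‖v‖ ^ 2 := by
  have hW : ∀ i, u i ∈ (sob m).W := fun i => (hC.test_A (hu.test i).1).1
  filter_upwards [Γ_uc_le hC.toIsDir hW (b := 2) (by norm_num)
    (fun i => by filter_upwards [hu.grad i] with z hz; linarith) v] with z hz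
  linarith

/-- `P_r Γ(u_v,u_v)(z) ≤ 4 n |v|²` for every `z` -/
theorem PP_grad_le (hC : IsGamma (sob m)) (hp : Ker0 m p) (hk : KB n o A p) {R Q η ρ : ℝ}
    {u : Fin n → M →ₘ[m] ℝ} {uu : M → E n} (hu : Cfg m n K o p R Q η ρ u uu) (v : E n) {r : ℝ}
    (hr : 0 < r) (z : M) :
    I (ph m p r z * (sob m).Γ (uc u v) (uc u v)) ≤ n * ‖v‖ ^ 2 * 2 ^ 2 := by
  have hcen := cen_ph hC hp hk z
  have hW := H751.uc_W hC hu v
  have l1 : I (ph m p r z * (sob m).Γ (uc u v) (uc u v)) ≤ I ((4 * n * ‖v‖ ^ 2) • ph m p r z) := by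
    refine I_mono (mem_mul_top (hcen.top r hr) (hC.toIsDir.Γ_mem1 hW hW))
      (mem_smul _ (hcen.mem1 r hr)) (le_iff_ae.2 ?_)
    filter_upwards [mul_ae (ph m p r z) ((sob m).Γ (uc u v) (uc u v)),
      smul_ae (ph m p r z) (4 * n * ‖v‖ ^ 2), grad_glob hC hu v,
      nonneg_iff_ae.1 (hcen.nonneg r hr)] with w a1 a2 a3 a4
    rw [a1, a2, mul_comm (4 * (n : ℝ) * ‖v‖ ^ 2)]
    exact mul_le_mul_of_nonneg_left a3 a4
  rw [I_smul, hcen.mass r hr] at l1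
  linarith

/-- `P_r Γ(Δu_v,Δu_v)(z) ≤ n |v|² (η/ρ²)²` on the large ball -/
theorem PP_lap_grad_le (hC : IsGamma (sob m)) (hp : Ker0 m p) (hk : KB n o A p) {R Q η ρ : ℝ}
    {u : Fin n → M →ₘ[m] ℝ} {uu : M → E n} (hu : Cfg m n K o p R Q η ρ u uu) (hη : 0 ≤ η) (v : E n)
    {r : ℝ} (hr : 0 < r) (hrQ : r ≤ Q * ρ ^ 2) {z : M} (hz : z ∈ ball o (R * ρ)) :
    I (ph m p r z * (sob m).Γ ((sob m).lap (uc u v)) ((sob m).lap (uc u v)))
      ≤ n * ‖v‖ ^ 2 * (η / ρ ^ 2) ^ 2 := by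
  have hcen := cen_ph hC hp hk z
  rw [H751.uc_lap hC hu v]
  have hρ := hu.ρ_pos
  exact I_Γ_uc_le hC.toIsDir (fun i => hC.test_lap_mem (hu.test i).1) (by positivity)
    (hcen.top r hr) (hcen.nonneg r hr) (fun i => hu.lap2 z hz r hr hrQ i) v

/-- the error term of the sub mean value property -/
theorem PP_mix_le (hC : IsGamma (sob m)) (hp : Ker0 m p) (hk : KB n o A p) {R Q η ρ : ℝ}
    {u : Fin n → M →ₘ[m] ℝ} {uu : M → E n} (hu : Cfg m n K o p R Q η ρ u uu) (hη : 0 ≤ η) (v : E n)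
    {r : ℝ} (hr : 0 < r) (hrQ : r ≤ Q * ρ ^ 2) {z : M} (hz : z ∈ ball o (R * ρ)) :
    |I (ph m p r z * (sob m).Γ (uc u v) ((sob m).lap (uc u v)))|
      ≤ 2 * n * ‖v‖ ^ 2 * (η / ρ ^ 2) := by
  have hcen := cen_ph hC hp hk z
  have hn0 : (0 : ℝ) ≤ n := Nat.cast_nonneg n
  have hρ := hu.ρ_pos
  have k1 := H655.wE_abs_le hC.toIsDir (hcen.top r hr) (hcen.nonneg r hr) (H751.uc_W hC hu v)
    (hC.test_lap_mem (H751.uc_test hC hu v))
  have k2 := PP_grad_le hC hp hk hu v hr z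
  have k3 := PP_lap_grad_le hC hp hk hu hη v hr hrQ hz
  have k4 : √(I (ph m p r z * (sob m).Γ (uc u v) (uc u v))) ≤ √n * ‖v‖ * 2 := by
    refine Real.sqrt_le_iff.2 ⟨by positivity, k2.trans (le_of_eq ?_)⟩
    rw [mul_pow, mul_pow, Real.sq_sqrt hn0]
  have k5 : √(I (ph m p r z * (sob m).Γ ((sob m).lap (uc u v)) ((sob m).lap (uc u v))))
      ≤ √n * ‖v‖ * (η / ρ ^ 2) := by
    refine Real.sqrt_le_iff.2 ⟨by positivity, k3.trans (le_of_eq ?_)⟩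
    rw [mul_pow, mul_pow, Real.sq_sqrt hn0]
  refine k1.trans ((mul_le_mul k4 k5 (Real.sqrt_nonneg _) (by positivity)).trans (le_of_eq ?_))
  have : √(n : ℝ) * √n = n := Real.mul_self_sqrt hn0
  calc √n * ‖v‖ * 2 * (√n * ‖v‖ * (η / ρ ^ 2)) = (√n * √n) * (2 * ‖v‖ ^ 2 * (η / ρ ^ 2)) := by
        ring
    _ = 2 * n * ‖v‖ ^ 2 * (η / ρ ^ 2) := by rw [this]; ring

/-- the constant of the kernel comparison -/
noncomputable def cFar (n : ℕ) (A : ℝ) : ℝ := A ^ 2 * √(2 * A ^ 2) ^ n * Real.exp (2 * A)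

/-- averages at a far point, with Gaussian growth: every `F ≥ 0` -/
theorem PP_far (hC : IsGamma (sob m)) (hp : Ker0 m p) (hk : KB n o A p) {t : ℝ} (ht : 0 < t)
    (ht2 : t ≤ 1 / 2) {x z : M} (hxo : dist x o ≤ 1) (hzo : dist z o ≤ 1) {F : M →ₘ[m] ℝ}
    (hF : MemLp F 1 m) (hF0 : ∀ᵐ w ∂m, 0 ≤ F w) :
    I (ph m p (t / (2 * A ^ 2)) z * F)
      ≤ cFar n A * Real.exp (2 * A * dist x z ^ 2 / t) * I (ph m p t x * F) := by
  have hA := hk.one_le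
  have hA0 := hk.pos
  have hs0 : 0 < t / (2 * A ^ 2) := div_pos ht (by positivity)
  have hsA : 2 * A ^ 2 * (t / (2 * A ^ 2)) = t := by field_simp
  have l1 : I (ph m p (t / (2 * A ^ 2)) z * F)
      ≤ I ((cFar n A * Real.exp (2 * A * dist x z ^ 2 / t)) • (ph m p t x * F)) := by
    refine I_mono (mem_mul_top (ph_top hC hp hk hs0 z) hF)
      (mem_smul _ (mem_mul_top (ph_top hC hp hk ht x) hF)) (le_iff_ae.2 ?_)
    filter_upwards [mul_ae (ph m p (t / (2 * A ^ 2)) z) F,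
      smul_ae (ph m p t x * F) (cFar n A * Real.exp (2 * A * dist x z ^ 2 / t)),
      mul_ae (ph m p t x) F, hF0, ph_ae hp hs0 z, ph_ae hp ht x] with w a1 a2 a3 a4 a5 a6
    rw [a1, a2, a3, a5, a6]
    have hpf := p_far hk hs0 hsA.le hsA.ge ht2 x z w
    have hex : Real.exp (A * dist z o + A * dist x o) ≤ Real.exp (2 * A) := by
      apply Real.exp_le_exp.2
      nlinarith
    have hp0 := hp.nonneg t ht x w
    have hpf2 : p (t / (2 * A ^ 2)) z w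
        ≤ cFar n A * Real.exp (2 * A * dist x z ^ 2 / t) * p t x w := by
      refine hpf.trans ?_
      unfold cFar
      gcongr
    calc p (t / (2 * A ^ 2)) z w * F w
        ≤ (cFar n A * Real.exp (2 * A * dist x z ^ 2 / t) * p t x w) * F w :=
          mul_le_mul_of_nonneg_right hpf2 a4
      _ = _ := by ring
  rwa [I_smul] at l1

theorem cFar_nonneg (n : ℕ) (A : ℝ) : 0 ≤ cFar n A := by unfold cFar; positivity

/-- from the lower bound of `G_t` -/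
theorem norm_sq_le_of_low {t ρ c₀ a G : ℝ} (ht : 0 < t) (hρ2 : 0 < ρ ^ 2) (ht1 : t ≤ ρ ^ 2)
    (hc₀ : 0 < c₀) (ha : 0 ≤ a) (hlow : c₀ * (t / ρ ^ 2) ^ (1 / 8 : ℝ) * a ≤ G) :
    a * (t / ρ ^ 2) ≤ G / c₀ ∧ a ≤ (ρ ^ 2 / t) * (G / c₀) := by
  have hy0 : 0 < t / ρ ^ 2 := div_pos ht hρ2
  have hy1 : t / ρ ^ 2 ≤ 1 := (div_le_one hρ2).2 ht1
  have h1 := rpow_eighth_ge hy0.le hy1
  have h2 : c₀ * (t / ρ ^ 2) * a ≤ c₀ * (t / ρ ^ 2) ^ (1 / 8 : ℝ) * a := by gcongr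
  have h3 : a * (t / ρ ^ 2) ≤ G / c₀ := by
    rw [le_div_iff₀ hc₀]
    linarith
  refine ⟨h3, ?_⟩
  have h4 : ρ ^ 2 / t * (a * (t / ρ ^ 2)) ≤ ρ ^ 2 / t * (G / c₀) := by gcongr
  have h5 : ρ ^ 2 / t * (a * (t / ρ ^ 2)) = a := by
    have hne : ρ ^ 2 ≠ 0 := hρ2.ne'
    generalize ρ ^ 2 = y at hne
    field_simp
  rwa [h5] at h4

/-- the bound near `o` -/
theorem P3g_in (hC : IsGamma (sob m)) (hB : (sob m).BEi (-|K|)) (hp : Ker0 m p) (hk : KB n o A p)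
    {R Q η ρ : ℝ} {u : Fin n → M →ₘ[m] ℝ} {uu : M → E n} (hu : Cfg m n K o p R Q η ρ u uu)
    (hQ : 1 ≤ Q) (hη : 0 ≤ η) (hη1 : η ≤ 1) {x : M} (hxo : dist x o ≤ 1) {t : ℝ}
    (ht : 0 < t) (ht1 : t ≤ ρ ^ 2) {c₀ : ℝ} (hc₀ : 0 < c₀) (v : E n)
    (hlow : c₀ * (t / ρ ^ 2) ^ (1 / 8 : ℝ) * ‖v‖ ^ 2 ≤ Gm m p u t x v v) {z : M}
    (hz : z ∈ ball o (R * ρ)) {σ : ℝ} (hσ : 0 < σ) (hσs : σ ≤ t / (2 * A ^ 2)) :
    PP m p σ z ((sob m).Γ (uc u v) (uc u v)) ≤ Real.exp (2 * |K|) * ((cFar n A + 4 * n / c₀)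
      * (Real.exp (2 * A * dist x z ^ 2 / t) * Gm m p u t x v v)) := by
  have hD := hC.toIsDir
  have hρ := hu.ρ_pos
  have hρ2 : 0 < ρ ^ 2 := pow_pos hρ 2
  have hA := hk.one_le
  have hA0 := hk.pos
  have hfW := H751.uc_W hC hu v
  have hQρ := hu.Qρ
  have hρ1 : ρ ^ 2 ≤ 1 / 2 := by nlinarith
  have ht2 : t ≤ 1 / 2 := ht1.trans hρ1
  have hA2 : 1 ≤ A ^ 2 := one_le_pow₀ hA
  have hzo : dist z o ≤ 1 := (mem_ball.1 hz).le.trans hu.Rρ
  have hs0 : 0 < t / (2 * A ^ 2) := div_pos ht (by positivity)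
  have hst : t / (2 * A ^ 2) ≤ t := div_le_self ht.le (by linarith)
  have hFm : MemLp ((sob m).Γ (uc u v) (uc u v)) 1 m := hD.Γ_mem1 hfW hfW
  have hPs := PP_far hC hp hk ht ht2 hxo hzo hFm (hD.Γ_nonneg_ae hfW)
  have hv := (norm_sq_le_of_low ht hρ2 ht1 hc₀ (sq_nonneg _) hlow).1
  have hEr : ∀ r, σ ≤ r → r ≤ t / (2 * A ^ 2) →
      |I (ph m p r z * (sob m).Γ (uc u v) ((sob m).lap (uc u v)))| ≤ 2 * n * ‖v‖ ^ 2 * (η / ρ ^ 2) :=
    fun r hr hrs => PP_mix_le hC hp hk hu hη v (hσ.trans_le hr) (by nlinarith) hz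
  have hsub := sub_mean hC (abs_nonneg K) hB (cen_ph hC hp hk z) (H751.uc_test hC hu v) hσ hσs
    (by positivity) hEr
  set s := t / (2 * A ^ 2) with hs
  set G := Gm m p u t x v v with hG
  set X := Real.exp (2 * A * dist x z ^ 2 / t) with hX
  have hG0 : 0 ≤ G := I_nonneg (mul_nonneg (ph_nonneg hp ht x) (hD.nonneg _ hfW))
  have hX1 : 1 ≤ X := Real.one_le_exp (by positivity)
  have hn0 : (0 : ℝ) ≤ n := Nat.cast_nonneg n
  have hse : 2 * s * (2 * n * ‖v‖ ^ 2 * (η / ρ ^ 2)) ≤ 4 * n / c₀ * (X * G) := by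
    have l0 : 2 * s * (2 * n * ‖v‖ ^ 2 * (η / ρ ^ 2))
        ≤ 2 * t * (2 * n * ‖v‖ ^ 2 * (η / ρ ^ 2)) := by gcongr
    have l1 : 2 * t * (2 * n * ‖v‖ ^ 2 * (η / ρ ^ 2))
        = (4 * n * (‖v‖ ^ 2 * (t / ρ ^ 2))) * η := by ring
    have l2 : (4 * n * (‖v‖ ^ 2 * (t / ρ ^ 2))) * η ≤ (4 * n * (‖v‖ ^ 2 * (t / ρ ^ 2))) * 1 := by
      gcongr
    have l3 : 4 * n * (‖v‖ ^ 2 * (t / ρ ^ 2)) ≤ 4 * n * (G / c₀) := by gcongr
    have l4 : 4 * n * (G / c₀) = 4 * n / c₀ * (1 * G) := by ring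
    have l5 : 4 * n / c₀ * (1 * G) ≤ 4 * n / c₀ * (X * G) := by gcongr
    linarith
  have hex2 : Real.exp (2 * |K| * s) ≤ Real.exp (2 * |K|) := by
    apply Real.exp_le_exp.2
    have h1 : s ≤ 1 := by linarith
    have h2 := abs_nonneg K
    nlinarith
  have hPs' : I (ph m p s z * (sob m).Γ (uc u v) (uc u v)) ≤ cFar n A * (X * G) :=
    hPs.trans (le_of_eq (by rw [hG]; unfold Gm PP; ring))
  have hpos : 0 ≤ I (ph m p s z * (sob m).Γ (uc u v) (uc u v))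
      + 2 * s * (2 * n * ‖v‖ ^ 2 * (η / ρ ^ 2)) :=
    add_nonneg (I_nonneg (mul_nonneg (ph_nonneg hp hs0 z) (hD.nonneg _ hfW))) (by positivity)
  calc PP m p σ z ((sob m).Γ (uc u v) (uc u v)) ≤ _ := hsub
    _ ≤ Real.exp (2 * |K|) * (I (ph m p s z * (sob m).Γ (uc u v) (uc u v))
        + 2 * s * (2 * n * ‖v‖ ^ 2 * (η / ρ ^ 2))) := mul_le_mul_of_nonneg_right hex2 hpos
    _ ≤ _ := by
      refine mul_le_mul_of_nonneg_left ?_ (Real.exp_pos _).le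
      rw [add_mul]
      exact add_le_add hPs' hse

/-- the constant of (P3g) -/
noncomputable def cP (n : ℕ) (A κ c₀ : ℝ) : ℝ :=
  Real.exp (2 * κ) * (cFar n A + 4 * n / c₀) + 4 * n / c₀

theorem cP_nonneg {n : ℕ} {A κ c₀ : ℝ} (hc₀ : 0 < c₀) : 0 ≤ cP n A κ c₀ := by
  have := cFar_nonneg n A
  have hn0 : (0 : ℝ) ≤ n := Nat.cast_nonneg n
  unfold cP
  positivity

/-- **(P3g)**, growth form of the gradient bound of the coordinate functions. -/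
theorem P3g (hC : IsGamma (sob m)) (hB : (sob m).BEi (-|K|)) (hp : Ker0 m p) (hk : KB n o A p)
    {R Q η ρ : ℝ} {u : Fin n → M →ₘ[m] ℝ} {uu : M → E n} (hu : Cfg m n K o p R Q η ρ u uu)
    (hR : 2 ≤ R) (hQ : 1 ≤ Q) (hη : 0 ≤ η) (hη1 : η ≤ 1) {x : M} (hx : x ∈ ball o (R / 2 * ρ))
    {t : ℝ} (ht : 0 < t) (ht1 : t ≤ ρ ^ 2) {c₀ : ℝ} (hc₀ : 0 < c₀) (v : E n)
    (hlow : c₀ * (t / ρ ^ 2) ^ (1 / 8 : ℝ) * ‖v‖ ^ 2 ≤ Gm m p u t x v v) :
    ∀ᵐ z ∂m, (sob m).Γ (uc u v) (uc u v) z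
      ≤ cP n A |K| c₀ * (Real.exp (2 * A * dist x z ^ 2 / t) * Gm m p u t x v v) := by
  have hD := hC.toIsDir
  have hρ := hu.ρ_pos
  have hρ2 : 0 < ρ ^ 2 := pow_pos hρ 2
  have hA := hk.one_le
  have hA0 := hk.pos
  have hRρ := hu.Rρ
  have htest := H751.uc_test hC hu v
  have hfW := (hC.test_A htest).1
  have hF2 : MemLp ((sob m).Γ (uc u v) (uc u v)) 2 m := hD.memLp _ (hC.Γ_mem hB htest htest).1
  have hxo' : dist x o < R / 2 * ρ := mem_ball.1 hx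
  have hxo : dist x o ≤ 1 := by nlinarith
  have hs0 : 0 < t / (2 * A ^ 2) := div_pos ht (by positivity)
  have hG0 : 0 ≤ Gm m p u t x v v :=
    I_nonneg (mul_nonneg (ph_nonneg hp ht x) (hD.nonneg _ hfW))
  have hv := (norm_sq_le_of_low ht hρ2 ht1 hc₀ (sq_nonneg _) hlow).2
  have hn0 : (0 : ℝ) ≤ n := Nat.cast_nonneg n
  have hcF := cFar_nonneg n A
  have hae := ae_le_of_avg hD hp hF2 hs0 (fun z hz σ hσ hσs =>
    P3g_in hC hB hp hk hu hQ hη hη1 hxo ht ht1 hc₀ v hlow hz hσ hσs)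
  filter_upwards [hae, grad_glob hC hu v] with z h1 h2
  set G := Gm m p u t x v v with hG
  set X := Real.exp (2 * A * dist x z ^ 2 / t) with hX
  have hXG : 0 ≤ X * G := mul_nonneg (Real.exp_pos _).le hG0
  unfold cP
  rw [add_mul]
  by_cases hz : z ∈ ball o (R * ρ)
  · have h3 : 0 ≤ 4 * n / c₀ * (X * G) := by positivity
    have h4 := h1 hz
    rw [← mul_assoc] at h4
    linarith
  · -- far points
    have hzo : R * ρ ≤ dist z o := not_lt.1 hz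
    have hd : ρ ≤ dist x z := by
      have h3 := dist_triangle z x o
      rw [dist_comm z x] at h3
      nlinarith
    have hd2 : ρ ^ 2 ≤ dist x z ^ 2 := pow_le_pow_left₀ hρ.le hd 2
    have h4 : ρ ^ 2 / t ≤ X := by
      have h5 : ρ ^ 2 / t ≤ 2 * A * dist x z ^ 2 / t := by
        gcongr
        nlinarith [sq_nonneg (dist x z)]
      have h6 := Real.add_one_le_exp (2 * A * dist x z ^ 2 / t)
      linarith
    have h10 : 0 ≤ G / c₀ := div_nonneg hG0 hc₀.le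
    have h11 : ‖v‖ ^ 2 ≤ X * (G / c₀) := hv.trans (mul_le_mul_of_nonneg_right h4 h10)
    have h12 : 4 * n * ‖v‖ ^ 2 ≤ 4 * n * (X * (G / c₀)) := by gcongr
    have h13 : 4 * n * (X * (G / c₀)) = 4 * n / c₀ * (X * G) := by ring
    have h14 : 0 ≤ Real.exp (2 * |K|) * (cFar n A + 4 * n / c₀) * (X * G) := by positivity
    linarith

end main

end Vale.Agent.P242.H448
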