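import Vale.Agent.P242.H448.RelG
import Vale.Agent.P242.H597.PreX

/-! P242, package A-GL2 (helper448), part 9: `SB_Rel`. -/

set_option linter.all false

open MeasureTheory Filter Topology Set Metric
open scoped ENNReal NNReal InnerProductSpace

universe u

namespace Vale.Agent.P242.H448

open Vale.Agent.P233 Vale.Agent.P233.RA Vale.Agent.P242.H990 Vale.Agent.P242.H520 Vale.Agent.P242.H71
open Vale.Agent.P242.H655 Vale.Agent.P242.H771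
open Vale.Agent.P242.H852 (tl ws tl_pos tl_succ)

/-- the times of the levels -/
theorem lev_facts {A Λ M' ρ r₀ : ℝ} (hA : 1 ≤ A) (hΛ : 1 ≤ Λ) (hM' : 4 * A ^ 2 ≤ M') (hρ : 0 < ρ)
    (hr₀ : ρ / M' ≤ r₀) (hr₀' : r₀ ≤ ρ / √M') (j : ℕ) :
    0 < tl r₀ Λ (j + 1) ∧ 0 < tl r₀ Λ j ∧ tl r₀ Λ j = Λ ^ 2 * tl r₀ Λ (j + 1) ∧
      rr r₀ Λ (j + 1) = √(tl r₀ Λ (j + 1)) ∧ rr r₀ Λ j = √(tl r₀ Λ j) ∧
      4 * A ^ 2 * tl r₀ Λ j ≤ ρ ^ 2 := by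
  have hA2 : 1 ≤ A ^ 2 := one_le_pow₀ hA
  have hΛ0 : 0 < Λ := by linarith
  have hM0 : 0 < M' := by linarith
  have hr₀0 : 0 < r₀ := lt_of_lt_of_le (by positivity) hr₀
  have h0 : ∀ i, 0 ≤ rr r₀ Λ i := fun i => by unfold rr; positivity
  refine ⟨tl_pos hr₀0 hΛ0 _, tl_pos hr₀0 hΛ0 _, ?_, (Real.sqrt_sq (h0 _)).symm,
    (Real.sqrt_sq (h0 _)).symm, ?_⟩
  · rw [tl_succ hΛ0]
    field_simp
  · have h1 : rr r₀ Λ j ≤ r₀ := by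
      unfold rr
      exact div_le_self hr₀0.le (one_le_pow₀ hΛ)
    have hTr : tl r₀ Λ j ≤ ρ ^ 2 / M' := by
      calc tl r₀ Λ j = rr r₀ Λ j ^ 2 := rfl
        _ ≤ (ρ / √M') ^ 2 := pow_le_pow_left₀ (h0 _) (h1.trans hr₀') 2
        _ = ρ ^ 2 / M' := by rw [div_pow, Real.sq_sqrt hM0.le]
    calc 4 * A ^ 2 * tl r₀ Λ j ≤ M' * (ρ ^ 2 / M') := by
          have : 0 ≤ tl r₀ Λ j := sq_nonneg _
          gcongr
      _ = ρ ^ 2 := by field_simp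

section env

variable {M : Type u} [MetricSpace M] [CompleteSpace M] [SecondCountableTopology M]
  [MeasurableSpace M] [BorelSpace M] {m : Measure M} {n : ℕ} {K : ℝ} {o : M} {A : ℝ}
  {p : ℝ → M → M → ℝ} {R Q η ρ : ℝ} {u : Fin n → M →ₘ[m] ℝ} {uu : M → E n}
  {A₀ Λ B₁ κ C₀ ε δ M' r₀ : ℝ}

/-- the Lipschitz bound of the coordinates -/
theorem iso_of (h : Env m n K o A p) (hu : Cfg m n K o p R Q η ρ u uu)
    (hN : NearIso m o p (R / 4) C₀ 1 ρ u uu) {x q : M} (hx : x ∈ ball o (R / 4 * ρ)) {t : ℝ}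
    (ht : 0 < t) (htρ : t ≤ ρ ^ 2) (hxq : dist x q ≤ C₀ * √t) {c' : E n}
    (hc' : ∀ w : E n, Gm m p u t x c' w = ⟪w, uu x - uu q⟫_ℝ) (w : E n) :
    |⟪w, uu x - uu q⟫_ℝ| ≤ 2 * (C₀ * √t) * nG m p u t x w := by
  have k1 := (hN x hx t ht htρ q hxq c' hc').2
  have k2 := (fh_of h hu).Gm_cs (x := x) ht c' w
  rw [hc' w, hc' c'] at k2
  refine k2.trans ?_
  refine mul_le_mul_of_nonneg_right (k1.trans ?_) (Real.sqrt_nonneg _)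
  linarith

/-- the input of the relation from the hypotheses of `SB_Rel` -/
theorem rin_of (h : Env m n K o A p) (hu : Cfg m n K o p R Q η ρ u uu) {t T : ℝ} (ht : 0 < t)
    (hT0 : 0 < T) (hTt : T = Λ ^ 2 * t) (hTρ : T ≤ ρ ^ 2) (hΛ : 0 < Λ)
    (hQ1 : 1 ≤ Q) (hε0 : 0 ≤ ε) (hε : ε ≤ 1) (hT : TT m K o p (R / 2) Q ε ρ u)
    {x q : M} (htρ : t ≤ ρ ^ 2) (hx : x ∈ ball o (R / 2 * ρ))
    (Px : PtF m K p u Q A₀ Λ ρ t T x) (Pq : PtF m K p u Q A₀ Λ ρ t T q) {c : E n} {c₀ : ℝ}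
    (hRR : RRAt m K p u Λ Q A₀ ρ B₁ t x q c c₀) {j : ℕ}
    (et : rr r₀ Λ (j + 1) ^ 2 = t) (eT : rr r₀ Λ j ^ 2 = T) (eT' : rr r₀ Λ j = √T)
    {𝒜x 𝒜q : ℕ → E n →ₗ[ℝ] E n} {cx cq : ℕ → E n → ℝ}
    (hEx : E4Out m K p u uu Q A₀ Λ B₁ ρ r₀ x 𝒜x cx)
    (hEq : E4Out m K p u uu Q A₀ Λ B₁ ρ r₀ q 𝒜q cq) (v : E n)
    (hnd : ∀ b : ℝ, κ * √T * √(Gm m p u T x c c) ≤ PP m p T x |uc u c - b • (1 : M →ₘ[m] ℝ)|)
    (hgrow : ∀ᵐ z ∂m, (sob m).Γ (uc u v) (uc u v) z ≤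
      H751.cP n A * Real.exp (dist x z ^ 2 / (8 * A * (t / (16 * A ^ 2)))) * Gm m p u t x v v)
    (hiso : ∀ w : E n, |⟪w, uu x - uu q⟫_ℝ| ≤ 2 * (C₀ * √t) * nG m p u t x w) :
    RIn m K A p u uu Q A₀ Λ B₁ κ C₀ ρ t T x q c c₀ v (𝒜x j v) (𝒜q j v) (𝒜q (j + 1) v) (cx j v)
      (cq j v) := by
  have hρ := hu.ρ_pos
  have hρ2 : 0 < ρ ^ 2 := by positivity
  refine ⟨Px, Pq, ?_, hRR.r2, ?_, ?_, ?_, ?_, ?_, ?_, ?_, ?_, hnd, hgrow, hiso⟩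
  · have := hRR.r1
    rw [← hTt, sub_right_comm] at this
    exact this
  · intro s h1 h2
    have hs0 : 0 < s := lt_of_lt_of_le (by positivity) h1
    have k1 := hT x hx s hs0 ((h2.trans htρ).trans (le_mul_of_one_le_left hρ2.le hQ1)) v
    have g0 := (fh_of h hu).Gm_nonneg (x := x) hs0 v
    have k2 : ε * Gm m p u s x v v ≤ 1 * Gm m p u s x v v := mul_le_mul_of_nonneg_right hε g0
    linarith
  · have := hEx.err j v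
    rwa [eT, eT'] at this
  · have := hEq.err j v
    rwa [eT, eT'] at this
  · have := hEx.bd j v
    rwa [eT] at this
  · have := hEq.bd j v
    rwa [eT] at this
  · have := hEx.const j v
    rwa [eT, eT'] at this
  · have := hEq.const j v
    rwa [eT, eT'] at this
  · have := hEq.step j v
    rwa [eT, et] at this

/-- the relation at one pair of the grid -/
theorem rel_pair (h : Env m n K o A p) (hu : Cfg m n K o p R Q η ρ u uu) (hC₀ : 1 ≤ C₀)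
    (hQ8 : 8 * A ^ 2 ≤ Q) (hR0 : 0 ≤ R) (hA₀ : 0 < A₀) (hA₀1 : A₀ ≤ 1 / 16) (hε0 : 0 < ε)
    (hε16 : ε ≤ 1 / 16) (hδ : δ ≤ 1 / 2) (hη0 : 0 < η) (hηA : η ≤ A₀)
    (hηH : Q * (12 * n * H703.cH n A C₀ * η) ≤ A₀) (hΛ16 : 16 ≤ Λ) (hΛA : 512 * A ^ 2 ≤ Λ ^ 2)
    (hM' : 4 * A ^ 2 ≤ M') (hB₁ : 1 ≤ B₁) (hκ : 0 < κ) (hT : TT m K o p (R / 2) Q ε ρ u)
    (hD : DropS m n K o p R Q δ ρ) (hN : NearIso m o p (R / 4) C₀ 1 ρ u uu)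
    (hNd : ∀ x ∈ ball o (R / 2 * ρ), ∀ t, 0 < t → t ≤ ρ ^ 2 → ∀ (c : E n) (b : ℝ),
      κ * √t * √(Gm m p u t x c c) ≤ PP m p t x |uc u c - b • (1 : M →ₘ[m] ℝ)|)
    (h3g : ∀ x ∈ ball o (R / 2 * ρ), ∀ t, 0 < t → t ≤ ρ ^ 2 → ∀ v : E n,
      ∀ᵐ z ∂m, (sob m).Γ (uc u v) (uc u v) z ≤
        H751.cP n A * Real.exp (dist x z ^ 2 / (8 * A * (t / (16 * A ^ 2)))) * Gm m p u t x v v)
    {x q : M} (hx : x ∈ ball o (R / 4 * ρ)) (hq : q ∈ ball o (R / 4 * ρ))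
    (hr₀ : ρ / M' ≤ r₀) (hr₀' : r₀ ≤ ρ / √M') {j : ℕ} (hxq : dist x q ≤ C₀ * rr r₀ Λ (j + 1))
    {c : E n} {c₀ : ℝ} (hRR : RRAt m K p u Λ Q A₀ ρ B₁ (tl r₀ Λ (j + 1)) x q c c₀)
    {𝒜x 𝒜q : ℕ → E n →ₗ[ℝ] E n} {cx cq : ℕ → E n → ℝ}
    (hEx : E4Out m K p u uu Q A₀ Λ B₁ ρ r₀ x 𝒜x cx)
    (hEq : E4Out m K p u uu Q A₀ Λ B₁ ρ r₀ q 𝒜q cq) {c' : E n}
    (hc' : ∀ w : E n, Gm m p u (tl r₀ Λ (j + 1)) x c' w = ⟪w, uu x - uu q⟫_ℝ) (v : E n) :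
    |Gm m p u (tl r₀ Λ (j + 1)) x c v - Gm m p u (tl r₀ Λ (j + 1)) x c' v
        - Gm m p u (tl r₀ Λ (j + 1)) x c' (𝒜q (j + 1) v)|
      ≤ (kT n |K| A Λ C₀ B₁ κ + kS n |K| A Λ C₀ B₁ κ + kP n A Λ C₀ B₁)
        * (rr r₀ Λ (j + 1) * (√(Dt m n K p Q A₀ ρ (tl r₀ Λ (j + 1)) x
          + Dt m n K p Q A₀ ρ (tl r₀ Λ (j + 1)) q) * nG m p u (tl r₀ Λ (j + 1)) x v)) := by
  have hA := h.kb.one_le
  have hA2 : 1 ≤ A ^ 2 := one_le_pow₀ hA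
  have hρ := hu.ρ_pos
  have hρ2 : 0 < ρ ^ 2 := by positivity
  have hQ1 : 1 ≤ Q := by linarith
  obtain ⟨ht, hT0, hTt, hrrt, hrrT, h4T⟩ := lev_facts (Λ := Λ) hA (by linarith) hM' hρ hr₀
    hr₀' j
  have et : rr r₀ Λ (j + 1) ^ 2 = tl r₀ Λ (j + 1) := rfl
  have eT : rr r₀ Λ j ^ 2 = tl r₀ Λ j := rfl
  generalize tl r₀ Λ (j + 1) = t at *
  generalize tl r₀ Λ j = T at *
  have hTρ : T ≤ ρ ^ 2 := by
    have : 1 * T ≤ 4 * A ^ 2 * T := mul_le_mul_of_nonneg_right (by linarith) hT0.le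
    linarith
  have htT : t ≤ T := by
    rw [hTt]
    exact le_mul_of_one_le_left ht.le (one_le_pow₀ (by linarith))
  have htρ := htT.trans hTρ
  have hρ12 : ρ ^ 2 ≤ 1 / 2 := (le_mul_of_one_le_left hρ2.le hQ1).trans hu.Qρ
  have hηsq : η ^ 2 ≤ A₀ := by nlinarith
  have hsub : ∀ y, y ∈ ball o (R / 4 * ρ) → y ∈ ball o (R / 2 * ρ) ∧ y ∈ ball o (R * ρ) := by
    intro y hy
    rw [mem_ball] at hy
    have : 0 ≤ R * ρ := by positivity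
    constructor <;> rw [mem_ball] <;> linarith
  have Px := ptF_of h hu (A₀ := A₀) (Λ := Λ) (δ := δ) hη0.le hC₀ hQ8 hR0 hA₀ (by linarith) hε0.le
    hε16 (by linarith) (by linarith) hηH hT hD hx ht hTt hTρ
  have Pq := ptF_of h hu (A₀ := A₀) (Λ := Λ) (δ := δ) hη0.le hC₀ hQ8 hR0 hA₀ (by linarith) hε0.le
    hε16 (by linarith) (by linarith) hηH hT hD hq ht hTt hTρ
  have hxqt : dist x q ≤ C₀ * √t := by rw [← hrrt]; exact hxq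
  have hG : RG o A Λ C₀ R Q ρ A₀ η t T x q :=
    ⟨ht, hTt, by linarith, hΛA, h4T, hρ12, hQ1, hC₀, hη0.le, hηsq, (hsub x hx).2, (hsub q hq).2,
      hxqt⟩
  have hH := rin_of h hu ht hT0 hTt hTρ (by linarith) hQ1 hε0.le (by linarith) hT htρ
    (hsub x hx).1 Px Pq hRR et eT hrrT hEx hEq v (fun b => hNd x (hsub x hx).1 T hT0 hTρ c b)
    (h3g x (hsub x hx).1 t ht htρ v) (iso_of h hu hN hx ht htρ hxqt hc')
  have key := rel_at h hu hH hG hB₁ hκ hQ8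
  rw [← hrrt] at key
  rw [hc' v, hc' (𝒜q (j + 1) v)]
  rw [inner_add_left, ← sub_sub] at key
  exact key

/-- **A-GL2.** -/
theorem sb_Rel (h : Env m n K o A p) : SB_Rel m n K o p := by
  intro C₀ hC₀
  have hA := h.kb.one_le
  have hA0 := h.kb.pos
  have hA2 : 1 ≤ A ^ 2 := one_le_pow₀ hA
  have hn : (0 : ℝ) < n := (H924.facts h.hyp).npos
  obtain ⟨κ, hκ, hNd⟩ := H751.blk_Nd M m n K o A p h
  obtain ⟨Q₁, hQ₁, hNd⟩ := hNd 1 le_rfl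
  obtain ⟨Q₂, hQ₂, hNr⟩ := H597.blk_near M m n K o A p h C₀ hC₀
  have hL : 1 ≤ 16 * A ^ 2 := by linarith
  obtain ⟨ε₃, hε₃, h3g⟩ := H751.p3gX h hL
  refine ⟨max (max Q₁ Q₂) (max (8 * A ^ 2) (4 * A ^ 2 * (24 * A ^ 2 * (16 * A ^ 2)))),
    le_trans hQ₁ ((le_max_left _ _).trans (le_max_left _ _)), fun Q hQ => ?_⟩
  have hQ1' : Q₁ ≤ Q := ((le_max_left _ _).trans (le_max_left _ _)).trans hQ
  have hQ2' : Q₂ ≤ Q := ((le_max_right _ _).trans (le_max_left _ _)).trans hQ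
  have hQ8 : 8 * A ^ 2 ≤ Q := ((le_max_left _ _).trans (le_max_right _ _)).trans hQ
  have hQg : 4 * A ^ 2 * (24 * A ^ 2 * (16 * A ^ 2)) ≤ Q :=
    ((le_max_right _ _).trans (le_max_right _ _)).trans hQ
  have hQ1 : 1 ≤ Q := by linarith
  obtain ⟨R₁, hR₁, hNd⟩ := hNd Q hQ1'
  obtain ⟨R₂, hR₂, hNr⟩ := hNr Q hQ2'
  refine ⟨max (max R₁ R₂) (32 * A * (16 * A ^ 2)),
    le_trans hR₁ ((le_max_left _ _).trans (le_max_left _ _)), fun R hR => ?_⟩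
  have hR1' : R₁ ≤ R := ((le_max_left _ _).trans (le_max_left _ _)).trans hR
  have hR2' : R₂ ≤ R := ((le_max_right _ _).trans (le_max_left _ _)).trans hR
  have hRg : 32 * A * (16 * A ^ 2) ≤ R := (le_max_right _ _).trans hR
  have hR0 : 0 ≤ R := by linarith
  obtain ⟨ε₁, hε₁, hNd⟩ := hNd R hR1'
  obtain ⟨ε₂, hε₂, hNr⟩ := hNr R hR2' 1 one_pos
  refine ⟨max 16 (512 * A ^ 2), le_max_left _ _, fun Λ hΛ B₁ hB₁ => ?_⟩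
  have hΛ16 : 16 ≤ Λ := (le_max_left _ _).trans hΛ
  have hΛA : 512 * A ^ 2 ≤ Λ ^ 2 := by
    have : 512 * A ^ 2 ≤ Λ := (le_max_right _ _).trans hΛ
    nlinarith
  refine ⟨max 1 (kT n |K| A Λ C₀ B₁ κ + kS n |K| A Λ C₀ B₁ κ + kP n A Λ C₀ B₁),
    le_max_left _ _, ?_⟩
  obtain ⟨ε₀, hε₀, ha, hb, hc, hd⟩ : ∃ ε₀ : ℝ, 0 < ε₀ ∧ ε₀ ≤ ε₁ ∧ ε₀ ≤ ε₂ ∧ ε₀ ≤ ε₃ ∧ ε₀ ≤ 1 / 16 :=
    ⟨min (min ε₁ ε₂) (min ε₃ (1 / 16)), by positivity,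
      (min_le_left _ _).trans (min_le_left _ _), (min_le_left _ _).trans (min_le_right _ _),
      (min_le_right _ _).trans (min_le_left _ _), (min_le_right _ _).trans (min_le_right _ _)⟩
  refine ⟨ε₀, hε₀, fun A₀ hA₀ hA₀1 => ⟨4 * A ^ 2, by linarith, fun M' hM' => ?_⟩⟩
  have hcH : 1 ≤ H703.cH n A C₀ := H703.one_le_cH hA (by linarith)
  obtain ⟨η₁, hη₁, hea, heb, hec, hed⟩ : ∃ η₁ : ℝ, 0 < η₁ ∧ η₁ ≤ ε₀ ∧ η₁ ≤ A₀ ∧ η₁ ≤ 1 / 2 ∧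
      Q * (12 * n * H703.cH n A C₀ * η₁) ≤ A₀ := by
    refine ⟨min (min ε₀ A₀) (min (1 / 2) (A₀ / (Q * (12 * n * H703.cH n A C₀)))), by positivity,
      (min_le_left _ _).trans (min_le_left _ _), (min_le_left _ _).trans (min_le_right _ _),
      (min_le_right _ _).trans (min_le_left _ _), ?_⟩
    have h1 : min (min ε₀ A₀) (min (1 / 2) (A₀ / (Q * (12 * n * H703.cH n A C₀))))
        ≤ A₀ / (Q * (12 * n * H703.cH n A C₀)) := (min_le_right _ _).trans (min_le_right _ _)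
    rw [le_div_iff₀ (by positivity)] at h1
    linarith
  refine ⟨η₁, hη₁, ?_⟩
  intro ε η δ ρ hε0 hε hη0 hη hδ hρ1 u uu hu hD hT x hx q hq r₀ hr₀ hr₀' k hk hxq c c₀ hRR 𝒜x 𝒜q
    cx cq hEx hEq c' hc' v
  obtain ⟨j, rfl⟩ : ∃ j, k = j + 1 := ⟨k - 1, by omega⟩
  have hρ := hu.ρ_pos
  have hε16 : ε ≤ 1 / 16 := hε.trans hd
  have hηε : η ≤ ε₀ := hη.trans hea
  have hηH : Q * (12 * n * H703.cH n A C₀ * η) ≤ A₀ := by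
    refine le_trans ?_ hed
    gcongr
  have hTTx : ∀ y ∈ ball o (R / 2 * ρ), ∀ r, 0 < r → H155.TTx m K p Q ε ρ u y r :=
    fun y hy r hr => H155.TTx_of_TT hT hy hr
  have key := rel_pair h hu (κ := κ) (M' := M') hC₀ hQ8 hR0 hA₀ (hA₀1.trans hd) hε0 hε16
    (hδ.trans hec) hη0 (hη.trans heb) hηH hΛ16 hΛA hM' hB₁ hκ hT hD
    (hNr ε η ρ hε0 (hε.trans hb) hη0 (hηε.trans hb) ((hρ1.trans hea).trans hb) u uu hu hT).1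
    (fun y hy t ht htρ c b => hNd ε η ρ hε0 (hε.trans ha) hη0 (hηε.trans ha)
      ((hρ1.trans hea).trans ha) u uu hu y hy t ht htρ (hTTx y hy t ht) t le_rfl (by simp) c b)
    (fun y hy t ht htρ v => h3g R Q ε η ρ u uu hQg hRg hε0.le (hε.trans hc) hη0.le (hηε.trans hc) hu
      y hy t ht htρ (hTTx y hy t ht) (t / (16 * A ^ 2)) le_rfl
      ((div_le_self ht.le hL).trans (le_mul_of_one_le_left ht.le hL)) v)
    hx hq hr₀ hr₀' hxq hRR hEx hEq hc' v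
  refine key.trans (mul_le_mul_of_nonneg_right (le_max_right _ _) ?_)
  have h1 : 0 ≤ rr r₀ Λ (j + 1) := by
    have hM0 : 0 < M' := by linarith
    have : 0 < r₀ := lt_of_lt_of_le (by positivity) hr₀
    unfold rr
    positivity
  have h2 : 0 ≤ nG m p u (tl r₀ Λ (j + 1)) x v := Real.sqrt_nonneg _
  positivity

end env

end Vale.Agent.P242.H448
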