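import Vale.Agent.P242.H71.Voc
import Vale.Agent.P233.CD.If3b
import Vale.Agent.P233.H719.RegCh8

/-! P242: regular points have almost Euclidean balls at small scales. -/

open Set Metric Filter Topology MeasureTheory
open scoped ENNReal MeasureTheory

universe u

namespace Vale.Agent.P242.H448

open H71 H719 H373

/-- `p` has arbitrarily small balls which are almost Euclidean in the Gromov-Hausdorff sense. -/
def CloseSmall (n : ℕ) {X : Type u} [MetricSpace X] (p : X) : Prop :=
  ∀ η : ℝ, 0 < η → ∀ r₁ : ℝ, 0 < r₁ → ∃ r : ℝ, 0 < r ∧ r < r₁ ∧ GHClose n η p r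

/-- the light form of the hypotheses -/
theorem hyp_of {X : Type u} [MetricSpace X] [MeasurableSpace X] [BorelSpace X] {m : Measure X}
    {n : ℕ} {K : ℝ} (h : HypL m n K) : P233.CD.Hyp m n K := ⟨h.two_le, h.haus, h.full, h.rcd⟩

/-- a regular point has almost Euclidean balls at small scales -/
theorem closeSmall_of_regular {X : Type u} [MetricSpace X] [CompleteSpace X]
    [SecondCountableTopology X] [MeasurableSpace X] [BorelSpace X] {m : Measure X} {n : ℕ} {K : ℝ}
    (h : HypL m n K) {p : X} (hp : IsRegular n p) :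
    CloseSmall n p := fun η hη r₁ hr₁ => by
  obtain ⟨r, hr, hr1, hcl⟩ := P233.RegCh.close_of_regular hp
    (fun R ε hR hε => P233.RegCh.cover_small h.two_le h.full h.rcd.fin h.rcd.cd p R ε hR hε) hη hr₁
  exact ⟨r, hr, hr1, hcl⟩

end Vale.Agent.P242.H448
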