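import Vale.Agent.P242.H71.PB
import Vale.Agent.P233.H719.RegChDefs
import Mathlib.Analysis.SpecificLimits.Basic

/-! P242: from the output of Part A at a point and Part B to a chart (A13 of note 3562). -/

open Set Metric Filter Topology

universe u

namespace Vale.Agent.P242.H448

open H71 H719

/-- Output of Part A at the point `p`: for all constants that Part B asks for there are data which
satisfy (h1) - (h7) on the closed ball of radius `r₀ / 4` about `p`, and the image of `u` is dense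
at all small scales about the points near `p`. -/
def PartAAt (n : ℕ) (C₀ : ℝ) {X : Type u} [MetricSpace X] (p : X) : Prop :=
  ∃ C₁ : ℝ, 1 ≤ C₁ ∧ ∀ c : ℝ, 0 < c →
    ∃ Λ τ B : ℝ, 1 ≤ τ ∧ τ ^ 2 ≤ c * Λ ∧ 1 ≤ B ∧
      ∀ ε₀ : ℝ, 0 < ε₀ → ∃ ε δ : ℝ, 0 < ε ∧ ε ≤ ε₀ ∧ 0 < δ ∧ δ ≤ ε₀ ∧ ∃ r₀ : ℝ, 0 < r₀ ∧
        ∃ S : PB n (closedBall p (r₀ / 4)), S.Hyp r₀ C₀ C₁ Λ τ B ε δ ∧
          ∃ (k : ℕ) (q : closedBall p (r₀ / 4)), (q : X) = p ∧ S.Dense r₀ C₀ Λ ε q k

/-- a bi-Lipschitz map with open image is a chart -/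
theorem biLipChart_of {X : Type u} [MetricSpace X] {n : ℕ} {L : ℝ} (hL : 0 < L) {U : Set X}
    (F : X → EuclideanSpace ℝ (Fin n)) (hF : ∀ x ∈ U, ∀ z ∈ U, L⁻¹ * dist x z ≤ dist (F x) (F z) ∧
      dist (F x) (F z) ≤ L * dist x z) (ho : IsOpen (F '' U)) : BiLipChart n L U := by
  have hinj : InjOn F U := fun x hx z hz h => by
    have h1 := (hF x hx z hz).1
    rw [h, dist_self] at h1
    have : 0 < L⁻¹ := inv_pos.2 hL
    exact dist_le_zero.1 (by nlinarith [dist_nonneg (x := x) (y := z)])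
  let G : U ≃ (F '' U : Set _) := Equiv.Set.imageOfInjOn F U hinj
  have hd : ∀ x z : U, dist (G x) (G z) = dist (F x) (F z) := fun x z => rfl
  have c1 : Continuous G := by
    refine (LipschitzWith.of_dist_le_mul (K := ⟨L, hL.le⟩) fun x z => ?_).continuous
    rw [hd]
    exact (hF x x.2 z z.2).2
  have c2 : Continuous G.symm := by
    refine (LipschitzWith.of_dist_le_mul (K := ⟨L, hL.le⟩) fun v w => ?_).continuous
    have h1 := (hF _ (G.symm v).2 _ (G.symm w).2).1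
    rw [← hd, G.apply_symm_apply, G.apply_symm_apply, inv_mul_le_iff₀ hL] at h1
    exact h1
  exact ⟨F '' U, ⟨G, c1, c2⟩, ho, fun x z => hF x x.2 z z.2⟩

/-- **Part A at `p` and Part B give a chart at `p`.** -/
theorem chart_of (hB : PartB.{u}) {n : ℕ} (hn : 1 ≤ n) : ∃ C₀ : ℝ, 2 ≤ C₀ ∧
    ∀ {X : Type u} [MetricSpace X] [CompleteSpace X] {p : X}, PartAAt n C₀ p →
      ∃ U : Set X, IsOpen U ∧ p ∈ U ∧ BiLipChart n 2 U := by
  obtain ⟨C₀, hC₀, HB⟩ := hB n hn
  refine ⟨C₀, hC₀, ?_⟩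
  intro X _ _ p hA
  obtain ⟨C₁, hC₁, HA⟩ := hA
  obtain ⟨c, hc, HB⟩ := HB C₁ hC₁
  obtain ⟨Λ, τ, B, hτ, hτΛ, hB1, HA⟩ := HA c hc
  have hτ2 : 1 ≤ τ ^ 2 := one_le_pow₀ hτ
  have hΛ0 : 0 < Λ := by
    by_contra h
    have : c * Λ ≤ 0 := mul_nonpos_of_nonneg_of_nonpos hc.le (not_lt.1 h)
    linarith
  obtain ⟨ε₀, hε₀, HB⟩ := HB Λ τ hτ hτΛ B hB1
  obtain ⟨ε, δ, hε, hεε, hδ, hδε, r₀, hr₀, S, hS, k, q, hq, hD⟩ := HA ε₀ hε₀
  obtain ⟨F, hF, HF⟩ := HB ε δ hε hεε hδ hδε (closedBall p (r₀ / 4)) S r₀ hS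
  have hcs : CompleteSpace (closedBall p (r₀ / 4)) := isClosed_closedBall.completeSpace_coe
  have HF := HF hcs q k hD
  have hr : 0 < rr r₀ Λ k := div_pos hr₀ (pow_pos hΛ0 k)
  classical
  set G : X → E n := fun x => if h : x ∈ closedBall p (r₀ / 4) then F ⟨x, h⟩ else 0 with hG
  have hGF : ∀ x (h : x ∈ closedBall p (r₀ / 4)), G x = F ⟨x, h⟩ := fun x h => by
    simp only [hG, dif_pos h]
  set s : ℝ := min (rr r₀ Λ k / 4) (r₀ / 16) with hs
  have hs0 : 0 < s := lt_min (by positivity) (by positivity)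
  set U : Set X := {x | x ∈ ball p (r₀ / 4) ∧ G x ∈ ball (F q) s} with hU
  have hsub : ∀ x ∈ U, x ∈ closedBall p (r₀ / 4) := fun x hx => ball_subset_closedBall hx.1
  have hpU : p ∈ U := by
    refine ⟨mem_ball_self (by linarith), ?_⟩
    have h1 : G p = F q := by
      rw [hGF p (mem_closedBall_self (by linarith))]
      congr 1
      exact Subtype.ext hq.symm
    rw [h1]
    exact mem_ball_self hs0
  have hcont : ContinuousOn G (ball p (r₀ / 4)) := by
    refine LipschitzOnWith.continuousOn (K := 2) ?_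
    refine LipschitzOnWith.of_dist_le_mul fun x hx z hz => ?_
    have hx' := ball_subset_closedBall hx
    have hz' := ball_subset_closedBall hz
    rw [hGF x hx', hGF z hz']
    exact (hF ⟨x, hx'⟩ ⟨z, hz'⟩).2
  have hUo : IsOpen U := hcont.isOpen_inter_preimage isOpen_ball isOpen_ball
  refine ⟨U, hUo, hpU, biLipChart_of (by norm_num) G (fun x hx z hz => ?_) ?_⟩
  · rw [hGF x (hsub x hx), hGF z (hsub z hz)]
    have h := hF ⟨x, hsub x hx⟩ ⟨z, hsub z hz⟩
    have hd : dist (⟨x, hsub x hx⟩ : closedBall p (r₀ / 4)) ⟨z, hsub z hz⟩ = dist x z := rfl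
    rw [hd] at h
    constructor
    · linarith [h.1]
    · exact h.2
  · have key : G '' U = ball (F q) s := by
      refine Subset.antisymm ?_ ?_
      · rintro _ ⟨x, hx, rfl⟩
        exact hx.2
      · intro w hw
        have hw1 : w ∈ ball (F q) (rr r₀ Λ k / 4) := ball_subset_ball (min_le_left _ _) hw
        obtain ⟨y, -, hyw⟩ := HF hw1
        have h1 : dist y q < r₀ / 4 := by
          have h2 := (hF y q).1
          rw [hyw] at h2
          have h3 : dist w (F q) < r₀ / 16 := lt_of_lt_of_le hw (min_le_right _ _)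
          linarith
        have h2 : (y : X) ∈ ball p (r₀ / 4) := by
          rw [mem_ball]
          have h4 : dist (y : X) p = dist (y : X) (q : X) := congrArg (dist (y : X)) hq.symm
          rw [h4]
          exact h1
        have h3 : G y = w := by rw [hGF _ y.2, ← hyw]
        exact ⟨y, ⟨h2, by rw [h3]; exact hw⟩, h3⟩
    rw [key]
    exact isOpen_ball

end Vale.Agent.P242.H448
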