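import Vale.Agent.P242.H71.Voc

/-! P242: the final theorem from Part A and Part B. -/

open Set Metric Filter Topology MeasureTheory
open scoped ENNReal MeasureTheory

universe u

namespace Vale.Agent.P242.H448

open H71 H719

/-- The final theorem: around every `n`-regular point of a noncollapsed `RCD(K,n)` space there is a
`2`-bi-Lipschitz chart, for all `n ≥ 2`. -/
def Final : Prop :=
  ∀ n : ℕ, 2 ≤ n → ∀ (X : Type u) [MetricSpace X] [CompleteSpace X] [SecondCountableTopology X]
    [MeasurableSpace X] [BorelSpace X] (K : ℝ), (μH[(n : ℝ)] : Measure X).IsOpenPosMeasure →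
    P233.CD.IsRCD (μH[(n : ℝ)] : Measure X) K n → ∀ p : X, IsRegular n p →
      ∃ U : Set X, IsOpen U ∧ p ∈ U ∧ BiLipChart n 2 U

theorem final_of (hA : H71.PartA.{u}) (hB : PartB.{u}) : Final.{u} := by
  intro n hn
  obtain ⟨C₀, hC₀, H⟩ := chart_of hB (n := n) (by omega)
  intro X _ _ _ _ _ K hpos hK p hp
  exact H (hA X n K ⟨hn, rfl, hpos, hK⟩ p hp C₀ hC₀)

end Vale.Agent.P242.H448
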