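import Vale.Agent.P242.H200.Ibp

/-! P242, package A-GL2 (helper448): the comparison of the affine part of `b_q - b_y` with the
increment of the coordinate map, tested at the centre `y`. Kernel-free. -/

set_option linter.all false

open MeasureTheory Filter Topology Set
open scoped ENNReal NNReal

namespace Vale.Agent.P242.H448

open Vale.Agent.P233 Vale.Agent.P242.H200

variable {M : Type*} [MeasurableSpace M] {m : Measure M} {C : Calc m}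

theorem gabs_ae (f : M →ₘ[m] ℝ) : ⇑|f| =ᵐ[m] fun x => |f x| := AEEqFun.coeFn_abs f

theorem gabs_mem {p : ℝ≥0∞} {f : M →ₘ[m] ℝ} (hf : MemLp f p m) : MemLp (|f| : M →ₘ[m] ℝ) p m :=
  mem_of_le hf (by filter_upwards [gabs_ae f] with x hx; rw [hx, abs_abs])

theorem I_abs_le_gabs {φ f : M →ₘ[m] ℝ} (h0 : 0 ≤ φ) : |I (φ * f)| ≤ I (φ * |f|) := by
  unfold I
  refine (abs_integral_le_integral_abs).trans (le_of_eq (integral_congr_ae ?_))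
  filter_upwards [mul_ae φ f, mul_ae φ |f|, gabs_ae f, nonneg_iff_ae.1 h0] with x a1 a2 a3 a4
  rw [a1, a2, a3, abs_mul, abs_of_nonneg a4]

/-- average of the expansion `⟨∇b,∇u_v⟩ = u_v + u_w + m + E` -/
theorem exp_avg {φ g uv uw : M →ₘ[m] ℝ} {mc e : ℝ} (h0 : 0 ≤ φ) (h1 : MemLp φ 1 m)
    (hI : I φ = 1) (hφ : MemLp φ ∞ m) (hφ2 : MemLp φ 2 m) (hg : MemLp g 1 m)
    (huv : MemLp uv 2 m) (huw : MemLp uw 2 m)
    (he : I (φ * |g - uv - uw - mc • (1 : M →ₘ[m] ℝ)|) ≤ e) :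
    |I (φ * g) - (I (φ * uv) + I (φ * uw) + mc)| ≤ e := by
  have e1 : φ * (g - uv - uw - mc • (1 : M →ₘ[m] ℝ))
      = ((φ * g - φ * uv) - φ * uw) - mc • φ := by
    rw [mul_sub, mul_sub, mul_sub, mul_smul_comm, mul_one]
  have i1 : MemLp (φ * g : M →ₘ[m] ℝ) 1 m := mem_mul_top hφ hg
  have i2 : MemLp (φ * uv : M →ₘ[m] ℝ) 1 m := mem_mul_22 hφ2 huv
  have i3 : MemLp (φ * uw : M →ₘ[m] ℝ) 1 m := mem_mul_22 hφ2 huw
  have i4 : MemLp (mc • φ : M →ₘ[m] ℝ) 1 m := mem_smul _ h1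
  have e2 : I (φ * (g - uv - uw - mc • (1 : M →ₘ[m] ℝ)))
      = I (φ * g) - (I (φ * uv) + I (φ * uw) + mc) := by
    rw [e1, I_sub (mem_sub (mem_sub i1 i2) i3) i4, I_sub (mem_sub i1 i2) i3, I_sub i1 i2, I_smul,
      hI]
    ring
  rw [← e2]
  exact (I_abs_le_gabs h0).trans he

/-- **A-GL2**, one scale, centre `y`. `φ` the weight of the centre `y`, `φ'` a majorant of `φ` and
of its gradient; `by'`, `bq` the smoothed squared distances; `uv`, `uy = u_{A^y v}`,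
`uq = u_{A^q v}`, `uc` coordinate functions; `Yv, Yy, Yq` their values at `y` and `Zv, Zq` their
values at `q`. -/
theorem gl2_core (hC : IsDir C) {φ φ' by' bq uv uy uq uc : M →ₘ[m] ℝ}
    {a ℓ L₁ L₂ c₀ my mq ey eq ρ ty tq Yv Yy Yq Zv Zq : ℝ}
    (hφ : φ ∈ C.A) (hφ1 : MemLp φ 1 m) (h0 : 0 ≤ φ) (hI : I φ = 1)
    (hby : by' ∈ C.A) (hbq : bq ∈ C.A) (huc : uc ∈ C.A) (hlap : C.IsLap uv (C.lap uv))
    (huy : MemLp uy 2 m) (huq : MemLp uq 2 m)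
    (hL₁ : 0 ≤ L₁) (hL₂ : 0 ≤ L₂) (hℓ : 0 ≤ ℓ) (ha : 0 ≤ a)
    (hφ' : ∀ᵐ x ∂m, 0 ≤ φ' x) (hφ'1 : MemLp φ' 1 m)
    (h1 : ∀ᵐ x ∂m, |φ x| ≤ a * φ' x) (h2 : ∀ᵐ x ∂m, C.Γ φ φ x ≤ (ℓ * φ' x) ^ 2)
    (h3 : ∀ᵐ x ∂m, C.Γ uv uv x ≤ L₁ ^ 2) (h4 : ∀ᵐ x ∂m, |C.lap uv x| ≤ L₂)
    -- the two expansions
    (hy : I (φ * |C.Γ by' uv - uv - uy - my • (1 : M →ₘ[m] ℝ)|) ≤ ey)
    (hq : I (φ * |C.Γ bq uv - uv - uq - mq • (1 : M →ₘ[m] ℝ)|) ≤ eq)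
    -- affine approximation of the difference
    (hρ : I (φ' * |bq - by' - uc - c₀ • (1 : M →ₘ[m] ℝ)|) ≤ ρ)
    -- values at the centre
    (hty : |I (φ * uy) - Yy| ≤ ty) (htq : |I (φ * uq) - Yq| ≤ tq) :
    |I (φ * C.Γ uc uv) - (Yv - Zv) - (Yq - Zq)|
      ≤ (a * L₂ + ℓ * L₁) * ρ + ey + eq + ty + tq + |my + Yv + Yy| + |mq + Zv + Zq| := by
  have huv : MemLp uv 2 m := hC.memLp _ hlap.1
  have hφ2 : MemLp φ 2 m := hC.memLp _ hφ.1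
  have g1 := hC.Γ_mem1 hby.1 hlap.1
  have g2 := hC.Γ_mem1 hbq.1 hlap.1
  have g3 := hC.Γ_mem1 huc.1 hlap.1
  have A1 := exp_avg h0 hφ1 hI hφ.2 hφ2 g1 huv huy hy
  have A2 := exp_avg h0 hφ1 hI hφ.2 hφ2 g2 huv huq hq
  have hψ : bq - by' - uc ∈ C.A := hC.A_sub (hC.A_sub hbq hby) huc
  have A3 := ibp_bound hC (c₀ := c₀) hφ hφ1 hψ hlap hL₁ hL₂ hℓ ha hφ' hφ'1 h1 h2 h3 h4
  have hK : 0 ≤ a * L₂ + ℓ * L₁ := by positivity
  have A4 := A3.trans (mul_le_mul_of_nonneg_left hρ hK)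
  have e1 : C.Γ (bq - by' - uc) uv = C.Γ bq uv - C.Γ by' uv - C.Γ uc uv := by
    rw [hC.Γ_sub_left (hC.sub_mem hbq.1 hby.1) huc.1 hlap.1, hC.Γ_sub_left hbq.1 hby.1 hlap.1]
  have e2 : I (φ * C.Γ (bq - by' - uc) uv)
      = I (φ * C.Γ bq uv) - I (φ * C.Γ by' uv) - I (φ * C.Γ uc uv) := by
    rw [e1, mul_sub, mul_sub,
      I_sub (mem_sub (mem_mul_top hφ.2 g2) (mem_mul_top hφ.2 g1)) (mem_mul_top hφ.2 g3),
      I_sub (mem_mul_top hφ.2 g2) (mem_mul_top hφ.2 g1)]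
  rw [e2] at A4
  have B1 := abs_le.1 A1
  have B2 := abs_le.1 A2
  have B4 := abs_le.1 A4
  have B5 := abs_le.1 hty
  have B6 := abs_le.1 htq
  have B7 := neg_abs_le (my + Yv + Yy)
  have B8 := neg_abs_le (mq + Zv + Zq)
  have B9 := le_abs_self (my + Yv + Yy)
  have B10 := le_abs_self (mq + Zv + Zq)
  rw [abs_le]
  constructor <;> linarith

end Vale.Agent.P242.H448
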