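import Vale.Agent.P242.H71.Voc
import Vale.Agent.P242.H542.Gam

/-! P242 (helper448): growth of the gradient of the coordinate functions, (P3g). -/

set_option linter.all false

open MeasureTheory Filter Topology Set Metric
open scoped ENNReal NNReal InnerProductSpace

universe u

namespace Vale.Agent.P242.H448

open Vale.Agent.P233 Vale.Agent.P233.RA Vale.Agent.P242.H990 Vale.Agent.P242.H520 Vale.Agent.P242.H71

/-! ### kernel comparison with growth -/

section kernel

variable {M : Type u} [MetricSpace M]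

/-- comparison of the kernel at a far point with the kernel at the centre, with Gaussian growth -/
theorem p_far {n : ℕ} {o : M} {A : ℝ} {p : ℝ → M → M → ℝ} (h : KB n o A p) {Γ s t : ℝ} (hs : 0 < s)
    (h1 : 2 * A ^ 2 * s ≤ t) (h2 : t ≤ Γ * s) (h3 : t ≤ 1 / 2) (x z w : M) :
    p s z w ≤ A ^ 2 * √Γ ^ n * Real.exp (A * dist z o + A * dist x o) *
      Real.exp (2 * A * dist x z ^ 2 / t) * p t x w := by
  have hA := h.one_le
  have hA0 := h.pos
  have hA2 : 1 ≤ A ^ 2 := one_le_pow₀ hA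
  have ht : 0 < t := lt_of_lt_of_le (by positivity) h1
  have hΓ0 : 0 < Γ := by
    by_contra hc
    rw [not_lt] at hc
    nlinarith
  have hst : s ≤ t := by nlinarith
  have q0 : 0 < √s := Real.sqrt_pos.2 hs
  have up := h.upper s hs (hst.trans h3) z w
  have low := h.lower t ht h3 x w
  have t5 : (√s ^ n)⁻¹ ≤ √Γ ^ n * (√t ^ n)⁻¹ := by
    have b1 : √t ≤ √Γ * √s := by
      rw [← Real.sqrt_mul hΓ0.le]
      exact Real.sqrt_le_sqrt h2
    have b2 : √t ^ n ≤ √Γ ^ n * √s ^ n := by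
      rw [← mul_pow]
      exact pow_le_pow_left₀ (Real.sqrt_nonneg _) b1 n
    have b3 : 0 < √t ^ n := pow_pos (Real.sqrt_pos.2 ht) n
    have b4 : 0 < √s ^ n := pow_pos q0 n
    rw [← div_eq_mul_inv, le_div_iff₀ b3, inv_mul_le_iff₀ b4]
    linarith
  have d1 : dist x w ^ 2 ≤ 2 * dist x z ^ 2 + 2 * dist z w ^ 2 := by
    have a := dist_triangle x z w
    have a2 := pow_le_pow_left₀ dist_nonneg a 2
    nlinarith [sq_nonneg (dist x z - dist z w)]
  have e0 : A * dist x w ^ 2 / t ≤ 2 * A * dist x z ^ 2 / t + dist z w ^ 2 / (A * s) := by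
    have a1 : A * dist x w ^ 2 / t ≤ (2 * A * dist x z ^ 2 + 2 * A * dist z w ^ 2) / t := by
      gcongr
      nlinarith
    have a2 : 2 * A * dist z w ^ 2 / t ≤ dist z w ^ 2 / (A * s) := by
      rw [div_le_div_iff₀ ht (by positivity)]
      have := mul_le_mul_of_nonneg_left h1 (sq_nonneg (dist z w))
      nlinarith
    rw [add_div] at a1
    linarith
  have e1 : Real.exp (-(dist z w ^ 2 / (A * s)))
      ≤ Real.exp (2 * A * dist x z ^ 2 / t) * Real.exp (-(A * dist x w ^ 2 / t)) := by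
    rw [← Real.exp_add]
    apply Real.exp_le_exp.2
    linarith
  have low' : Real.exp (-(A * dist x o)) * ((√t ^ n)⁻¹ * Real.exp (-(A * dist x w ^ 2 / t)))
      ≤ A * p t x w := by
    have c1 := mul_le_mul_of_nonneg_left low hA0.le
    have c2 : A * (A⁻¹ * Real.exp (-(A * dist x o)) * (√t ^ n)⁻¹
        * Real.exp (-(A * dist x w ^ 2 / t)))
        = Real.exp (-(A * dist x o)) * ((√t ^ n)⁻¹ * Real.exp (-(A * dist x w ^ 2 / t))) := by
      field_simp
    rwa [c2] at c1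
  have e3 : (1 : ℝ) = Real.exp (A * dist x o) * Real.exp (-(A * dist x o)) := by
    rw [← Real.exp_add]; simp
  calc p s z w ≤ A * Real.exp (A * dist z o) * (√s ^ n)⁻¹ * Real.exp (-(dist z w ^ 2 / (A * s))) := up
    _ ≤ A * Real.exp (A * dist z o) * (√Γ ^ n * (√t ^ n)⁻¹)
        * (Real.exp (2 * A * dist x z ^ 2 / t) * Real.exp (-(A * dist x w ^ 2 / t))) := by
        gcongr
    _ = A * Real.exp (A * dist z o) * √Γ ^ n * Real.exp (2 * A * dist x z ^ 2 / t)
        * (1 * ((√t ^ n)⁻¹ * Real.exp (-(A * dist x w ^ 2 / t)))) := by ring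
    _ = A * Real.exp (A * dist z o) * √Γ ^ n * Real.exp (2 * A * dist x z ^ 2 / t)
        * (Real.exp (A * dist x o) * (Real.exp (-(A * dist x o))
          * ((√t ^ n)⁻¹ * Real.exp (-(A * dist x w ^ 2 / t))))) := by
        conv_lhs => rw [e3]
        ring
    _ ≤ A * Real.exp (A * dist z o) * √Γ ^ n * Real.exp (2 * A * dist x z ^ 2 / t)
        * (Real.exp (A * dist x o) * (A * p t x w)) := by
        gcongr
    _ = _ := by
        rw [Real.exp_add]; ring

end kernel

/-! ### sub mean value property of `|∇f|²` -/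

section sub

variable {M : Type u} [MeasurableSpace M] {m : Measure M} {C : Calc m}

/-- `P_σ|∇f|²(x) ≤ e^{2k(s-σ)} (P_s|∇f|²(x) + 2 s E)` -/
theorem sub_mean (hC : IsGamma C) {k : ℝ} (hk : 0 ≤ k) (hB : C.BEi (-k)) {φ : ℝ → M →ₘ[m] ℝ}
    (hφ : Cen C φ) {f : M →ₘ[m] ℝ} (hf : f ∈ C.Test) {σ s e : ℝ} (hσ : 0 < σ) (hσs : σ ≤ s)
    (he : 0 ≤ e) (hE : ∀ r, σ ≤ r → r ≤ s → |I (φ r * C.Γ f (C.lap f))| ≤ e) :
    I (φ σ * C.Γ f f) ≤ Real.exp (2 * k * s) * (I (φ s * C.Γ f f) + 2 * s * e) := by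
  have hB' : C.BEi (-|k|) := by rwa [abs_of_nonneg hk]
  have hs : 0 < s := lt_of_lt_of_le hσ hσs
  have hF := (hC.Γ_mem hB hf hf).1
  have hF2 : MemLp (C.Γ f f) 2 m := hC.memLp _ hF
  set h : ℝ → ℝ := fun r => I (φ r * C.Γ f f) with hh
  have hd : ∀ r, 0 < r → HasDerivAt h (I (C.lap (φ r) * C.Γ f f)) r := fun r hr =>
    hφ.hasDeriv_av hC.toIsDir hr hF2
  set H : ℝ → ℝ := fun r => Real.exp (2 * k * r) * (h r + 2 * e * r) with hH
  have hHd : ∀ r, 0 < r → HasDerivAt H (Real.exp (2 * k * r) * (2 * k) * (h r + 2 * e * r)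
      + Real.exp (2 * k * r) * (I (C.lap (φ r) * C.Γ f f) + 2 * e)) r := by
    intro r hr
    have a1 : HasDerivAt (fun r : ℝ => 2 * k * r) (2 * k) r := by
      simpa using (hasDerivAt_id r).const_mul (2 * k)
    have a2 : HasDerivAt (fun r : ℝ => 2 * e * r) (2 * e) r := by
      simpa using (hasDerivAt_id r).const_mul (2 * e)
    exact a1.exp.mul ((hd r hr).add a2)
  have hmono : MonotoneOn H (Icc σ s) := by
    refine monotoneOn_of_deriv_nonneg (convex_Icc σ s) ?_ ?_ ?_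
    · intro r hr
      exact (hHd r (hσ.trans_le hr.1)).continuousAt.continuousWithinAt
    · intro r hr
      rw [interior_Icc] at hr
      exact (hHd r (hσ.trans hr.1)).differentiableAt.differentiableWithinAt
    · intro r hr
      rw [interior_Icc] at hr
      have hr0 : 0 < r := hσ.trans hr.1
      rw [(hHd r hr0).deriv]
      have l1 := hφ.lap_av_Γ (K₀ := k) hC hB hr0 hf hf
      have l2 := hC.NN_nonneg hB hf (hφ.memA hC.toIsDir hr0) (hφ.nonneg r hr0)
      have l3 : I (φ r * (C.Γ f (C.lap f) + C.Γ f (C.lap f))) = 2 * I (φ r * C.Γ f (C.lap f)) := by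
        have hm : MemLp (φ r * C.Γ f (C.lap f) : M →ₘ[m] ℝ) 1 m :=
          mem_mul_top (hφ.top r hr0) (hC.toIsDir.Γ_mem1 (hC.test_A hf).1 (hC.test_lap_mem hf))
        rw [mul_add, I_add hm hm]; ring
      have l4 := (abs_le.1 (hE r hr.1.le hr.2.le)).1
      rw [l3] at l1
      have l5 : 0 ≤ 2 * k * (2 * e * r) := by positivity
      have l6 : 0 ≤ 2 * k * (h r + 2 * e * r) + (I (C.lap (φ r) * C.Γ f f) + 2 * e) := by
        rw [l1]
        simp only [hh]
        linarith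
      calc (0 : ℝ) ≤ Real.exp (2 * k * r) * (2 * k * (h r + 2 * e * r)
            + (I (C.lap (φ r) * C.Γ f f) + 2 * e)) := mul_nonneg (Real.exp_pos _).le l6
        _ = _ := by ring
  have hm := hmono (left_mem_Icc.2 hσs) (right_mem_Icc.2 hσs) hσs
  have b0 : 0 ≤ h σ := I_nonneg (mul_nonneg (hφ.nonneg σ hσ) (hC.toIsDir.nonneg f (hC.test_A hf).1))
  have b1 : h σ ≤ H σ := by
    simp only [hH]
    have c1 : 1 ≤ Real.exp (2 * k * σ) := Real.one_le_exp (by positivity)
    have c2 : 0 ≤ 2 * e * σ := by positivity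
    nlinarith
  calc I (φ σ * C.Γ f f) = h σ := rfl
    _ ≤ H σ := b1
    _ ≤ H s := hm
    _ = Real.exp (2 * k * s) * (I (φ s * C.Γ f f) + 2 * s * e) := by
        simp only [hH, hh]; ring

end sub

end Vale.Agent.P242.H448
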