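import Vale.Agent.P242.H448.P3g

/-! P242 (helper448): (P3g) for times up to `L ρ²`, and the top scale gradient bound. -/

set_option linter.all false

open MeasureTheory Filter Topology Set Metric
open scoped ENNReal NNReal InnerProductSpace

universe u

namespace Vale.Agent.P242.H448

open Vale.Agent.P233 Vale.Agent.P233.RA Vale.Agent.P242.H990 Vale.Agent.P242.H520 Vale.Agent.P242.H71

section main

variable {M : Type u} [MetricSpace M] [MeasurableSpace M] [BorelSpace M] {m : Measure M} {n : ℕ}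
  {K : ℝ} {o : M} {A : ℝ} {p : ℝ → M → M → ℝ}

/-- the bound near `o`, general times -/
theorem P3g_in' (hC : IsGamma (sob m)) (hB : (sob m).BEi (-|K|)) (hp : Ker0 m p) (hk : KB n o A p)
    {R Q η ρ : ℝ} {u : Fin n → M →ₘ[m] ℝ} {uu : M → E n} (hu : Cfg m n K o p R Q η ρ u uu)
    (hη : 0 ≤ η) {x : M} (hxo : dist x o ≤ 1) {t : ℝ} (ht : 0 < t) (ht1 : t ≤ Q * ρ ^ 2) {c₀ : ℝ}
    (hc₀ : 0 < c₀) (v : E n) (hv : ‖v‖ ^ 2 * (t / ρ ^ 2) * η ≤ Gm m p u t x v v / c₀) {z : M}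
    (hz : z ∈ ball o (R * ρ)) {σ : ℝ} (hσ : 0 < σ) (hσs : σ ≤ t / (2 * A ^ 2)) :
    PP m p σ z ((sob m).Γ (uc u v) (uc u v)) ≤ Real.exp (2 * |K|) * ((cFar n A + 4 * n / c₀)
      * (Real.exp (2 * A * dist x z ^ 2 / t) * Gm m p u t x v v)) := by
  have hD := hC.toIsDir
  have hρ := hu.ρ_pos
  have hρ2 : 0 < ρ ^ 2 := pow_pos hρ 2
  have hA := hk.one_le
  have hA0 := hk.pos
  have hfW := H751.uc_W hC hu v
  have hQρ := hu.Qρ
  have ht2 : t ≤ 1 / 2 := ht1.trans hQρ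
  have hA2 : 1 ≤ A ^ 2 := one_le_pow₀ hA
  have hzo : dist z o ≤ 1 := (mem_ball.1 hz).le.trans hu.Rρ
  have hs0 : 0 < t / (2 * A ^ 2) := div_pos ht (by positivity)
  have hst : t / (2 * A ^ 2) ≤ t := div_le_self ht.le (by linarith)
  have hFm : MemLp ((sob m).Γ (uc u v) (uc u v)) 1 m := hD.Γ_mem1 hfW hfW
  have hPs := PP_far hC hp hk ht ht2 hxo hzo hFm (hD.Γ_nonneg_ae hfW)
  have hEr : ∀ r, σ ≤ r → r ≤ t / (2 * A ^ 2) →
      |I (ph m p r z * (sob m).Γ (uc u v) ((sob m).lap (uc u v)))| ≤ 2 * n * ‖v‖ ^ 2 * (η / ρ ^ 2) :=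
    fun r hr hrs => PP_mix_le hC hp hk hu hη v (hσ.trans_le hr) (hrs.trans (hst.trans ht1)) hz
  have hsub := sub_mean hC (abs_nonneg K) hB (cen_ph hC hp hk z) (H751.uc_test hC hu v) hσ hσs
    (by positivity) hEr
  set s := t / (2 * A ^ 2) with hs
  set G := Gm m p u t x v v with hG
  set X := Real.exp (2 * A * dist x z ^ 2 / t) with hX
  have hG0 : 0 ≤ G := I_nonneg (mul_nonneg (ph_nonneg hp ht x) (hD.nonneg _ hfW))
  have hX1 : 1 ≤ X := Real.one_le_exp (by positivity)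
  have hn0 : (0 : ℝ) ≤ n := Nat.cast_nonneg n
  have hse : 2 * s * (2 * n * ‖v‖ ^ 2 * (η / ρ ^ 2)) ≤ 4 * n / c₀ * (X * G) := by
    have l0 : 2 * s * (2 * n * ‖v‖ ^ 2 * (η / ρ ^ 2))
        ≤ 2 * t * (2 * n * ‖v‖ ^ 2 * (η / ρ ^ 2)) := by gcongr
    have l1 : 2 * t * (2 * n * ‖v‖ ^ 2 * (η / ρ ^ 2))
        = 4 * n * (‖v‖ ^ 2 * (t / ρ ^ 2) * η) := by ring
    have l3 : 4 * n * (‖v‖ ^ 2 * (t / ρ ^ 2) * η) ≤ 4 * n * (G / c₀) := by gcongr
    have l4 : 4 * n * (G / c₀) = 4 * n / c₀ * (1 * G) := by ring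
    have l5 : 4 * n / c₀ * (1 * G) ≤ 4 * n / c₀ * (X * G) := by gcongr
    linarith
  have hex2 : Real.exp (2 * |K| * s) ≤ Real.exp (2 * |K|) := by
    apply Real.exp_le_exp.2
    have h1 : s ≤ 1 := by linarith
    have h2 := abs_nonneg K
    nlinarith
  have hPs' : I (ph m p s z * (sob m).Γ (uc u v) (uc u v)) ≤ cFar n A * (X * G) :=
    hPs.trans (le_of_eq (by rw [hG]; unfold Gm PP; ring))
  have hpos : 0 ≤ I (ph m p s z * (sob m).Γ (uc u v) (uc u v))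
      + 2 * s * (2 * n * ‖v‖ ^ 2 * (η / ρ ^ 2)) :=
    add_nonneg (I_nonneg (mul_nonneg (ph_nonneg hp hs0 z) (hD.nonneg _ hfW))) (by positivity)
  calc PP m p σ z ((sob m).Γ (uc u v) (uc u v)) ≤ _ := hsub
    _ ≤ Real.exp (2 * |K|) * (I (ph m p s z * (sob m).Γ (uc u v) (uc u v))
        + 2 * s * (2 * n * ‖v‖ ^ 2 * (η / ρ ^ 2))) := mul_le_mul_of_nonneg_right hex2 hpos
    _ ≤ _ := by
      refine mul_le_mul_of_nonneg_left ?_ (Real.exp_pos _).le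
      rw [add_mul]
      exact add_le_add hPs' hse

/-- **(P3g)** for times `t ≤ L ρ²`. -/
theorem P3gL (hC : IsGamma (sob m)) (hB : (sob m).BEi (-|K|)) (hp : Ker0 m p) (hk : KB n o A p)
    {R Q η ρ : ℝ} {u : Fin n → M →ₘ[m] ℝ} {uu : M → E n} (hu : Cfg m n K o p R Q η ρ u uu)
    (hR : 2 ≤ R) (hη : 0 ≤ η) {L : ℝ} (hL : 1 ≤ L) (hLQ : L ≤ Q) (hLη : L * η ≤ 1) {x : M}
    (hx : x ∈ ball o (R / 2 * ρ)) {t : ℝ} (ht : 0 < t) (ht1 : t ≤ L * ρ ^ 2) {c₀ : ℝ} (hc₀ : 0 < c₀)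
    (v : E n)
    (hlow : c₀ * (min 1 (t / ρ ^ 2)) ^ (1 / 8 : ℝ) * ‖v‖ ^ 2 ≤ Gm m p u t x v v) :
    ∀ᵐ z ∂m, (sob m).Γ (uc u v) (uc u v) z
      ≤ cP n A |K| c₀ * (Real.exp (2 * A * dist x z ^ 2 / t) * Gm m p u t x v v) := by
  have hD := hC.toIsDir
  have hρ := hu.ρ_pos
  have hρ2 : 0 < ρ ^ 2 := pow_pos hρ 2
  have hA := hk.one_le
  have hA0 := hk.pos
  have hRρ := hu.Rρ
  have htest := H751.uc_test hC hu v
  have hfW := (hC.test_A htest).1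
  have hF2 : MemLp ((sob m).Γ (uc u v) (uc u v)) 2 m := hD.memLp _ (hC.Γ_mem hB htest htest).1
  have hxo' : dist x o < R / 2 * ρ := mem_ball.1 hx
  have hxo : dist x o ≤ 1 := by nlinarith
  have hs0 : 0 < t / (2 * A ^ 2) := div_pos ht (by positivity)
  have hG0 : 0 ≤ Gm m p u t x v v :=
    I_nonneg (mul_nonneg (ph_nonneg hp ht x) (hD.nonneg _ hfW))
  have htQ : t ≤ Q * ρ ^ 2 := ht1.trans (mul_le_mul_of_nonneg_right hLQ hρ2.le)
  have hv : ‖v‖ ^ 2 * (t / ρ ^ 2) * η ≤ Gm m p u t x v v / c₀ ∧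
      ‖v‖ ^ 2 ≤ max 1 (ρ ^ 2 / t) * (Gm m p u t x v v / c₀) := by
    have hη1 : η ≤ 1 := by nlinarith
    rcases le_or_gt t (ρ ^ 2) with h | h
    · have hy1 : t / ρ ^ 2 ≤ 1 := (div_le_one hρ2).2 h
      rw [min_eq_right hy1] at hlow
      have h2 := norm_sq_le_of_low ht hρ2 h hc₀ (sq_nonneg _) hlow
      have h3 : 0 ≤ ‖v‖ ^ 2 * (t / ρ ^ 2) := by positivity
      refine ⟨?_, ?_⟩
      · calc ‖v‖ ^ 2 * (t / ρ ^ 2) * η ≤ ‖v‖ ^ 2 * (t / ρ ^ 2) * 1 := by gcongr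
          _ ≤ _ := by linarith [h2.1]
      · rw [max_eq_right ((one_le_div ht).2 h)]
        exact h2.2
    · have hy1 : 1 ≤ t / ρ ^ 2 := (one_le_div hρ2).2 h.le
      rw [min_eq_left hy1, Real.one_rpow, mul_one] at hlow
      have h4 : ‖v‖ ^ 2 ≤ Gm m p u t x v v / c₀ := by
        rw [le_div_iff₀ hc₀]; linarith
      refine ⟨?_, ?_⟩
      · have h5 : t / ρ ^ 2 * η ≤ 1 := by
          rw [div_mul_eq_mul_div, div_le_one hρ2]
          nlinarith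
        calc ‖v‖ ^ 2 * (t / ρ ^ 2) * η = ‖v‖ ^ 2 * (t / ρ ^ 2 * η) := by ring
          _ ≤ ‖v‖ ^ 2 * 1 := by gcongr
          _ ≤ _ := by linarith
      · rw [max_eq_left ((div_le_one ht).2 h.le)]
        linarith
  have hn0 : (0 : ℝ) ≤ n := Nat.cast_nonneg n
  have hcF := cFar_nonneg n A
  have hae := ae_le_of_avg hD hp hF2 hs0 (fun z hz σ hσ hσs =>
    P3g_in' hC hB hp hk hu hη hxo ht htQ hc₀ v hv.1 hz hσ hσs)
  filter_upwards [hae, grad_glob hC hu v] with z h1 h2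
  set G := Gm m p u t x v v with hG
  set X := Real.exp (2 * A * dist x z ^ 2 / t) with hX
  have hXG : 0 ≤ X * G := mul_nonneg (Real.exp_pos _).le hG0
  unfold cP
  rw [add_mul]
  by_cases hz : z ∈ ball o (R * ρ)
  · have h3 : 0 ≤ 4 * n / c₀ * (X * G) := by positivity
    have h4 := h1 hz
    rw [← mul_assoc] at h4
    linarith
  · -- far points
    have hzo : R * ρ ≤ dist z o := not_lt.1 hz
    have hd : ρ ≤ dist x z := by
      have h3 := dist_triangle z x o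
      rw [dist_comm z x] at h3
      nlinarith
    have hd2 : ρ ^ 2 ≤ dist x z ^ 2 := pow_le_pow_left₀ hρ.le hd 2
    have hX1 : 1 ≤ X := Real.one_le_exp (by positivity)
    have h4 : max 1 (ρ ^ 2 / t) ≤ X := by
      have h5 : ρ ^ 2 / t ≤ 2 * A * dist x z ^ 2 / t := by
        gcongr
        nlinarith [sq_nonneg (dist x z)]
      have h6 := Real.add_one_le_exp (2 * A * dist x z ^ 2 / t)
      exact max_le hX1 (by linarith)
    have h10 : 0 ≤ G / c₀ := div_nonneg hG0 hc₀.le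
    have h11 : ‖v‖ ^ 2 ≤ X * (G / c₀) := hv.2.trans (mul_le_mul_of_nonneg_right h4 h10)
    have h12 : 4 * n * ‖v‖ ^ 2 ≤ 4 * n * (X * (G / c₀)) := by gcongr
    have h13 : 4 * n * (X * (G / c₀)) = 4 * n / c₀ * (X * G) := by ring
    have h14 : 0 ≤ Real.exp (2 * |K|) * (cFar n A + 4 * n / c₀) * (X * G) := by positivity
    linarith

/-- the gradient bound at the top scale from `Cfg` alone -/
theorem grad_top (hC : IsGamma (sob m)) (hB : (sob m).BEi (-|K|)) (hp : Ker0 m p) (hk : KB n o A p)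
    {R Q η ρ : ℝ} {u : Fin n → M →ₘ[m] ℝ} {uu : M → E n} (hu : Cfg m n K o p R Q η ρ u uu)
    (hQ : 1 ≤ Q) (hη : 0 ≤ η) {s : ℝ} (hs1 : ρ ^ 2 / Q ≤ s) (hs2 : s ≤ Q * ρ ^ 2) (v : E n) :
    ∀ᵐ z ∂m, z ∈ ball o (R * ρ) → (sob m).Γ (uc u v) (uc u v) z
      ≤ Real.exp (2 * |K| * s) * (1 + η + 4 * n * (s / ρ ^ 2) * η) * ‖v‖ ^ 2 := by
  have hD := hC.toIsDir
  have hρ := hu.ρ_pos
  have hρ2 : 0 < ρ ^ 2 := pow_pos hρ 2
  have htest := H751.uc_test hC hu v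
  have hF2 : MemLp ((sob m).Γ (uc u v) (uc u v)) 2 m := hD.memLp _ (hC.Γ_mem hB htest htest).1
  have hs0 : 0 < s := lt_of_lt_of_le (by positivity) hs1
  refine ae_le_of_avg hD hp hF2 hs0 (b := fun _ => Real.exp (2 * |K| * s)
    * (1 + η + 4 * n * (s / ρ ^ 2) * η) * ‖v‖ ^ 2) fun z hz σ hσ hσs => ?_
  have hsub := sub_mean hC (abs_nonneg K) hB (cen_ph hC hp hk z) htest hσ hσs
    (e := 2 * n * ‖v‖ ^ 2 * (η / ρ ^ 2)) (by positivity)
    (fun r hr hrs => PP_mix_le hC hp hk hu hη v (hσ.trans_le hr) (hrs.trans hs2) hz)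
  refine hsub.trans ?_
  have hg := hu.gram z hz s hs1 hs2 v v
  rw [real_inner_self_eq_norm_sq] at hg
  have hg2 : I (ph m p s z * (sob m).Γ (uc u v) (uc u v)) ≤ ‖v‖ ^ 2 + η * ‖v‖ * ‖v‖ := by
    have := (abs_le.1 hg).2
    unfold Gm PP at this
    linarith
  have h3 : I (ph m p s z * (sob m).Γ (uc u v) (uc u v)) + 2 * s * (2 * n * ‖v‖ ^ 2 * (η / ρ ^ 2))
      ≤ (1 + η + 4 * n * (s / ρ ^ 2) * η) * ‖v‖ ^ 2 := by
    have e1 : 2 * s * (2 * n * ‖v‖ ^ 2 * (η / ρ ^ 2)) = 4 * n * (s / ρ ^ 2) * η * ‖v‖ ^ 2 := by ring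
    rw [e1]
    nlinarith
  have h4 := mul_le_mul_of_nonneg_left h3 (Real.exp_pos (2 * |K| * s)).le
  calc _ ≤ _ := h4
    _ = _ := by ring

end main

end Vale.Agent.P242.H448
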