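import Vale.Agent.P242.H448.P3gL
import Vale.Agent.P242.H448.GL2
import Vale.Agent.P242.H597.EnvA
import Vale.Agent.P242.H655.E4Def
import Vale.Agent.P242.H254.E1v
import Vale.Agent.P242.H924.Final
import Vale.Agent.P242.H990.K

/-! P242, package A-GL2 (helper448), part 2: the ingredients in the frozen vocabulary. -/

set_option linter.all false

open MeasureTheory Filter Topology Set Metric
open scoped ENNReal NNReal InnerProductSpace

universe u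

namespace Vale.Agent.P242.H448

open Vale.Agent.P233 Vale.Agent.P233.RA Vale.Agent.P242.H990 Vale.Agent.P242.H520 Vale.Agent.P242.H71

section core

variable {M : Type*} [MeasurableSpace M] {m : Measure M} {C : Calc m}

/-- **A-GL2**, the form with a bound of the product `Γ(φ,u_v)`. -/
theorem gl2_core' (hC : IsDir C) {φ ζ by' bq uv uy uq uc : M →ₘ[m] ℝ}
    {ℓ el c₀ my mq ey eq ρ ty tq Yv Yy Yq Zv Zq : ℝ}
    (hφ : φ ∈ C.A) (hφ1 : MemLp φ 1 m) (h0 : 0 ≤ φ) (hI : I φ = 1)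
    (hby : by' ∈ C.A) (hbq : bq ∈ C.A) (huc : uc ∈ C.A) (hlap : C.IsLap uv (C.lap uv))
    (huy : MemLp uy 2 m) (huq : MemLp uq 2 m) (hℓ : 0 ≤ ℓ)
    (hζ : ∀ᵐ x ∂m, 0 ≤ ζ x) (hζ1 : MemLp ζ 1 m)
    (hΓ : ∀ᵐ x ∂m, |C.Γ φ uv x| ≤ ℓ * ζ x)
    (hel : |I ((bq - by' - uc - c₀ • (1 : M →ₘ[m] ℝ)) * (φ * C.lap uv))| ≤ el)
    (hy : I (φ * |C.Γ by' uv - uv - uy - my • (1 : M →ₘ[m] ℝ)|) ≤ ey)
    (hq : I (φ * |C.Γ bq uv - uv - uq - mq • (1 : M →ₘ[m] ℝ)|) ≤ eq)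
    (hρ : I (ζ * |bq - by' - uc - c₀ • (1 : M →ₘ[m] ℝ)|) ≤ ρ)
    (hty : |I (φ * uy) - Yy| ≤ ty) (htq : |I (φ * uq) - Yq| ≤ tq) :
    |I (φ * C.Γ uc uv) - (Yv - Zv) - (Yq - Zq)|
      ≤ ℓ * ρ + el + ey + eq + ty + tq + |my + Yv + Yy| + |mq + Zv + Zq| := by
  have huv : MemLp uv 2 m := hC.memLp _ hlap.1
  have hφ2 : MemLp φ 2 m := hC.memLp _ hφ.1
  have g1 := hC.Γ_mem1 hby.1 hlap.1
  have g2 := hC.Γ_mem1 hbq.1 hlap.1
  have g3 := hC.Γ_mem1 huc.1 hlap.1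
  have A1 := exp_avg h0 hφ1 hI hφ.2 hφ2 g1 huv huy hy
  have A2 := exp_avg h0 hφ1 hI hφ.2 hφ2 g2 huv huq hq
  have hψ : bq - by' - uc ∈ C.A := hC.A_sub (hC.A_sub hbq hby) huc
  set F : M →ₘ[m] ℝ := bq - by' - uc - c₀ • (1 : M →ₘ[m] ℝ) with hF
  have hFt : MemLp F ∞ m := mem_sub hψ.2 (mem_smul _ mem_top_one)
  have j1 : MemLp (φ * C.lap uv : M →ₘ[m] ℝ) 1 m := mem_mul_22 hφ2 hlap.2.1
  have j2 : MemLp (C.Γ φ uv) 1 m := hC.Γ_mem1 hφ.1 hlap.1
  have A3 := H200.ibp hC hφ hφ1 hψ hlap c₀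
  rw [← hF, mul_add, I_add (mem_mul_top hFt j1) (mem_mul_top hFt j2)] at A3
  have A4 : |I (F * C.Γ φ uv)| ≤ ℓ * ρ := by
    have hFa : MemLp (|F| : M →ₘ[m] ℝ) ∞ m := gabs_mem hFt
    have k1 : MemLp (ζ * |F| : M →ₘ[m] ℝ) 1 m := mem_top_mul hζ1 hFa
    calc |I (F * C.Γ φ uv)| ≤ I (ℓ • (ζ * |F|)) := by
          unfold I
          refine (abs_integral_le_integral_abs).trans (integral_mono_ae
            (int_of_mem (mem_mul_top hFt j2)).abs (int_of_mem (mem_smul _ k1)) ?_)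
          filter_upwards [mul_ae F (C.Γ φ uv), smul_ae (ζ * |F|) ℓ, mul_ae ζ |F|, gabs_ae F, hΓ]
            with x a1 a2 a3 a4 a5
          simp only [a1, a2, a3, a4]
          rw [abs_mul]
          calc |F x| * |C.Γ φ uv x| ≤ |F x| * (ℓ * ζ x) :=
                mul_le_mul_of_nonneg_left a5 (abs_nonneg _)
            _ = _ := by ring
      _ = ℓ * I (ζ * |F|) := I_smul ℓ
      _ ≤ ℓ * ρ := mul_le_mul_of_nonneg_left hρ hℓ
  have e1 : C.Γ (bq - by' - uc) uv = C.Γ bq uv - C.Γ by' uv - C.Γ uc uv := by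
    rw [hC.Γ_sub_left (hC.sub_mem hbq.1 hby.1) huc.1 hlap.1, hC.Γ_sub_left hbq.1 hby.1 hlap.1]
  have e2 : I (φ * C.Γ (bq - by' - uc) uv)
      = I (φ * C.Γ bq uv) - I (φ * C.Γ by' uv) - I (φ * C.Γ uc uv) := by
    rw [e1, mul_sub, mul_sub,
      I_sub (mem_sub (mem_mul_top hφ.2 g2) (mem_mul_top hφ.2 g1)) (mem_mul_top hφ.2 g3),
      I_sub (mem_mul_top hφ.2 g2) (mem_mul_top hφ.2 g1)]
  rw [e2] at A3
  have B1 := abs_le.1 A1
  have B2 := abs_le.1 A2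
  have B4 := abs_le.1 A4
  have B4' := abs_le.1 hel
  have B5 := abs_le.1 hty
  have B6 := abs_le.1 htq
  have B7 := neg_abs_le (my + Yv + Yy)
  have B8 := neg_abs_le (mq + Zv + Zq)
  have B9 := le_abs_self (my + Yv + Yy)
  have B10 := le_abs_self (mq + Zv + Zq)
  rw [abs_le]
  constructor <;> linarith

end core

section env

variable {M : Type u} [MetricSpace M] [CompleteSpace M] [SecondCountableTopology M]
  [MeasurableSpace M] [BorelSpace M] {m : Measure M} {n : ℕ} {K : ℝ} {o : M} {A : ℝ}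
  {p : ℝ → M → M → ℝ} {R Q η ρ : ℝ} {u : Fin n → M →ₘ[m] ℝ} {uu : M → E n}

/-- the constant of `grad_prod` -/
noncomputable def cE (n : ℕ) (A κ c₀ Γ : ℝ) : ℝ :=
  Real.exp κ * (√512 * A) * (cK n A (512 * A ^ 2 * Γ) 0 * Real.exp (32 * A)) * √(cP n A κ c₀)

theorem cE_nonneg {n : ℕ} {A κ c₀ Γ : ℝ} (hA : 1 ≤ A) (hΓ : 0 < Γ) : 0 ≤ cE n A κ c₀ Γ := by
  have := cK_pos (n := n) (A := A) (Γ := 512 * A ^ 2 * Γ) (C₀ := 0) hA (by positivity)
  unfold cE
  positivity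

/-- the product of the gradient of the kernel and the gradient of `u_v` -/
theorem grad_prod (h : Env m n K o A p) {x : M} (hxo : dist x o ≤ 1) {t T Γ c₀ G : ℝ}
    (ht : 0 < t) (htT : t ≤ T) (hTΓ : T ≤ Γ * t) (hT : T ≤ 1 / 2) (hc₀ : 0 < c₀)
    {f : M →ₘ[m] ℝ} (hf : f ∈ (sob m).W) (hG : 0 ≤ G)
    (hg : ∀ᵐ z ∂m, (sob m).Γ f f z ≤ cP n A |K| c₀ * (Real.exp (2 * A * dist x z ^ 2 / t) * G)) :
    ∀ᵐ z ∂m, |(sob m).Γ (ph m p (t / (512 * A ^ 2)) x) f z|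
      ≤ cE n A |K| c₀ Γ / √t * √G * ph m p T x z := by
  have hC := H751.env_gamma h
  have hB := H597.env_bei' h
  have hA := h.kb.one_le
  have hA0 := h.kb.pos
  have hA2 : 1 ≤ A ^ 2 := one_le_pow₀ hA
  have hs0 : 0 < t / (512 * A ^ 2) := by positivity
  have hs1 : 512 * A ^ 2 * (t / (512 * A ^ 2)) = t := by field_simp
  have hT0 : 0 < T := ht.trans_le htT
  have hΓ0 : 0 < Γ := by
    by_contra hc
    rw [not_lt] at hc
    nlinarith
  have hg1 := ph_grad hC h.ker h.kb hB (Γ := 512 * A ^ 2 * Γ) (C₀ := 0) (x := x) (x' := x) hs0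
    (by rw [hs1]; exact htT) (by
      calc T ≤ Γ * t := hTΓ
        _ = 512 * A ^ 2 * Γ * (t / (512 * A ^ 2)) := by field_simp) hT (by simp)
  rw [abs_neg, abs_abs] at hg1
  have hcP : 0 ≤ cP n A |K| c₀ := cP_nonneg hc₀
  have hcK := cK_pos (n := n) (A := A) (Γ := 512 * A ^ 2 * Γ) (C₀ := 0) hA (by positivity)
  have hsq : √(t / (512 * A ^ 2)) = √t / (√512 * A) := by
    rw [Real.sqrt_div ht.le, Real.sqrt_mul (by norm_num), Real.sqrt_sq hA0.le]
  have hst : 0 < √t := Real.sqrt_pos.2 ht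
  filter_upwards [hg1, hg, hC.toIsDir.Γ_abs_ae (ph_mem hC.toIsDir h.ker hs0 x) hf,
    ph_ae h.ker hT0 x] with z a1 a2 a3 a4
  rw [a4]
  have hp0 := h.ker.nonneg T hT0 x z
  set d := dist x z with hd
  have e1 : Real.exp (2 * A * d ^ 2 / t) = Real.exp (A * d ^ 2 / t) ^ 2 := by
    rw [← Real.exp_nat_mul]
    congr 1
    push_cast
    ring
  have b2 : √((sob m).Γ f f z) ≤ √(cP n A |K| c₀) * (Real.exp (A * d ^ 2 / t) * √G) := by
    refine (Real.sqrt_le_sqrt a2).trans (le_of_eq ?_)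
    rw [Real.sqrt_mul hcP, Real.sqrt_mul (Real.exp_pos _).le, e1,
      Real.sqrt_sq (Real.exp_pos _).le]
  have e2 : Real.exp (-(d ^ 2 / (16 * A * (t / (512 * A ^ 2))))) * Real.exp (A * d ^ 2 / t) ≤ 1 := by
    rw [← Real.exp_add, Real.exp_le_one_iff]
    have : d ^ 2 / (16 * A * (t / (512 * A ^ 2))) = 32 * (A * d ^ 2 / t) := by
      field_simp
      ring
    rw [this]
    have : 0 ≤ A * d ^ 2 / t := by positivity
    linarith
  have e3 : Real.exp (32 * A * dist x o) ≤ Real.exp (32 * A) := by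
    apply Real.exp_le_exp.2
    nlinarith
  have hmul := mul_le_mul a1 b2 (Real.sqrt_nonneg _) (by positivity)
  refine a3.trans (hmul.trans ?_)
  rw [hsq]
  calc Real.exp |K| / (√t / (√512 * A)) * (cK n A (512 * A ^ 2 * Γ) 0
        * Real.exp (32 * A * dist x o))
        * (Real.exp (-(d ^ 2 / (16 * A * (t / (512 * A ^ 2))))) * p T x z)
        * (√(cP n A |K| c₀) * (Real.exp (A * d ^ 2 / t) * √G))
      = Real.exp |K| * (√512 * A) / √t * (cK n A (512 * A ^ 2 * Γ) 0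
        * Real.exp (32 * A * dist x o)) * √(cP n A |K| c₀) * √G * p T x z
        * (Real.exp (-(d ^ 2 / (16 * A * (t / (512 * A ^ 2))))) * Real.exp (A * d ^ 2 / t)) := by
        field_simp
    _ ≤ Real.exp |K| * (√512 * A) / √t * (cK n A (512 * A ^ 2 * Γ) 0
        * Real.exp (32 * A)) * √(cP n A |K| c₀) * √G * p T x z * 1 := by
        gcongr
    _ = _ := by
        unfold cE
        ring

/-- Harnack for averages of absolute values -/
theorem PP_abs_harnack (h : Env m n K o A p) {x q : M} (hxo : dist x o ≤ 1) {s t Γ C₀ : ℝ}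
    (hs : 0 < s) (h1 : 4 * A ^ 2 * s ≤ t) (h2 : t ≤ Γ * s) (h3 : t ≤ 1 / 2)
    (hx : dist x q ≤ C₀ * √s) {F : M →ₘ[m] ℝ} (hF : MemLp (ph m p t q * |F| : M →ₘ[m] ℝ) 1 m) :
    PP m p s x |F| ≤ cG n A Γ C₀ * Real.exp (2 * A) * PP m p t q |F| := by
  have hA := h.kb.one_le
  have hA0 := h.kb.pos
  have ht : 0 < t := lt_of_lt_of_le (by positivity) h1
  have hΓ0 : 0 < Γ := by
    by_contra hc
    rw [not_lt] at hc
    nlinarith
  have hcG := cG_pos (n := n) (A := A) (Γ := Γ) (C₀ := C₀) hA hΓ0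
  have hle : ∀ᵐ z ∂m, (ph m p s x * |F| : M →ₘ[m] ℝ) z
      ≤ ((cG n A Γ C₀ * Real.exp (2 * A)) • (ph m p t q * |F|) : M →ₘ[m] ℝ) z := by
    filter_upwards [mul_ae (ph m p s x) |F|, mul_ae (ph m p t q) |F|,
      smul_ae (ph m p t q * |F|) (cG n A Γ C₀ * Real.exp (2 * A)), ph_ae h.ker hs x,
      ph_ae h.ker ht q, gabs_ae F] with z a1 a2 a3 a4 a5 a6
    rw [a1, a3, a2, a4, a5, a6]
    have hpl := h.kb.p_le (z := z) hs h1 h2 h3 hx
    have he : Real.exp (2 * A * dist x o) ≤ Real.exp (2 * A) := by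
      apply Real.exp_le_exp.2
      nlinarith
    have hp0 := h.ker.nonneg t ht q z
    calc p s x z * |F z| ≤ (cG n A Γ C₀ * Real.exp (2 * A * dist x o) * p t q z) * |F z| :=
          mul_le_mul_of_nonneg_right hpl (abs_nonneg _)
      _ ≤ (cG n A Γ C₀ * Real.exp (2 * A) * p t q z) * |F z| := by gcongr
      _ = _ := by ring
  have hI2 : MemLp ((cG n A Γ C₀ * Real.exp (2 * A)) • (ph m p t q * |F|) : M →ₘ[m] ℝ) 1 m :=
    mem_smul _ hF
  have hI1 : MemLp (ph m p s x * |F| : M →ₘ[m] ℝ) 1 m := by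
    refine mem_of_le hI2 ?_
    filter_upwards [hle, mul_ae (ph m p s x) |F|, gabs_ae F, nonneg_iff_ae.1 (ph_nonneg h.ker hs x)]
      with z a1 a2 a3 a4
    have : 0 ≤ (ph m p s x * |F| : M →ₘ[m] ℝ) z := by
      rw [a2, a3]; exact mul_nonneg a4 (abs_nonneg _)
    rw [abs_of_nonneg this]
    exact a1.trans (le_abs_self _)
  unfold PP
  rw [← I_smul]
  exact I_mono hI1 hI2 (le_iff_ae.2 hle)

/-- the constant of `gb_le` -/
noncomputable def cB' (n : ℕ) (κ C₀ : ℝ) : ℝ :=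
  2 * Real.exp (2 * κ) * Real.exp (κ + 1) * (2 * (n * Real.exp (κ + 1)) + C₀ ^ 2 + n)

/-- `P_s |∇b_{q,t}|² (x) ≤ C t` -/
theorem gb_le (h : Env m n K o A p) {x q : M} {s t C₀ : ℝ} (hs : 0 < s) (hst : s ≤ t)
    (ht1 : t ≤ 1) (hx : dist x q ≤ C₀ * √t) (hC₀ : 0 ≤ C₀) :
    PP m p s x ((sob m).Γ (bb m q t) (bb m q t)) ≤ cB' n |K| C₀ * t := by
  have hC := H751.env_gamma h
  have hB := H751.env_bei h
  have hSF := H597.env_sf h
  have ht : 0 < t := hs.trans_le hst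
  have hv := H254.vx_of h.hyp q
  have hvx := H254.vx_of h.hyp x
  have hΓb := hv.Γb_le hC hB ht.le ht1
  have hn0 : (0 : ℝ) ≤ n := Nat.cast_nonneg n
  -- comparison of the two vertex functions
  set wq := cl m (ww (1 / 2) q) with hwq
  set wx := cl m (ww (1 / 2) x) with hwx
  have hq2 : dist x q ^ 2 ≤ C₀ ^ 2 * t := by
    have := pow_le_pow_left₀ dist_nonneg hx 2
    rwa [mul_pow, Real.sq_sqrt ht.le] at this
  have hcmp : ∀ᵐ z ∂m, wq z + 1 / 2 ≤ 2 * (wx z + 1 / 2) + C₀ ^ 2 * t := by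
    filter_upwards [hv.eq, hvx.eq] with z a1 a2
    rw [a1, a2]
    have hg1 : gg q z = dist z q ^ 2 / 2 := rfl
    have hg2 : gg x z = dist z x ^ 2 / 2 := rfl
    have htri : dist z q ^ 2 ≤ 2 * dist z x ^ 2 + 2 * dist x q ^ 2 := by
      have a := pow_le_pow_left₀ dist_nonneg (dist_triangle z x q) 2
      nlinarith [sq_nonneg (dist z x - dist x q)]
    rw [hg1, hg2]
    have hmin : min (dist z q ^ 2 / 2) (1 / 2 : ℝ)
        ≤ 2 * min (dist z x ^ 2 / 2) (1 / 2 : ℝ) + C₀ ^ 2 * t := by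
      rcases le_total (dist z x ^ 2 / 2) (1 / 2 : ℝ) with hc | hc
      · rw [min_eq_left hc]
        refine (min_le_left _ _).trans ?_
        linarith
      · rw [min_eq_right hc]
        refine (min_le_right _ _).trans ?_
        have : 0 ≤ C₀ ^ 2 * t := by positivity
        linarith
    linarith
  set c₁ : ℝ := 2 * Real.exp (2 * |K|) * Real.exp (|K| + 1) with hc₁
  have hc₁0 : 0 ≤ c₁ := by positivity
  have hwx2 : MemLp wx 2 m := hC.memLp _ hvx.mem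
  have hbW : bb m q t ∈ (sob m).W := hC.toIsDir.P_mem ht (hC.memLp _ hv.mem)
  have hφ1 := ph_mem1 h.ker hs x
  have hφ2 := ph_mem2 h.ker hs x
  have hφt := ph_top hC h.ker h.kb hs x
  have key : PP m p s x ((sob m).Γ (bb m q t) (bb m q t))
      ≤ I ((2 * c₁) • (ph m p s x * wx) + (c₁ * (1 + C₀ ^ 2 * t + n * t)) • ph m p s x) := by
    refine I_mono (mem_mul_top hφt (hC.mem1 _ hbW))
      (mem_add (mem_smul _ (mem_mul_22 hφ2 hwx2)) (mem_smul _ hφ1)) (le_iff_ae.2 ?_)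
    filter_upwards [mul_ae (ph m p s x) ((sob m).Γ (bb m q t) (bb m q t)), hΓb, hcmp,
      add_ae ((2 * c₁) • (ph m p s x * wx)) ((c₁ * (1 + C₀ ^ 2 * t + n * t)) • ph m p s x),
      smul_ae (ph m p s x * wx) (2 * c₁), mul_ae (ph m p s x) wx,
      smul_ae (ph m p s x) (c₁ * (1 + C₀ ^ 2 * t + n * t)),
      nonneg_iff_ae.1 (ph_nonneg h.ker hs x)] with z a1 a2 a3 a4 a5 a6 a7 a8
    rw [a1, a4, a5, a6, a7]
    have b1 : (sob m).Γ (bb m q t) (bb m q t) z ≤ c₁ * (2 * (wx z + 1 / 2) + C₀ ^ 2 * t + n * t) := by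
      refine (show (sob m).Γ (bb m q t) (bb m q t) z ≤ _ from a2).trans ?_
      refine mul_le_mul_of_nonneg_left ?_ hc₁0
      linarith
    calc ph m p s x z * (sob m).Γ (bb m q t) (bb m q t) z
        ≤ ph m p s x z * (c₁ * (2 * (wx z + 1 / 2) + C₀ ^ 2 * t + n * t)) :=
          mul_le_mul_of_nonneg_left b1 a8
      _ = _ := by ring
  rw [I_add (mem_smul _ (mem_mul_22 hφ2 hwx2)) (mem_smul _ hφ1), I_smul, I_smul, I_ph h.ker hs x]
    at key
  have hbeta := H924.beta_le h x hs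
  have hbeta' : I (ph m p s x * wx) ≤ n * s * Real.exp ((|K| + 1) * s) - 1 / 2 := by
    have : PP m p s x (H924.wy m x) = I (ph m p s x * wx) := rfl
    rw [← this]
    linarith
  have hex : n * s * Real.exp ((|K| + 1) * s) ≤ n * Real.exp (|K| + 1) * t := by
    have e1 : Real.exp ((|K| + 1) * s) ≤ Real.exp (|K| + 1) := by
      apply Real.exp_le_exp.2
      have := abs_nonneg K
      nlinarith
    calc n * s * Real.exp ((|K| + 1) * s) ≤ n * t * Real.exp (|K| + 1) := by gcongr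
      _ = _ := by ring
  have hfin : 2 * c₁ * I (ph m p s x * wx) ≤ 2 * c₁ * (n * Real.exp (|K| + 1) * t - 1 / 2) :=
    mul_le_mul_of_nonneg_left (by linarith) (by positivity)
  calc PP m p s x ((sob m).Γ (bb m q t) (bb m q t)) ≤ _ := key
    _ ≤ 2 * c₁ * (n * Real.exp (|K| + 1) * t - 1 / 2) + c₁ * (1 + C₀ ^ 2 * t + n * t) * 1 := by
      linarith
    _ = cB' n |K| C₀ * t := by
      rw [hc₁]; unfold cB'; ring

end env

end Vale.Agent.P242.H448
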