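import Vale.Agent.P242.H448.RelA
import Vale.Agent.P242.H196.GamP
import Vale.Agent.P242.H597.EnvC
import Vale.Agent.P242.H751.BlkNd
import Vale.Agent.P242.H703.HfL
import Vale.Agent.P242.H155.Forms
import Vale.Agent.P242.H852.DtV

/-! P242, package A-GL2 (helper448), part 3: the error terms of the relation. -/

set_option linter.all false

open MeasureTheory Filter Topology Set Metric
open scoped ENNReal NNReal InnerProductSpace

universe u

namespace Vale.Agent.P242.H448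

open Vale.Agent.P233 Vale.Agent.P233.RA Vale.Agent.P242.H990 Vale.Agent.P242.H520 Vale.Agent.P242.H71

section env

variable {M : Type u} [MetricSpace M] [CompleteSpace M] [SecondCountableTopology M]
  [MeasurableSpace M] [BorelSpace M] {m : Measure M} {n : ℕ} {K : ℝ} {o : M} {A : ℝ}
  {p : ℝ → M → M → ℝ} {R Q η ρ : ℝ} {u : Fin n → M →ₘ[m] ℝ} {uu : M → E n}

omit [CompleteSpace M] [SecondCountableTopology M] [BorelSpace M] in
theorem tsub (hC : IsGamma (sob m)) {f g : M →ₘ[m] ℝ} (hf : f ∈ (sob m).Test)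
    (hg : g ∈ (sob m).Test) : f - g ∈ (sob m).Test := by
  have := hC.test_add' hf (hC.test_smul' (-1) hg)
  rwa [neg_one_smul, ← sub_eq_add_neg] at this

theorem bb_test (h : Env m n K o A p) (y : M) {T : ℝ} (hT : 0 < T) : bb m y T ∈ (sob m).Test := by
  have hC := H751.env_gamma h
  have hv := H254.vx_of h.hyp y
  exact IsGamma.P_test_pos hC (H597.env_bei' h) hT (hC.memLp _ hv.mem) hv.memA.2

theorem fh_of (h : Env m n K o A p) (hu : Cfg m n K o p R Q η ρ u uu) : H155.FH m K p u :=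
  ⟨H751.env_gamma h, H597.env_bei' h, fun x => H597.env_cen h x, hu.test⟩

/-- `P_s |F| (x) ≤ √W` if `P_s F² (x) ≤ W` -/
theorem PP_abs_le_sqrt (h : Env m n K o A p) {s : ℝ} (hs : 0 < s) (x : M) {F : M →ₘ[m] ℝ}
    (hF : MemLp F ∞ m) {W : ℝ} (hW : PP m p s x (F ^ 2) ≤ W) : PP m p s x |F| ≤ √W := by
  have hp := h.ker
  have i1 : Integrable (fun z => p s x z * F z ^ 2) m := by
    have : MemLp (ph m p s x * F ^ 2 : M →ₘ[m] ℝ) 1 m := by
      refine H751.PP_int_top hp hs x ?_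
      rw [sq]; exact mem_mul_top hF hF
    refine ((int_ph_mul hp hs x).1 this).congr ?_
    filter_upwards [sq_ae F] with z hz
    rw [hz]
  have i2 : Integrable (fun z => p s x z * (fun z => |F z|) z ^ 2) m := by
    refine i1.congr (Eventually.of_forall fun z => ?_)
    simp only [sq_abs]
  have j := pt_jensen hp hs x (F := fun z => |F z|) F.aestronglyMeasurable.norm i2
  have e1 : PP m p s x |F| = H520.pt m p s (fun z => |F z|) x := by
    rw [H751.PP_eq_pt hp hs]; exact pt_congr hp (gabs_ae F) s x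
  have e2 : PP m p s x (F ^ 2) = H520.pt m p s (fun z => F z ^ 2) x := by
    rw [H751.PP_eq_pt hp hs]; exact pt_congr hp (sq_ae F) s x
  have e3 : H520.pt m p s (fun z => |F z| ^ 2) x = H520.pt m p s (fun z => F z ^ 2) x := by
    simp only [sq_abs]
  rw [e1]
  refine Real.le_sqrt_of_sq_le ?_
  rw [← e2] at e3
  linarith

/-- difference of the vertex functions: variance -/
theorem df_var (h : Env m n K o A p) {x q : M} {s T C₀ : ℝ} (hs : 0 < s) (hsT : s ≤ T)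
    (hT1 : T ≤ 1) (hxq : dist x q ≤ C₀ * √T) (hC₀ : 0 ≤ C₀) :
    √(PP m p s x ((sob m).Γ (bb m q T - bb m x T) (bb m q T - bb m x T)))
      ≤ √(cB' n |K| C₀ * T) + √(cB' n |K| 0 * T) := by
  have hC := H751.env_gamma h
  have hT : 0 < T := hs.trans_le hsT
  have hq := (hC.test_A (bb_test h q hT)).1
  have hx := (hC.test_A (bb_test h x hT)).1
  have k := H196.I_Γ_sub_le hC (H751.env_ph_top h hs x) (ph_nonneg h.ker hs x) hq hx
  refine k.trans (add_le_add (Real.sqrt_le_sqrt ?_) (Real.sqrt_le_sqrt ?_))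
  · exact gb_le h hs hsT hT1 hxq hC₀
  · exact gb_le h hs hsT hT1 (by simp) le_rfl

/-- second moment of `b_q - b_x - u_c - c₀` -/
theorem psi_sq (h : Env m n K o A p) (hu : Cfg m n K o p R Q η ρ u uu) {x q : M}
    {s T C₀ a b c₀ : ℝ} (hs : 0 < s) (hsT : s ≤ T)
    (hT1 : T ≤ 1) (hxq : dist x q ≤ C₀ * √T) (hC₀ : 0 ≤ C₀) (c : E n) (hb : 0 ≤ b)
    (hGc : √(Gm m p u s x c c) ≤ b)
    (ha : PP m p s x |bb m q T - bb m x T - uc u c - c₀ • (1 : M →ₘ[m] ℝ)| ≤ a) :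
    PP m p s x ((bb m q T - bb m x T - uc u c - c₀ • (1 : M →ₘ[m] ℝ)) ^ 2)
      ≤ 2 * s * Real.exp (2 * |K| * s) * (√(cB' n |K| C₀ * T) + √(cB' n |K| 0 * T) + b) ^ 2
        + a ^ 2 := by
  have hC := H751.env_gamma h
  have hT : 0 < T := hs.trans_le hsT
  have hqT := bb_test h q hT
  have hxT := bb_test h x hT
  have hB := H597.env_bei' h
  have fT : bb m q T - bb m x T ∈ (sob m).Test := tsub hC hqT hxT
  have huc := H751.uc_test hC hu c
  have gT : bb m q T - bb m x T - uc u c ∈ (sob m).Test := tsub hC fT huc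
  set f := bb m q T - bb m x T with hf
  set g := f - uc u c with hg
  have gA := hC.test_A gT
  have hφ1 := ph_mem1 h.ker hs x
  rw [H751.PP_sub_sq h.ker hs x (hC.memLp _ gA.1) gA.2]
  have hv := H751.PP_var h hs gT x
  have hm : |PP m p s x g - c₀| ≤ a := by
    refine le_trans ?_ ha
    have e : PP m p s x g - c₀ = I (ph m p s x * (g - c₀ • (1 : M →ₘ[m] ℝ))) := by
      have e1 : ph m p s x * (g - c₀ • (1 : M →ₘ[m] ℝ)) = ph m p s x * g - c₀ • ph m p s x := by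
        rw [mul_sub, mul_smul_comm, mul_one]
      rw [e1, I_sub (mem_top_mul hφ1 gA.2) (mem_smul _ hφ1), I_smul, I_ph h.ker hs x, mul_one]
      rfl
    rw [e]
    exact I_abs_le_gabs (ph_nonneg h.ker hs x)
  have hm2 : (PP m p s x g - c₀) ^ 2 ≤ a ^ 2 := sq_le_sq' (abs_le.1 hm).1 (abs_le.1 hm).2
  have hk := H196.I_Γ_sub_le hC (H751.env_ph_top h hs x) (ph_nonneg h.ker hs x)
    (hC.test_A fT).1 (hC.test_A huc).1
  have hdf := df_var h hs hsT hT1 hxq hC₀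
  have hG0 : 0 ≤ PP m p s x ((sob m).Γ g g) :=
    I_nonneg (mul_nonneg (ph_nonneg h.ker hs x) (hC.nonneg _ gA.1))
  have hk2 : √(PP m p s x ((sob m).Γ g g)) ≤ √(cB' n |K| C₀ * T) + √(cB' n |K| 0 * T) + b :=
    hk.trans (add_le_add hdf hGc)
  have hk3 : PP m p s x ((sob m).Γ g g)
      ≤ (√(cB' n |K| C₀ * T) + √(cB' n |K| 0 * T) + b) ^ 2 := by
    have := pow_le_pow_left₀ (Real.sqrt_nonneg _) hk2 2
    rwa [Real.sq_sqrt hG0] at this
  have hk4 : 2 * s * Real.exp (2 * |K| * s) * PP m p s x ((sob m).Γ g g)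
      ≤ 2 * s * Real.exp (2 * |K| * s)
        * (√(cB' n |K| C₀ * T) + √(cB' n |K| 0 * T) + b) ^ 2 :=
    mul_le_mul_of_nonneg_left hk3 (by positivity)
  have e3 : PP m p s x (g ^ 2) - 2 * c₀ * PP m p s x g + c₀ ^ 2
      = (PP m p s x (g ^ 2) - PP m p s x g ^ 2) + (PP m p s x g - c₀) ^ 2 := by ring
  rw [e3]
  linarith

/-- the term with the Laplacian -/
theorem lap_term (h : Env m n K o A p) (hu : Cfg m n K o p R Q η ρ u uu) {x : M}
    (hx : x ∈ ball o (R * ρ)) {s W : ℝ} (hs : 0 < s) (hsQ : s ≤ Q * ρ ^ 2) (hη : 0 ≤ η)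
    {F : M →ₘ[m] ℝ} (hF : MemLp F ∞ m) (hW : PP m p s x (F ^ 2) ≤ W) (v : E n) :
    |I (F * (ph m p s x * (sob m).lap (uc u v)))| ≤ √W * (√n * ‖v‖ * (η / ρ)) := by
  have hC := H751.env_gamma h
  have hρ := hu.ρ_pos
  have hl2 : MemLp ((sob m).lap (uc u v)) 2 m := (hC.test_isLap (H751.uc_test hC hu v)).2.1
  have e1 : F * (ph m p s x * (sob m).lap (uc u v)) = ph m p s x * (F * (sob m).lap (uc u v)) := by
    ring
  rw [e1]
  have hl := H924.uc_lap1 h hu v hx hs hsQ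
  have h0 : 0 ≤ √n * ‖v‖ * (η / ρ) := by positivity
  refine (H751.PP_cs h hs x hF hl2).trans (mul_le_mul (Real.sqrt_le_sqrt hW) ?_
    (Real.sqrt_nonneg _) (Real.sqrt_nonneg _))
  exact (Real.sqrt_le_sqrt hl).trans (le_of_eq (Real.sqrt_sq h0))

/-- the affine part is bounded -/
theorem c_bound (h : Env m n K o A p) (hu : Cfg m n K o p R Q η ρ u uu) {x q : M}
    {T C₀ a c₀ κ : ℝ} (hT : 0 < T) (hT1 : T ≤ 1) (hxq : dist x q ≤ C₀ * √T) (hC₀ : 0 ≤ C₀)
    (hκ : 0 < κ) (c : E n)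
    (hnd : ∀ b : ℝ, κ * √T * √(Gm m p u T x c c) ≤ PP m p T x |uc u c - b • (1 : M →ₘ[m] ℝ)|)
    (ha : PP m p T x |bb m q T - bb m x T - uc u c - c₀ • (1 : M →ₘ[m] ℝ)| ≤ a) :
    κ * √T * √(Gm m p u T x c c)
      ≤ √(2 * T * Real.exp (2 * |K| * T) * (√(cB' n |K| C₀ * T) + √(cB' n |K| 0 * T)) ^ 2) + a := by
  have hC := H751.env_gamma h
  have hB := H597.env_bei' h
  have hqT := bb_test h q hT
  have hxT := bb_test h x hT
  have fT : bb m q T - bb m x T ∈ (sob m).Test := tsub hC hqT hxT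
  have huc := H751.uc_test hC hu c
  set f := bb m q T - bb m x T with hf
  have fA := hC.test_A fT
  have uA := hC.test_A huc
  set b := PP m p T x f with hb
  have hms := H751.PP_mean_sq h hT fT x
  rw [← hb] at hms
  have hdf := df_var h hT le_rfl hT1 hxq hC₀
  have hG0 : 0 ≤ PP m p T x ((sob m).Γ f f) :=
    I_nonneg (mul_nonneg (ph_nonneg h.ker hT x) (hC.nonneg _ fA.1))
  have hk3 : PP m p T x ((sob m).Γ f f) ≤ (√(cB' n |K| C₀ * T) + √(cB' n |K| 0 * T)) ^ 2 := by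
    have := pow_le_pow_left₀ (Real.sqrt_nonneg _) hdf 2
    rwa [Real.sq_sqrt hG0] at this
  have hk4 : 2 * T * Real.exp (2 * |K| * T) * PP m p T x ((sob m).Γ f f)
      ≤ 2 * T * Real.exp (2 * |K| * T) * (√(cB' n |K| C₀ * T) + √(cB' n |K| 0 * T)) ^ 2 :=
    mul_le_mul_of_nonneg_left hk3 (by positivity)
  have hF1 : MemLp (f - b • (1 : M →ₘ[m] ℝ)) ∞ m := mem_sub fA.2 (mem_smul _ mem_top_one)
  have hF2 : MemLp (f - uc u c - c₀ • (1 : M →ₘ[m] ℝ)) ∞ m :=
    mem_sub (mem_sub fA.2 uA.2) (mem_smul _ mem_top_one)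
  have h1 := PP_abs_le_sqrt h hT x hF1 (hms.trans hk4)
  refine (hnd (b - c₀)).trans ?_
  have hF3 : MemLp (uc u c - (b - c₀) • (1 : M →ₘ[m] ℝ)) ∞ m :=
    mem_sub uA.2 (mem_smul _ mem_top_one)
  have h2 : PP m p T x |uc u c - (b - c₀) • (1 : M →ₘ[m] ℝ)|
      ≤ PP m p T x |f - b • (1 : M →ₘ[m] ℝ)|
        + PP m p T x |f - uc u c - c₀ • (1 : M →ₘ[m] ℝ)| := by
    unfold PP
    rw [← I_add (H751.PP_int_top h.ker hT x (gabs_mem hF1))
      (H751.PP_int_top h.ker hT x (gabs_mem hF2))]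
    refine I_mono (H751.PP_int_top h.ker hT x (gabs_mem hF3))
      (mem_add (H751.PP_int_top h.ker hT x (gabs_mem hF1))
      (H751.PP_int_top h.ker hT x (gabs_mem hF2))) (le_iff_ae.2 ?_)
    filter_upwards [mul_ae (ph m p T x) |uc u c - (b - c₀) • (1 : M →ₘ[m] ℝ)|,
      gabs_ae (uc u c - (b - c₀) • (1 : M →ₘ[m] ℝ)), sub_ae (uc u c) ((b - c₀) • (1 : M →ₘ[m] ℝ)),
      smul_ae (1 : M →ₘ[m] ℝ) (b - c₀), one_ae (M := M) (m := m),
      add_ae (ph m p T x * |f - b • (1 : M →ₘ[m] ℝ)|)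
        (ph m p T x * |f - uc u c - c₀ • (1 : M →ₘ[m] ℝ)|),
      mul_ae (ph m p T x) |f - b • (1 : M →ₘ[m] ℝ)|, gabs_ae (f - b • (1 : M →ₘ[m] ℝ)),
      sub_ae f (b • (1 : M →ₘ[m] ℝ)), smul_ae (1 : M →ₘ[m] ℝ) b,
      mul_ae (ph m p T x) |f - uc u c - c₀ • (1 : M →ₘ[m] ℝ)|,
      gabs_ae (f - uc u c - c₀ • (1 : M →ₘ[m] ℝ)), sub_ae (f - uc u c) (c₀ • (1 : M →ₘ[m] ℝ)),
      sub_ae f (uc u c), smul_ae (1 : M →ₘ[m] ℝ) c₀, nonneg_iff_ae.1 (ph_nonneg h.ker hT x)]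
      with z a1 a2 a3 a4 a5 a6 a7 a8 a9 a10 a11 a12 a13 a14 a15 a16
    rw [a1, a2, a3, a4, a5, a6, a7, a8, a9, a10, a11, a12, a13, a14, a15, a5, ← mul_add]
    refine mul_le_mul_of_nonneg_left ?_ a16
    have : uc u c z - (b - c₀) * 1 = (f z - b * 1) - (f z - uc u c z - c₀ * 1) := by ring
    rw [this]
    exact abs_sub _ _
  linarith

end env

end Vale.Agent.P242.H448
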