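import Vale.Agent.P242.H448.RelB
import Vale.Agent.P242.H771.Sub
import Vale.Agent.P242.H744.NuD

/-! P242, package A-GL2 (helper448), part 4: comparison of the forms at the two levels and the change
of the time. -/

set_option linter.all false

open MeasureTheory Filter Topology Set Metric
open scoped ENNReal NNReal InnerProductSpace

universe u

namespace Vale.Agent.P242.H448

open Vale.Agent.P233 Vale.Agent.P233.RA Vale.Agent.P242.H990 Vale.Agent.P242.H520 Vale.Agent.P242.H71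
open Vale.Agent.P242.H655
open Vale.Agent.P242.H703 hiding E

section hf

variable {n : ℕ} {X : Type u} [MetricSpace X] {H : HF n X} {Ω : Set X}
  {T Q C₀ C κ m η : ℝ}

/-- growth of the form in the time -/
theorem G_up (h : H.Hyp Ω T Q C₀ C κ m η) {ε t s : ℝ} (hε' : ε ≤ 1 / 4) (hη' : η ≤ 1 / 8)
    (ht : 0 < t) (hts : t ≤ s) (hsT : s ≤ T) {x : X} (hx : x ∈ Ω) (hS : H.Small T ε t x) (c : E n) :
    H.G s x c c ≤ 2 * (s / t) * H.G t x c c := by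
  have hT := h.T_pos
  have hη := h.η_nonneg
  have hs : 0 < s := ht.trans_le hts
  have h1 := h.P1 hε' ht hts hsT hx hS c
  have h2 := h.G_lower hε' (a := 1) (by linarith) hη' hs hsT hx (hS.mono hts) c
  rw [Real.rpow_one] at h2
  have hG := h.G_nonneg hε' hη' ht (hts.trans hsT) hx hS c
  have hGs := h.G_nonneg hε' hη' hs hsT hx (hS.mono hts) c
  have h3 : 2 * (η / T * ‖c‖ ^ 2) * s ≤ 2 * η * (2 * H.G s x c c) := by
    calc 2 * (η / T * ‖c‖ ^ 2) * s = 2 * η * (s / T * ‖c‖ ^ 2) := by ring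
      _ ≤ 2 * η * (2 * H.G s x c c) := by gcongr
  have h4 : (s / t) ^ (2 * ε) ≤ s / t := by
    have h1st : 1 ≤ s / t := (one_le_div ht).2 hts
    calc (s / t) ^ (2 * ε) ≤ (s / t) ^ (1 : ℝ) :=
          Real.rpow_le_rpow_of_exponent_le h1st (by linarith)
      _ = s / t := Real.rpow_one _
  have h5 : (s / t) ^ (2 * ε) * H.G t x c c ≤ s / t * H.G t x c c :=
    mul_le_mul_of_nonneg_right h4 hG
  have h6 : 4 * η * H.G s x c c ≤ 1 / 2 * H.G s x c c :=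
    mul_le_mul_of_nonneg_right (by linarith) hGs
  linarith

/-- change of the time -/
theorem time_change (h : H.Hyp Ω T Q C₀ C κ m η) {s t a b : ℝ} (hs : 0 < s) (hst : s ≤ t)
    (htT : t ≤ T) {x : X} (hx : x ∈ Ω) {c v : E n} (ha : ∀ r, s ≤ r → r ≤ t → H.gam r x c c ≤ a)
    (hb : ∀ r, s ≤ r → r ≤ t → H.gam r x v v ≤ b) :
    |H.G t x c v - H.G s x c v| ≤ (t - s) * (2 * (√a * √b) + η / T * (‖c‖ * ‖v‖)) := by
  have hTQ := h.T_le
  rw [h.G_sub hs hst htT hx c v]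
  have key := intervalIntegral.norm_integral_le_of_norm_le_const
    (f := fun r => 2 * H.gam r x c v + H.tau r x c v) (a := s) (b := t)
    (C := 2 * (√a * √b) + η / T * (‖c‖ * ‖v‖)) (fun r hr => by
      rw [uIoc_of_le hst] at hr
      have hr0 : 0 < r := hs.trans hr.1
      have e1 := h.gam_cs hr0 ((hr.2.trans htT).trans hTQ) hx c v
      have e2 := h.tau_bd r x hx c v hr0 (hr.2.trans htT)
      have e3 : √(H.gam r x c c) * √(H.gam r x v v) ≤ √a * √b :=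
        mul_le_mul (Real.sqrt_le_sqrt (ha r hr.1.le hr.2)) (Real.sqrt_le_sqrt (hb r hr.1.le hr.2))
          (Real.sqrt_nonneg _) (Real.sqrt_nonneg _)
      rw [Real.norm_eq_abs]
      calc |2 * H.gam r x c v + H.tau r x c v| ≤ |2 * H.gam r x c v| + |H.tau r x c v| :=
            abs_add_le _ _
        _ = 2 * |H.gam r x c v| + |H.tau r x c v| := by
            rw [abs_mul, abs_of_pos (by norm_num : (0 : ℝ) < 2)]
        _ ≤ _ := by linarith)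
  rw [Real.norm_eq_abs, abs_of_nonneg (by linarith : 0 ≤ t - s)] at key
  calc _ ≤ (2 * (√a * √b) + η / T * (‖c‖ * ‖v‖)) * (t - s) := key
    _ = _ := by ring

end hf

section env

variable {M : Type u} [MetricSpace M] [CompleteSpace M] [SecondCountableTopology M]
  [MeasurableSpace M] [BorelSpace M] {m : Measure M} {n : ℕ} {K : ℝ} {o : M} {A : ℝ}
  {p : ℝ → M → M → ℝ} {R Q η ρ : ℝ} {u : Fin n → M →ₘ[m] ℝ} {uu : M → E n}

/-- the facts at one centre `y` for the times `t ≤ T = Λ² t ≤ ρ²` -/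
structure PtF {M : Type u} [MetricSpace M] [MeasurableSpace M] (m : Measure M) {n : ℕ} (K : ℝ)
    (p : ℝ → M → M → ℝ) (u : Fin n → M →ₘ[m] ℝ) (Q A₀ Λ ρ t T : ℝ) (y : M) : Prop where
  lowt : ∀ w : E n, (t / ρ ^ 2) ^ (1 / 8 : ℝ) * ‖w‖ ^ 2 ≤ 2 * Gm m p u t y w w
  lowT : ∀ w : E n, (T / ρ ^ 2) ^ (1 / 8 : ℝ) * ‖w‖ ^ 2 ≤ 2 * Gm m p u T y w w
  up : ∀ r, t ≤ r → r ≤ ρ ^ 2 → ∀ w : E n, Gm m p u r y w w ≤ 2 * (r / t) * Gm m p u t y w w
  dn : ∀ r s, 0 < r → r ≤ s → s ≤ ρ ^ 2 → ∀ w : E n, Gm m p u r y w w ≤ 2 * Gm m p u s y w w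
  x3 : ∀ w : E n, xE m K p u Q A₀ ρ T y w ≤ 3 * (√(Dt m n K p Q A₀ ρ T y) * nG m p u T y w)
  dT : Dt m n K p Q A₀ ρ T y ≤ Λ * Dt m n K p Q A₀ ρ t y
  d0 : 0 ≤ Dt m n K p Q A₀ ρ t y
  d1 : Dt m n K p Q A₀ ρ t y ≤ 1
  dfl : A₀ * (t / ρ ^ 2) ^ (1 / 8 : ℝ) ≤ Dt m n K p Q A₀ ρ t y
  dfT : A₀ * (T / ρ ^ 2) ^ (1 / 8 : ℝ) ≤ Dt m n K p Q A₀ ρ T y

theorem ptF_of (h : Env m n K o A p) (hu : Cfg m n K o p R Q η ρ u uu) {A₀ Λ ε δ C₀ : ℝ}
    (hη : 0 ≤ η) (hC₀ : 1 ≤ C₀) (hQ : 8 * A ^ 2 ≤ Q) (hR : 0 ≤ R)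
    (hA₀ : 0 < A₀) (hA₀1 : A₀ ≤ 1 / 8) (hε0 : 0 ≤ ε) (hε : ε ≤ 1 / 16) (hδ : δ ≤ 1 / 2)
    (hΛ : 1 ≤ Λ) (hηA : Q * (12 * n * cH n A C₀ * η) ≤ A₀) (hT : TT m K o p (R / 2) Q ε ρ u)
    (hD : DropS m n K o p R Q δ ρ) {y : M} (hy : y ∈ ball o (R / 4 * ρ)) {t T : ℝ} (ht : 0 < t)
    (hTt : T = Λ ^ 2 * t) (hTρ : T ≤ ρ ^ 2) : PtF m K p u Q A₀ Λ ρ t T y := by
  have hρ := hu.ρ_pos
  have hρ2 : 0 < ρ ^ 2 := by positivity
  have hA := h.kb.one_le
  have hA2 : 1 ≤ A ^ 2 := one_le_pow₀ hA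
  have hΛ2 : 1 ≤ Λ ^ 2 := one_le_pow₀ hΛ
  have hQ1 : 1 ≤ Q := by linarith
  have htT : t ≤ T := by rw [hTt]; exact le_mul_of_one_le_left ht.le hΛ2
  have hT0 : 0 < T := ht.trans_le htT
  have htρ : t ≤ ρ ^ 2 := htT.trans hTρ
  have hQρ : ρ ^ 2 ≤ Q * ρ ^ 2 := le_mul_of_one_le_left hρ2.le hQ1
  have hyR : y ∈ ball o (R * ρ) := by
    refine ball_subset_ball ?_ hy
    have : 0 ≤ R * ρ := by positivity
    linarith
  have hyR2 : y ∈ ball o (R / 2 * ρ) := by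
    refine ball_subset_ball ?_ hy
    have : 0 ≤ R * ρ := by positivity
    linarith
  have hH := hf_hyp h hu hη hC₀ hQ (R' := R) le_rfl
  have hq : HF.Par Q (12 * n * cH n A C₀ * η) A₀ (3 / 8) :=
    ⟨by norm_num, by norm_num, hηA, hA₀1⟩
  have hη8 : 12 * n * cH n A C₀ * η ≤ 1 / 8 := (hH.η_le hq).trans hA₀1
  have hS : ∀ r, 0 < r → (hf m K p u).Small (ρ ^ 2) ε r y := fun r hr =>
    hf_small h hu hQ1 hT hr hyR2
  have eG : ∀ r, 0 < r → ∀ w : E n, (hf m K p u).G r y w w = Gm m p u r y w w :=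
    fun r hr w => hf_G h hu hr y w w
  have hDT1 : Dt m n K p Q A₀ ρ T y ≤ 1 := by
    have := H744.dt_le (A₀ := A₀) h hQ1 hρ hA₀.le hD hyR hT0 hTρ
    linarith
  have hDT0 : 0 ≤ Dt m n K p Q A₀ ρ T y := H744.dt_nonneg h hA₀.le hT0 (hTρ.trans hQρ) y
  refine ⟨?_, ?_, ?_, ?_, ?_, ?_, ?_, ?_, ?_, ?_⟩
  · intro w
    have := hH.G_lower (a := 1 / 8) (by linarith) (by linarith) hη8 ht htρ hyR (hS t ht) w
    rwa [eG t ht] at this
  · intro w
    have := hH.G_lower (a := 1 / 8) (by linarith) (by linarith) hη8 hT0 hTρ hyR (hS T hT0) w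
    rwa [eG T hT0] at this
  · intro r h1 h2 w
    have := G_up hH (by linarith) hη8 ht h1 h2 hyR (hS t ht) w
    rwa [eG t ht, eG r (ht.trans_le h1)] at this
  · intro r s h1 h2 h3 w
    have hs0 := h1.trans_le h2
    have := hH.F7 (by linarith) hη8 h1 h2 h3 hyR (hS s hs0) w
    have g0 := hH.G_nonneg (by linarith) hη8 hs0 h3 hyR (hS s hs0) w
    rw [eG s hs0] at this g0
    rw [eG r h1] at this
    refine this.trans (mul_le_mul_of_nonneg_right ?_ g0)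
    linarith
  · intro w
    have h1 := hH.F4a hq hε0 (by linarith) hT0 hTρ hyR (hS T hT0) w
    rw [hf_Nt h hu hη hQ (by norm_num) hT0 (hTρ.trans hQρ) hyR, eG T hT0] at h1
    have g0 := hH.G_nonneg (by linarith) hη8 hT0 hTρ hyR (hS T hT0) w
    rw [eG T hT0] at g0
    have h2 : Nt m K p u Q A₀ ρ (3 / 8) T y w w
        + Dt m n K p Q A₀ ρ T y * Gm m p u T y w w ≤ 3 ^ 2 * Gm m p u T y w w := by
      have h3 : (2 / (3 / 8) * ε + 6 * A₀) * Gm m p u T y w w ≤ 2 * Gm m p u T y w w := by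
        refine mul_le_mul_of_nonneg_right ?_ g0
        linarith
      have h4 : Dt m n K p Q A₀ ρ T y * Gm m p u T y w w ≤ 1 * Gm m p u T y w w :=
        mul_le_mul_of_nonneg_right hDT1 g0
      linarith
    unfold xE nG
    calc √(Dt m n K p Q A₀ ρ T y) * √(Nt m K p u Q A₀ ρ (3 / 8) T y w w
          + Dt m n K p Q A₀ ρ T y * Gm m p u T y w w)
        ≤ √(Dt m n K p Q A₀ ρ T y) * √(3 ^ 2 * Gm m p u T y w w) :=
          mul_le_mul_of_nonneg_left (Real.sqrt_le_sqrt h2) (Real.sqrt_nonneg _)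
      _ = 3 * (√(Dt m n K p Q A₀ ρ T y) * √(Gm m p u T y w w)) := by
          rw [Real.sqrt_mul (by norm_num), Real.sqrt_sq (by norm_num)]
          ring
  · have h1 := H744.dt_mono (A₀ := A₀) h hρ ht htT (hTρ.trans hQρ) y
    refine h1.trans (mul_le_mul_of_nonneg_right ?_
      (H744.dt_nonneg h hA₀.le ht (htρ.trans hQρ) y))
    have e1 : T / t = Λ ^ 2 := by rw [hTt]; field_simp
    rw [e1]
    calc (Λ ^ 2) ^ (1 / 8 : ℝ) ≤ (Λ ^ 2) ^ (1 / 2 : ℝ) :=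
          Real.rpow_le_rpow_of_exponent_le hΛ2 (by norm_num)
      _ = Λ := by
          rw [← Real.sqrt_eq_rpow, Real.sqrt_sq (by linarith)]
  · exact H744.dt_nonneg h hA₀.le ht (htρ.trans hQρ) y
  · have := H744.dt_le (A₀ := A₀) h hQ1 hρ hA₀.le hD hyR ht htρ
    linarith
  · exact H744.dt_ge_floor h ht (htρ.trans hQρ) y
  · exact H744.dt_ge_floor h hT0 (hTρ.trans hQρ) y

/-- comparison of the forms at two centres -/
theorem Gm_cross (h : Env m n K o A p) (hu : Cfg m n K o p R Q η ρ u uu) {x q : M}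
    (hxo : dist x o ≤ 1) {r C₀ : ℝ} (hr : 0 < r) (h4 : 4 * A ^ 2 * r ≤ ρ ^ 2)
    (h5 : 4 * A ^ 2 * r ≤ 1 / 2) (hxq : dist x q ≤ C₀ * √r) {t : ℝ} (ht : 0 < t)
    (htr : t ≤ 4 * A ^ 2 * r)
    (hup : ∀ s, t ≤ s → s ≤ ρ ^ 2 → ∀ w : E n, Gm m p u s q w w ≤ 2 * (s / t) * Gm m p u t q w w)
    (w : E n) :
    Gm m p u r x w w ≤ cG n A (4 * A ^ 2) C₀ * Real.exp (2 * A) * (8 * A ^ 2 * (r / t))
      * Gm m p u t q w w := by
  have hC := H751.env_gamma h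
  have hA := h.kb.one_le
  have hA0 := h.kb.pos
  have hW := H751.uc_W hC hu w
  have hF0 := hC.toIsDir.nonneg _ hW
  have k := H597.PP_dom h (Γ := 4 * A ^ 2) (C₀ := C₀) hr le_rfl le_rfl h5 hxq hF0
    (H751.Γ_top hC hu w w)
  have k2 := hup (4 * A ^ 2 * r) htr h4 w
  have hcG : 0 < cG n A (4 * A ^ 2) C₀ := cG_pos hA (by positivity)
  have he : Real.exp (2 * A * dist x o) ≤ Real.exp (2 * A) := by
    apply Real.exp_le_exp.2
    nlinarith
  have g0 : 0 ≤ Gm m p u (4 * A ^ 2 * r) q w w :=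
    (fh_of h hu).Gm_nonneg (by positivity) w
  calc Gm m p u r x w w
      ≤ cG n A (4 * A ^ 2) C₀ * Real.exp (2 * A * dist x o) * Gm m p u (4 * A ^ 2 * r) q w w := k
    _ ≤ cG n A (4 * A ^ 2) C₀ * Real.exp (2 * A) * Gm m p u (4 * A ^ 2 * r) q w w := by gcongr
    _ ≤ cG n A (4 * A ^ 2) C₀ * Real.exp (2 * A)
        * (2 * (4 * A ^ 2 * r / t) * Gm m p u t q w w) := by gcongr
    _ = _ := by ring

end env

end Vale.Agent.P242.H448
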