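import Vale.Agent.P242.H448.RelC

/-! P242, package A-GL2 (helper448), part 5: the relation at one pair. -/

set_option linter.all false

open MeasureTheory Filter Topology Set Metric
open scoped ENNReal NNReal InnerProductSpace

universe u

namespace Vale.Agent.P242.H448

open Vale.Agent.P233 Vale.Agent.P233.RA Vale.Agent.P242.H990 Vale.Agent.P242.H520 Vale.Agent.P242.H71
open Vale.Agent.P242.H655
open Vale.Agent.P242.H703 hiding E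

section env

variable {M : Type u} [MetricSpace M] [CompleteSpace M] [SecondCountableTopology M]
  [MeasurableSpace M] [BorelSpace M] {m : Measure M} {n : ℕ} {K : ℝ} {o : M} {A : ℝ}
  {p : ℝ → M → M → ℝ} {R Q η ρ : ℝ} {u : Fin n → M →ₘ[m] ℝ} {uu : M → E n}

/-- the small terms -/
theorem small_w {Q A₀ r : ℝ} {y : M} (hρ : 0 < ρ) (hη : 0 ≤ η) (hηA : η ^ 2 ≤ A₀) (hr : 0 < r)
    (hrρ : r ≤ ρ ^ 2) {w : E n}
    (hlow : (r / ρ ^ 2) ^ (1 / 8 : ℝ) * ‖w‖ ^ 2 ≤ 2 * Gm m p u r y w w)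
    (hfl : A₀ * (r / ρ ^ 2) ^ (1 / 8 : ℝ) ≤ Dt m n K p Q A₀ ρ r y) :
    η * (√r / ρ * ‖w‖) ≤ √2 * (√(Dt m n K p Q A₀ ρ r y) * nG m p u r y w) := by
  have hρ2 : 0 < ρ ^ 2 := by positivity
  refine H924.tail_le (τ := r / ρ ^ 2) (by positivity) (div_le_one_of_le₀ hrρ hρ2.le)
    (norm_nonneg _) ((sq_nonneg η).trans hηA) hη hηA hfl hlow ?_
  rw [div_pow, Real.sq_sqrt hr.le]

theorem nG_le {r r' a : ℝ} {y y' : M} {w w' : E n} (ha : 0 ≤ a)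
    (h : Gm m p u r y w w ≤ a ^ 2 * Gm m p u r' y' w' w') :
    nG m p u r y w ≤ a * nG m p u r' y' w' := by
  unfold nG
  refine (Real.sqrt_le_sqrt h).trans (le_of_eq ?_)
  rw [Real.sqrt_mul (by positivity), Real.sqrt_sq ha]

/-- the value of `u_w` -/
theorem val_term (h : Env m n K o A p) (hu : Cfg m n K o p R Q η ρ u uu) (hη : 0 ≤ η) {A₀ s T : ℝ}
    {x y : M} (hx : x ∈ ball o (R * ρ)) (hηA : η ^ 2 ≤ A₀) (hs : 0 < s) (hsT : s ≤ T)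
    (hTρ : T ≤ ρ ^ 2) (hsQ : s ≤ Q * ρ ^ 2) {w : E n}
    (hlow : (T / ρ ^ 2) ^ (1 / 8 : ℝ) * ‖w‖ ^ 2 ≤ 2 * Gm m p u T y w w)
    (hfl : A₀ * (T / ρ ^ 2) ^ (1 / 8 : ℝ) ≤ Dt m n K p Q A₀ ρ T y) :
    |I (ph m p s x * uc u w) - ⟪w, uu x⟫_ℝ|
      ≤ √T * (√n * (√2 * (√(Dt m n K p Q A₀ ρ T y) * nG m p u T y w))) := by
  have hρ := hu.ρ_pos
  have hT : 0 < T := hs.trans_le hsT
  have k := H924.uc_val h hu hη hx hs hsQ w
  have k2 := small_w (K := K) hρ hη hηA hT hTρ hlow hfl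
  refine (show |I (ph m p s x * uc u w) - ⟪w, uu x⟫_ℝ| ≤ _ from k).trans ?_
  calc s * (√n * ‖w‖ * (η / ρ)) ≤ T * (√n * ‖w‖ * (η / ρ)) := by gcongr
    _ = √T * (√n * (η * (√T / ρ * ‖w‖))) := by
        conv_lhs => rw [← Real.mul_self_sqrt hT.le]
        ring
    _ ≤ _ := by gcongr

/-- the input of the relation at one pair; `T = Λ² t` -/
structure RIn {M : Type u} [MetricSpace M] [MeasurableSpace M] (m : Measure M) {n : ℕ} (K A : ℝ)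
    (p : ℝ → M → M → ℝ) (u : Fin n → M →ₘ[m] ℝ) (uu : M → E n) (Q A₀ Λ B₁ κ C₀ ρ t T : ℝ)
    (x q : M) (c : E n) (c₀ : ℝ) (v wx wq wq' : E n) (cx cq : ℝ) : Prop where
  Px : PtF m K p u Q A₀ Λ ρ t T x
  Pq : PtF m K p u Q A₀ Λ ρ t T q
  r1 : PP m p T x |bb m q T - bb m x T - uc u c - c₀ • (1 : M →ₘ[m] ℝ)|
    ≤ B₁ * (t * √(Dt m n K p Q A₀ ρ t x + Dt m n K p Q A₀ ρ t q))
  r2 : ∀ s, t / Λ ^ 2 ≤ s → s ≤ t → gm m K p u s x c c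
    ≤ B₁ * (Dt m n K p Q A₀ ρ t x + Dt m n K p Q A₀ ρ t q)
  tv : ∀ s, t / Λ ^ 2 ≤ s → s ≤ t → s * gm m K p u s x v v ≤ Gm m p u s x v v
  errx : PP m p T x |eE m p u T x v wx cx| ≤ B₁ * √T * xE m K p u Q A₀ ρ T x v
  errq : PP m p T q |eE m p u T q v wq cq| ≤ B₁ * √T * xE m K p u Q A₀ ρ T q v
  bdx : nG m p u T x wx ≤ B₁ * nG m p u T x v
  bdq : nG m p u T q wq ≤ B₁ * nG m p u T q v
  cstx : |cx + ⟪v + wx, uu x⟫_ℝ| ≤ B₁ * √T * √(Dt m n K p Q A₀ ρ T x) * nG m p u T x v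
  cstq : |cq + ⟪v + wq, uu q⟫_ℝ| ≤ B₁ * √T * √(Dt m n K p Q A₀ ρ T q) * nG m p u T q v
  stp : nG m p u t q (wq' - wq) ≤ B₁ * xE m K p u Q A₀ ρ T q v
  nd : ∀ b : ℝ, κ * √T * √(Gm m p u T x c c) ≤ PP m p T x |uc u c - b • (1 : M →ₘ[m] ℝ)|
  grow : ∀ᵐ z ∂m, (sob m).Γ (uc u v) (uc u v) z ≤
    H751.cP n A * Real.exp (dist x z ^ 2 / (8 * A * (t / (16 * A ^ 2)))) * Gm m p u t x v v
  iso : ∀ w : E n, |⟪w, uu x - uu q⟫_ℝ| ≤ 2 * (C₀ * √t) * nG m p u t x w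

/-- the geometric conditions on the pair and the times -/
structure RG {M : Type u} [MetricSpace M] (o : M) (A Λ C₀ R Q ρ A₀ η t T : ℝ) (x q : M) : Prop where
  t0 : 0 < t
  Tt : T = Λ ^ 2 * t
  Λ1 : 1 ≤ Λ
  ΛA : 512 * A ^ 2 ≤ Λ ^ 2
  Tρ : 4 * A ^ 2 * T ≤ ρ ^ 2
  ρ1 : ρ ^ 2 ≤ 1 / 2
  Q1 : 1 ≤ Q
  C1 : 1 ≤ C₀
  η0 : 0 ≤ η
  ηA : η ^ 2 ≤ A₀
  xR : x ∈ ball o (R * ρ)
  qR : q ∈ ball o (R * ρ)
  xq : dist x q ≤ C₀ * √t

section pair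

variable {A₀ Λ B₁ κ C₀ t T : ℝ} {x q : M} {c v wx wq wq' : E n} {c₀ cx cq : ℝ}

/-- comparison at the level `T` with the form at `(t, x)` -/
theorem nGT_x (H : RIn m K A p u uu Q A₀ Λ B₁ κ C₀ ρ t T x q c c₀ v wx wq wq' cx cq)
    (G : RG o A Λ C₀ R Q ρ A₀ η t T x q) (hA : 1 ≤ A) (w : E n) :
    nG m p u T x w ≤ (2 * Λ) * nG m p u t x w := by
  have hΛ := G.Λ1
  have ht := G.t0
  have hA2 : 1 ≤ A ^ 2 := one_le_pow₀ hA
  have hT : 0 < T := by rw [G.Tt]; positivity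
  have htT : t ≤ T := by rw [G.Tt]; exact le_mul_of_one_le_left ht.le (one_le_pow₀ hΛ)
  have hTρ : T ≤ ρ ^ 2 := by
    have := G.Tρ
    nlinarith
  refine nG_le (by positivity) ((H.Px.up T htT hTρ w).trans ?_)
  have e : T / t = Λ ^ 2 := by rw [G.Tt]; field_simp
  rw [e, mul_pow]
  have hlow := H.Px.lowt w
  have : 0 ≤ (t / ρ ^ 2) ^ (1 / 8 : ℝ) * ‖w‖ ^ 2 := by positivity
  have g0 : 0 ≤ Gm m p u t x w w := by linarith
  nlinarith [mul_nonneg (sq_nonneg Λ) g0]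

/-- the constant of the comparison of two centres -/
noncomputable def cX (n : ℕ) (A C₀ : ℝ) : ℝ := cG n A (4 * A ^ 2) C₀ * Real.exp (2 * A)

theorem cX_pos (hA : 1 ≤ A) : 0 < cX n A C₀ := by
  have := cG_pos (n := n) (C₀ := C₀) hA (show 0 < 4 * A ^ 2 by positivity)
  unfold cX
  positivity

/-- comparison at the level `T` at `q` with the form at `(t, x)` -/
theorem nGT_q (h : Env m n K o A p) (hu : Cfg m n K o p R Q η ρ u uu)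
    (H : RIn m K A p u uu Q A₀ Λ B₁ κ C₀ ρ t T x q c c₀ v wx wq wq' cx cq)
    (G : RG o A Λ C₀ R Q ρ A₀ η t T x q) (w : E n) :
    nG m p u T q w ≤ √(cX n A C₀ * (8 * A ^ 2 * Λ ^ 2)) * nG m p u t x w := by
  have hA := h.kb.one_le
  have hA2 : 1 ≤ A ^ 2 := one_le_pow₀ hA
  have hΛ := G.Λ1
  have ht := G.t0
  have hT : 0 < T := by rw [G.Tt]; positivity
  have htT : t ≤ T := by rw [G.Tt]; exact le_mul_of_one_le_left ht.le (one_le_pow₀ hΛ)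
  have hqo : dist q o ≤ 1 := (mem_ball.1 G.qR).le.trans hu.Rρ
  have hcX := cX_pos (n := n) (C₀ := C₀) hA
  have hqx : dist q x ≤ C₀ * √T := by
    rw [dist_comm]
    refine G.xq.trans (mul_le_mul_of_nonneg_left (Real.sqrt_le_sqrt htT) ?_)
    linarith [G.C1]
  refine nG_le (Real.sqrt_nonneg _) ?_
  have k := Gm_cross h hu hqo hT G.Tρ (G.Tρ.trans G.ρ1) hqx ht (by nlinarith)
    H.Px.up w
  have e : T / t = Λ ^ 2 := by rw [G.Tt]; field_simp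
  rw [e] at k
  rw [Real.sq_sqrt (by positivity)]
  exact k

/-- comparison at the level `t` -/
theorem nGt_q (h : Env m n K o A p) (hu : Cfg m n K o p R Q η ρ u uu)
    (H : RIn m K A p u uu Q A₀ Λ B₁ κ C₀ ρ t T x q c c₀ v wx wq wq' cx cq)
    (G : RG o A Λ C₀ R Q ρ A₀ η t T x q) (w : E n) :
    nG m p u t x w ≤ √(cX n A C₀ * (8 * A ^ 2)) * nG m p u t q w := by
  have hA := h.kb.one_le
  have hA2 : 1 ≤ A ^ 2 := one_le_pow₀ hA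
  have hΛ := G.Λ1
  have ht := G.t0
  have hT : 0 < T := by rw [G.Tt]; positivity
  have htT : t ≤ T := by rw [G.Tt]; exact le_mul_of_one_le_left ht.le (one_le_pow₀ hΛ)
  have hxo : dist x o ≤ 1 := (mem_ball.1 G.xR).le.trans hu.Rρ
  have hcX := cX_pos (n := n) (C₀ := C₀) hA
  refine nG_le (Real.sqrt_nonneg _) ?_
  have h4 : 4 * A ^ 2 * t ≤ ρ ^ 2 := by
    refine le_trans ?_ G.Tρ
    exact mul_le_mul_of_nonneg_left htT (by positivity)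
  have k := Gm_cross h hu hxo ht h4 (h4.trans G.ρ1) G.xq ht (by nlinarith) H.Pq.up w
  rw [div_self ht.ne', mul_one] at k
  rw [Real.sq_sqrt (by positivity)]
  exact k

/-- `√D_T(y) ≤ Λ √(D_t(x) + D_t(q))` -/
theorem sqrt_dT (H : RIn m K A p u uu Q A₀ Λ B₁ κ C₀ ρ t T x q c c₀ v wx wq wq' cx cq)
    (hΛ : 1 ≤ Λ) :
    √(Dt m n K p Q A₀ ρ T x) ≤ Λ * √(Dt m n K p Q A₀ ρ t x + Dt m n K p Q A₀ ρ t q) ∧
      √(Dt m n K p Q A₀ ρ T q) ≤ Λ * √(Dt m n K p Q A₀ ρ t x + Dt m n K p Q A₀ ρ t q) := by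
  have hx := H.Px.d0
  have hq := H.Pq.d0
  have e : Λ * √(Dt m n K p Q A₀ ρ t x + Dt m n K p Q A₀ ρ t q)
      = √(Λ ^ 2 * (Dt m n K p Q A₀ ρ t x + Dt m n K p Q A₀ ρ t q)) := by
    rw [Real.sqrt_mul (by positivity), Real.sqrt_sq (by linarith)]
  rw [e]
  have hΛ2 : Λ ≤ Λ ^ 2 := by nlinarith
  have hs : 0 ≤ Dt m n K p Q A₀ ρ t x + Dt m n K p Q A₀ ρ t q := add_nonneg hx hq
  constructor
  · refine Real.sqrt_le_sqrt (H.Px.dT.trans ?_)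
    exact mul_le_mul hΛ2 (by linarith) hx (by positivity)
  · refine Real.sqrt_le_sqrt (H.Pq.dT.trans ?_)
    exact mul_le_mul hΛ2 (by linarith) hq (by positivity)

end pair

end env

end Vale.Agent.P242.H448
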