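import Vale.Agent.P242.H448.RelD

/-! P242, package A-GL2 (helper448), part 6: the relation at one pair, conclusion. -/

set_option linter.all false

open MeasureTheory Filter Topology Set Metric
open scoped ENNReal NNReal InnerProductSpace

universe u

namespace Vale.Agent.P242.H448

open Vale.Agent.P233 Vale.Agent.P233.RA Vale.Agent.P242.H990 Vale.Agent.P242.H520 Vale.Agent.P242.H71
open Vale.Agent.P242.H655
open Vale.Agent.P242.H703 hiding E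

section consts

/-- the constant of the comparison of the vertex functions -/
noncomputable def kV (n : ℕ) (κ₀ C₀ : ℝ) : ℝ := √(cB' n κ₀ C₀) + √(cB' n κ₀ 0)

/-- the bound of the affine part -/
noncomputable def kC (n : ℕ) (κ₀ Λ C₀ B₁ κ : ℝ) : ℝ :=
  2 * (Λ * ((√(2 * Real.exp (2 * κ₀)) * kV n κ₀ C₀ + 2 * B₁) / κ))

/-- the Harnack constant -/
noncomputable def kH (n : ℕ) (A Λ C₀ : ℝ) : ℝ :=
  cG n A (512 * A ^ 2 * Λ ^ 2) (C₀ * √(512 * A ^ 2)) * Real.exp (2 * A)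

/-- the constant of the second moment -/
noncomputable def kW (n : ℕ) (κ₀ A Λ C₀ B₁ κ : ℝ) : ℝ :=
  √(2 * Real.exp (2 * κ₀)) * (Λ * kV n κ₀ C₀ + 2 * kC n κ₀ Λ C₀ B₁ κ) + 2 * (kH n A Λ C₀ * B₁)

theorem cB'_nonneg {n : ℕ} {κ₀ C₀ : ℝ} : 0 ≤ cB' n κ₀ C₀ := by
  unfold cB'
  positivity

theorem kV_nonneg {n : ℕ} {κ₀ C₀ : ℝ} : 0 ≤ kV n κ₀ C₀ := by
  unfold kV
  positivity

theorem kC_nonneg {n : ℕ} {κ₀ Λ C₀ B₁ κ : ℝ} (hΛ : 0 ≤ Λ) (hB : 0 ≤ B₁) (hκ : 0 < κ) :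
    0 ≤ kC n κ₀ Λ C₀ B₁ κ := by
  have := kV_nonneg (n := n) (κ₀ := κ₀) (C₀ := C₀)
  unfold kC
  positivity

theorem kH_pos {n : ℕ} {A Λ C₀ : ℝ} (hA : 1 ≤ A) (hΛ : 0 < Λ) : 0 < kH n A Λ C₀ := by
  have := cG_pos (n := n) (C₀ := C₀ * √(512 * A ^ 2)) hA (show 0 < 512 * A ^ 2 * Λ ^ 2 by positivity)
  unfold kH
  positivity

/-- real arithmetic for the variance of the vertex functions -/
theorem real_var {κ₀ s T t Λ a b : ℝ} (hκ : 0 ≤ κ₀) (hs : 0 ≤ s) (hst : s ≤ t) (ht : 0 ≤ t)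
    (hs1 : s ≤ 1) (ha : 0 ≤ a) (hb : 0 ≤ b) :
    √(2 * s * Real.exp (2 * κ₀ * s) * (a * √t) ^ 2) ≤ √(2 * Real.exp (2 * κ₀)) * a * t := by
  have e : √(2 * Real.exp (2 * κ₀)) * a * t = √(2 * Real.exp (2 * κ₀) * (a * t) ^ 2) := by
    rw [Real.sqrt_mul (x := 2 * Real.exp (2 * κ₀)) (by positivity),
      Real.sqrt_sq (by positivity : 0 ≤ a * t)]
    ring
  rw [e]
  refine Real.sqrt_le_sqrt ?_
  have h1 : Real.exp (2 * κ₀ * s) ≤ Real.exp (2 * κ₀) := by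
    apply Real.exp_le_exp.2
    nlinarith
  calc 2 * s * Real.exp (2 * κ₀ * s) * (a * √t) ^ 2
      = 2 * s * Real.exp (2 * κ₀ * s) * (a ^ 2 * t) := by
        rw [mul_pow, Real.sq_sqrt ht]
    _ ≤ 2 * t * Real.exp (2 * κ₀) * (a ^ 2 * t) := by gcongr
    _ = _ := by ring

end consts

section env

variable {M : Type u} [MetricSpace M] [CompleteSpace M] [SecondCountableTopology M]
  [MeasurableSpace M] [BorelSpace M] {m : Measure M} {n : ℕ} {K : ℝ} {o : M} {A : ℝ}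
  {p : ℝ → M → M → ℝ} {R Q η ρ : ℝ} {u : Fin n → M →ₘ[m] ℝ} {uu : M → E n}
  {A₀ Λ B₁ κ C₀ t T : ℝ} {x q : M} {c v wx wq wq' : E n} {c₀ cx cq : ℝ}

/-- derived facts -/
theorem RG.facts (G : RG o A Λ C₀ R Q ρ A₀ η t T x q) (hA : 1 ≤ A) :
    0 < T ∧ t ≤ T ∧ T ≤ ρ ^ 2 ∧ T ≤ 1 / 2 ∧ √T = Λ * √t ∧ ρ ^ 2 ≤ Q * ρ ^ 2 := by
  have hΛ := G.Λ1
  have ht := G.t0
  have hA2 : 1 ≤ A ^ 2 := one_le_pow₀ hA
  have hT : 0 < T := by rw [G.Tt]; positivity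
  have htT : t ≤ T := by rw [G.Tt]; exact le_mul_of_one_le_left ht.le (one_le_pow₀ hΛ)
  have hTρ : T ≤ ρ ^ 2 := by
    have := G.Tρ
    nlinarith
  refine ⟨hT, htT, hTρ, hTρ.trans G.ρ1, ?_, le_mul_of_one_le_left (sq_nonneg ρ) G.Q1⟩
  rw [G.Tt, Real.sqrt_mul (by positivity), Real.sqrt_sq (by linarith)]

/-- `√(D_t(x) + D_t(q)) ≤ 2` -/
theorem sqrtD_le (H : RIn m K A p u uu Q A₀ Λ B₁ κ C₀ ρ t T x q c c₀ v wx wq wq' cx cq) :
    √(Dt m n K p Q A₀ ρ t x + Dt m n K p Q A₀ ρ t q) ≤ 2 := by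
  have h1 := H.Px.d1
  have h2 := H.Pq.d1
  rw [Real.sqrt_le_left (by norm_num)]
  linarith

/-- the affine part is bounded by `√t` -/
theorem c_le (h : Env m n K o A p) (hu : Cfg m n K o p R Q η ρ u uu)
    (H : RIn m K A p u uu Q A₀ Λ B₁ κ C₀ ρ t T x q c c₀ v wx wq wq' cx cq)
    (G : RG o A Λ C₀ R Q ρ A₀ η t T x q) (hB₁ : 0 ≤ B₁) (hκ : 0 < κ) :
    nG m p u t x c ≤ kC n |K| Λ C₀ B₁ κ * √t := by
  have hA := h.kb.one_le
  obtain ⟨hT, htT, hTρ, hT1, hsT, hρQ⟩ := G.facts hA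
  have hC1 := G.C1
  have ht := G.t0
  have hΛ := G.Λ1
  have hS := sqrtD_le H
  have hxq : dist x q ≤ C₀ * √T :=
    G.xq.trans (mul_le_mul_of_nonneg_left (Real.sqrt_le_sqrt htT) (by linarith))
  have k := c_bound h hu hT (by linarith) hxq (by linarith) hκ c H.nd H.r1
  have hsq : 0 < √T := Real.sqrt_pos.2 hT
  have e1 : √(cB' n |K| C₀ * T) + √(cB' n |K| 0 * T) = kV n |K| C₀ * √T := by
    rw [Real.sqrt_mul cB'_nonneg, Real.sqrt_mul cB'_nonneg]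
    unfold kV
    ring
  rw [e1] at k
  have k1 := real_var (κ₀ := |K|) (Λ := 1) (T := 1) (b := 1) (abs_nonneg K) hT.le le_rfl hT.le
    (by linarith) (kV_nonneg (n := n) (κ₀ := |K|) (C₀ := C₀)) zero_le_one
  have k2 : B₁ * (t * √(Dt m n K p Q A₀ ρ t x + Dt m n K p Q A₀ ρ t q)) ≤ 2 * B₁ * T := by
    calc B₁ * (t * √(Dt m n K p Q A₀ ρ t x + Dt m n K p Q A₀ ρ t q)) ≤ B₁ * (T * 2) := by gcongr
      _ = _ := by ring
  have k3 : κ * √T * √(Gm m p u T x c c)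
      ≤ (√(2 * Real.exp (2 * |K|)) * kV n |K| C₀ + 2 * B₁) * T := by
    linarith
  have k4 : √(Gm m p u T x c c)
      ≤ (√(2 * Real.exp (2 * |K|)) * kV n |K| C₀ + 2 * B₁) / κ * √T := by
    rw [div_mul_eq_mul_div, le_div_iff₀ hκ]
    have h5 : √T * (√(Gm m p u T x c c) * κ)
        ≤ √T * ((√(2 * Real.exp (2 * |K|)) * kV n |K| C₀ + 2 * B₁) * √T) := by
      calc √T * (√(Gm m p u T x c c) * κ) = κ * √T * √(Gm m p u T x c c) := by ring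
        _ ≤ _ := k3
        _ = (√(2 * Real.exp (2 * |K|)) * kV n |K| C₀ + 2 * B₁) * (√T * √T) := by
            rw [Real.mul_self_sqrt hT.le]
        _ = _ := by ring
    exact le_of_mul_le_mul_left h5 hsq
  have hlow := H.Px.lowT c
  have hlow0 : 0 ≤ (T / ρ ^ 2) ^ (1 / 8 : ℝ) * ‖c‖ ^ 2 := by positivity
  have k5 : nG m p u t x c ≤ 2 * nG m p u T x c := by
    refine nG_le (by norm_num) ((H.Px.dn t T ht htT hTρ c).trans ?_)
    linarith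
  calc nG m p u t x c ≤ 2 * nG m p u T x c := k5
    _ ≤ 2 * ((√(2 * Real.exp (2 * |K|)) * kV n |K| C₀ + 2 * B₁) / κ * √T) :=
        mul_le_mul_of_nonneg_left k4 (by norm_num)
    _ = _ := by
        rw [hsT]
        unfold kC
        ring

/-- the error of (R1) at the time `s` -/
theorem W1_le (h : Env m n K o A p) (hu : Cfg m n K o p R Q η ρ u uu)
    (H : RIn m K A p u uu Q A₀ Λ B₁ κ C₀ ρ t T x q c c₀ v wx wq wq' cx cq)
    (G : RG o A Λ C₀ R Q ρ A₀ η t T x q) {s : ℝ} (hs : s = t / (512 * A ^ 2)) :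
    PP m p s x |bb m q T - bb m x T - uc u c - c₀ • (1 : M →ₘ[m] ℝ)|
        ≤ kH n A Λ C₀ * (B₁ * (t * √(Dt m n K p Q A₀ ρ t x + Dt m n K p Q A₀ ρ t q))) := by
  have hC := H751.env_gamma h
  have hA := h.kb.one_le
  have hA2 : 1 ≤ A ^ 2 := one_le_pow₀ hA
  obtain ⟨hT, htT, hTρ, hT1, hsT, hρQ⟩ := G.facts hA
  have hC1 := G.C1
  have ht := G.t0
  have hΛ := G.Λ1
  have hs0 : 0 < s := by rw [hs]; positivity
  have hxo : dist x o ≤ 1 := (mem_ball.1 G.xR).le.trans hu.Rρ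
  have hkH := kH_pos (n := n) (C₀ := C₀) hA (by linarith : 0 < Λ)
  have hFt : MemLp (bb m q T - bb m x T - uc u c - c₀ • (1 : M →ₘ[m] ℝ)) ∞ m :=
    mem_sub (mem_sub (mem_sub (hC.test_A (bb_test h q hT)).2 (hC.test_A (bb_test h x hT)).2)
      (H751.uc_A hC hu c).2) (mem_smul _ mem_top_one)
  have h4 : 4 * A ^ 2 * s ≤ T := by
    refine le_trans ?_ htT
    rw [hs]
    have : 4 * A ^ 2 * (t / (512 * A ^ 2)) = t / 128 := by field_simp; ring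
    rw [this]
    linarith
  have h5 : T ≤ 512 * A ^ 2 * Λ ^ 2 * s := by
    rw [hs, G.Tt]
    refine le_of_eq ?_
    field_simp
  have k1 := PP_abs_harnack h (Γ := 512 * A ^ 2 * Λ ^ 2) (C₀ := C₀ * √(512 * A ^ 2)) (q := x) hxo hs0
    h4 h5 hT1 (by rw [dist_self]; positivity) (H751.PP_int_top h.ker hT x (gabs_mem hFt))
  exact k1.trans (mul_le_mul_of_nonneg_left H.r1 hkH.le)

theorem real_W {κ₀ s t a b : ℝ} (hκ : 0 ≤ κ₀) (hs : 0 ≤ s) (hst : s ≤ t) (ht : 0 ≤ t)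
    (hs1 : s ≤ 1) (ha : 0 ≤ a) (hb : 0 ≤ b) :
    2 * s * Real.exp (2 * κ₀ * s) * (a * √t) ^ 2 + (b * t) ^ 2
      ≤ ((√(2 * Real.exp (2 * κ₀)) * a + b) * t) ^ 2 := by
  have k6 := real_var (κ₀ := κ₀) (Λ := 1) (T := 1) (b := 1) hκ hs hst ht hs1 ha zero_le_one
  have k7 : 2 * s * Real.exp (2 * κ₀ * s) * (a * √t) ^ 2
      ≤ (√(2 * Real.exp (2 * κ₀)) * a * t) ^ 2 := by
    have := pow_le_pow_left₀ (Real.sqrt_nonneg _) k6 2
    rwa [Real.sq_sqrt (by positivity)] at this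
  have h6 : 0 ≤ √(2 * Real.exp (2 * κ₀)) * a * t := by positivity
  have h7 : 0 ≤ b * t := by positivity
  have e : (√(2 * Real.exp (2 * κ₀)) * a + b) * t = √(2 * Real.exp (2 * κ₀)) * a * t + b * t := by
    ring
  rw [e, add_sq]
  have := mul_nonneg h6 h7
  linarith

/-- second moment at the time `s` -/
theorem W_le (h : Env m n K o A p) (hu : Cfg m n K o p R Q η ρ u uu)
    (H : RIn m K A p u uu Q A₀ Λ B₁ κ C₀ ρ t T x q c c₀ v wx wq wq' cx cq)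
    (G : RG o A Λ C₀ R Q ρ A₀ η t T x q) (hB₁ : 0 ≤ B₁) (hκ : 0 < κ) {s : ℝ}
    (hs : s = t / (512 * A ^ 2)) :
    PP m p s x ((bb m q T - bb m x T - uc u c - c₀ • (1 : M →ₘ[m] ℝ)) ^ 2)
        ≤ (kW n |K| A Λ C₀ B₁ κ * t) ^ 2 := by
  have hA := h.kb.one_le
  have hA2 : 1 ≤ A ^ 2 := one_le_pow₀ hA
  obtain ⟨hT, htT, hTρ, hT1, hsT, hρQ⟩ := G.facts hA
  have hC1 := G.C1
  have ht := G.t0
  have hΛ := G.Λ1
  have hS := sqrtD_le H
  have hs0 : 0 < s := by rw [hs]; positivity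
  have hst : s ≤ t := by rw [hs]; exact div_le_self ht.le (by linarith)
  have hxq : dist x q ≤ C₀ * √T :=
    G.xq.trans (mul_le_mul_of_nonneg_left (Real.sqrt_le_sqrt htT) (by linarith))
  have hkH := kH_pos (n := n) (C₀ := C₀) hA (by linarith : 0 < Λ)
  have k3 : PP m p s x |bb m q T - bb m x T - uc u c - c₀ • (1 : M →ₘ[m] ℝ)|
      ≤ 2 * (kH n A Λ C₀ * B₁) * t := by
    refine (W1_le h hu H G hs).trans ?_
    calc kH n A Λ C₀ * (B₁ * (t * √(Dt m n K p Q A₀ ρ t x + Dt m n K p Q A₀ ρ t q)))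
        ≤ kH n A Λ C₀ * (B₁ * (t * 2)) := by gcongr
      _ = _ := by ring
  have hkC := kC_nonneg (n := n) (κ₀ := |K|) (C₀ := C₀) (by linarith : 0 ≤ Λ) hB₁ hκ
  have hc := c_le h hu H G hB₁ hκ
  have hlow := H.Px.lowt c
  have hlow0 : 0 ≤ (t / ρ ^ 2) ^ (1 / 8 : ℝ) * ‖c‖ ^ 2 := by positivity
  have k4 : √(Gm m p u s x c c) ≤ 2 * kC n |K| Λ C₀ B₁ κ * √t := by
    have : nG m p u s x c ≤ 2 * nG m p u t x c := by
      refine nG_le (by norm_num) ((H.Px.dn s t hs0 hst (htT.trans hTρ) c).trans ?_)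
      linarith
    refine (show √(Gm m p u s x c c) ≤ _ from this).trans ?_
    calc 2 * nG m p u t x c ≤ 2 * (kC n |K| Λ C₀ B₁ κ * √t) := by gcongr
      _ = _ := by ring
  have k5 := psi_sq h hu hs0 (hst.trans htT) (by linarith) hxq (by linarith) c (by positivity)
    k4 k3
  refine k5.trans ?_
  have e1 : √(cB' n |K| C₀ * T) + √(cB' n |K| 0 * T) + 2 * kC n |K| Λ C₀ B₁ κ * √t
      = (Λ * kV n |K| C₀ + 2 * kC n |K| Λ C₀ B₁ κ) * √t := by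
    rw [Real.sqrt_mul cB'_nonneg, Real.sqrt_mul cB'_nonneg, hsT]
    unfold kV
    ring
  rw [e1]
  have hkV := kV_nonneg (n := n) (κ₀ := |K|) (C₀ := C₀)
  exact real_W (abs_nonneg K) hs0.le hst ht.le (by linarith) (by positivity) (by positivity)

end env

end Vale.Agent.P242.H448
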