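import Vale.Agent.P242.H448.RelE

/-! P242, package A-GL2 (helper448), part 7: the relation at one pair, conclusion. -/

set_option linter.all false

open MeasureTheory Filter Topology Set Metric
open scoped ENNReal NNReal InnerProductSpace

universe u

namespace Vale.Agent.P242.H448

open Vale.Agent.P233 Vale.Agent.P233.RA Vale.Agent.P242.H990 Vale.Agent.P242.H520 Vale.Agent.P242.H71
open Vale.Agent.P242.H655
open Vale.Agent.P242.H703 hiding E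

/-- comparison constant of the level `T` -/
noncomputable def kG (n : ℕ) (A Λ C₀ : ℝ) : ℝ := 2 * Λ + √(cX n A C₀ * (8 * A ^ 2 * Λ ^ 2))

/-- constant of the growth -/
noncomputable def kE (n : ℕ) (κ₀ A Λ : ℝ) : ℝ :=
  cE n A κ₀ 1 (Λ ^ 2) * √(H751.cP n A / cP n A κ₀ 1)

/-- constant of the relation at the time `s` -/
noncomputable def kS (n : ℕ) (κ₀ A Λ C₀ B₁ κ : ℝ) : ℝ :=
  kE n κ₀ A Λ * B₁ + kW n κ₀ A Λ C₀ B₁ κ * (√n * √2)
    + 2 * (kH n A Λ C₀ * (3 * (B₁ * (Λ ^ 2 * kG n A Λ C₀))))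
    + 2 * (√n * (√2 * (B₁ * (Λ ^ 2 * kG n A Λ C₀)))) + 2 * (B₁ * (Λ ^ 2 * kG n A Λ C₀))

theorem kG_pos {n : ℕ} {A Λ C₀ : ℝ} (hΛ : 1 ≤ Λ) : 0 < kG n A Λ C₀ := by
  unfold kG
  have : 0 ≤ √(cX n A C₀ * (8 * A ^ 2 * Λ ^ 2)) := Real.sqrt_nonneg _
  linarith

theorem kE_nonneg {n : ℕ} {κ₀ A Λ : ℝ} (hA : 1 ≤ A) (hΛ : 1 ≤ Λ) : 0 ≤ kE n κ₀ A Λ := by
  have := cE_nonneg (n := n) (κ := κ₀) (c₀ := 1) hA (show 0 < Λ ^ 2 by positivity)
  unfold kE
  positivity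

theorem kW_nonneg {n : ℕ} {κ₀ A Λ C₀ B₁ κ : ℝ} (hA : 1 ≤ A) (hΛ : 1 ≤ Λ) (hB : 0 ≤ B₁) (hκ : 0 < κ) :
    0 ≤ kW n κ₀ A Λ C₀ B₁ κ := by
  have h1 := kV_nonneg (n := n) (κ₀ := κ₀) (C₀ := C₀)
  have h2 := kC_nonneg (n := n) (κ₀ := κ₀) (C₀ := C₀) (by linarith : 0 ≤ Λ) hB hκ
  have h3 := kH_pos (n := n) (C₀ := C₀) hA (by linarith : 0 < Λ)
  unfold kW
  positivity

section env

variable {M : Type u} [MetricSpace M] [CompleteSpace M] [SecondCountableTopology M]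
  [MeasurableSpace M] [BorelSpace M] {m : Measure M} {n : ℕ} {K : ℝ} {o : M} {A : ℝ}
  {p : ℝ → M → M → ℝ} {R Q η ρ : ℝ} {u : Fin n → M →ₘ[m] ℝ} {uu : M → E n}
  {A₀ Λ B₁ κ C₀ t T : ℝ} {x q : M} {c v wx wq wq' : E n} {c₀ cx cq : ℝ}

/-- the product of the gradients -/
theorem prod_le (h : Env m n K o A p) (hu : Cfg m n K o p R Q η ρ u uu)
    (H : RIn m K A p u uu Q A₀ Λ B₁ κ C₀ ρ t T x q c c₀ v wx wq wq' cx cq)
    (G : RG o A Λ C₀ R Q ρ A₀ η t T x q) {s : ℝ} (hs : s = t / (512 * A ^ 2)) :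
    ∀ᵐ z ∂m, |(sob m).Γ (ph m p s x) (uc u v) z|
      ≤ (kE n |K| A Λ / √t * nG m p u t x v) * ph m p T x z := by
  have hA := h.kb.one_le
  have hA0 := h.kb.pos
  obtain ⟨hT, htT, hTρ, hT1, hsT, hρQ⟩ := G.facts hA
  have hxo : dist x o ≤ 1 := (mem_ball.1 G.xR).le.trans hu.Rρ
  have hn : (0 : ℝ) < n := (H924.facts h.hyp).npos
  have hcP : 0 < cP n A |K| 1 := by
    have := cFar_nonneg n A
    unfold cP
    positivity
  have hlow := H.Px.lowt v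
  have ht := G.t0
  have g0 : 0 ≤ Gm m p u t x v v := by
    have : 0 ≤ (t / ρ ^ 2) ^ (1 / 8 : ℝ) * ‖v‖ ^ 2 := by positivity
    linarith
  have hcP' : 1 ≤ H751.cP n A := H751.cP_ge hA
  have hG0 : 0 ≤ H751.cP n A / cP n A |K| 1 * Gm m p u t x v v := by positivity
  have k := grad_prod h hxo ht htT (Γ := Λ ^ 2) (c₀ := 1) G.Tt.le hT1 one_pos
    (H751.uc_W (H751.env_gamma h) hu v) hG0 (by
      filter_upwards [H.grow] with z hz
      refine hz.trans (le_of_eq ?_)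
      have e1 : dist x z ^ 2 / (8 * A * (t / (16 * A ^ 2))) = 2 * A * dist x z ^ 2 / t := by
        field_simp
        ring
      rw [e1]
      field_simp)
  rw [hs]
  filter_upwards [k] with z hz
  refine hz.trans (le_of_eq ?_)
  rw [Real.sqrt_mul (by positivity)]
  unfold kE nG
  ring

/-- **the relation at the time `s`** -/
theorem rel_s (h : Env m n K o A p) (hu : Cfg m n K o p R Q η ρ u uu)
    (H : RIn m K A p u uu Q A₀ Λ B₁ κ C₀ ρ t T x q c c₀ v wx wq wq' cx cq)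
    (G : RG o A Λ C₀ R Q ρ A₀ η t T x q) (hB₁ : 1 ≤ B₁) (hκ : 0 < κ) {s : ℝ}
    (hs : s = t / (512 * A ^ 2)) :
    |Gm m p u s x c v - ⟪v + wq, uu x - uu q⟫_ℝ| ≤ kS n |K| A Λ C₀ B₁ κ
      * (√t * (√(Dt m n K p Q A₀ ρ t x + Dt m n K p Q A₀ ρ t q) * nG m p u t x v)) := by
  have hC := H751.env_gamma h
  have hD := hC.toIsDir
  have hA := h.kb.one_le
  have hA0 := h.kb.pos
  have hA2 : 1 ≤ A ^ 2 := one_le_pow₀ hA
  obtain ⟨hT, htT, hTρ, hT1, hsT, hρQ⟩ := G.facts hA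
  have hC1 := G.C1
  have ht := G.t0
  have hΛ := G.Λ1
  have hρ := hu.ρ_pos
  have hs0 : 0 < s := by rw [hs]; positivity
  have hst : s ≤ t := by rw [hs]; exact div_le_self ht.le (by linarith)
  have hxo : dist x o ≤ 1 := (mem_ball.1 G.xR).le.trans hu.Rρ
  have hsq : 0 < √t := Real.sqrt_pos.2 ht
  set S := √(Dt m n K p Q A₀ ρ t x + Dt m n K p Q A₀ ρ t q) with hS
  set g := nG m p u t x v with hg
  have hS0 : 0 ≤ S := Real.sqrt_nonneg _
  have hg0 : 0 ≤ g := Real.sqrt_nonneg _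
  obtain ⟨hdx, hdq⟩ := sqrt_dT H hΛ
  rw [← hS] at hdx hdq
  have hkG := kG_pos (n := n) (A := A) (C₀ := C₀) hΛ
  have hkE := kE_nonneg (n := n) (κ₀ := |K|) hA hΛ
  have hkW := kW_nonneg (n := n) (κ₀ := |K|) (C₀ := C₀) hA hΛ (by linarith : 0 ≤ B₁) hκ
  have hkH := kH_pos (n := n) (C₀ := C₀) hA (by linarith : 0 < Λ)
  have gx : nG m p u T x v ≤ kG n A Λ C₀ * g := by
    refine (nGT_x H G hA v).trans (mul_le_mul_of_nonneg_right ?_ hg0)
    unfold kG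
    have := Real.sqrt_nonneg (cX n A C₀ * (8 * A ^ 2 * Λ ^ 2))
    linarith
  have gq : nG m p u T q v ≤ kG n A Λ C₀ * g := by
    refine (nGT_q h hu H G v).trans (mul_le_mul_of_nonneg_right ?_ hg0)
    unfold kG
    linarith
  set U := Λ ^ 2 * kG n A Λ C₀ * (√t * (S * g)) with hU
  have hU0 : 0 ≤ U := by positivity
  -- the unit at the level `T`
  have ux : √T * (√(Dt m n K p Q A₀ ρ T x) * nG m p u T x v) ≤ U := by
    rw [hsT, hU]
    calc Λ * √t * (√(Dt m n K p Q A₀ ρ T x) * nG m p u T x v)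
        ≤ Λ * √t * ((Λ * S) * (kG n A Λ C₀ * g)) := by
          gcongr
          exact Real.sqrt_nonneg _
      _ = _ := by ring
  have uq : √T * (√(Dt m n K p Q A₀ ρ T q) * nG m p u T q v) ≤ U := by
    rw [hsT, hU]
    calc Λ * √t * (√(Dt m n K p Q A₀ ρ T q) * nG m p u T q v)
        ≤ Λ * √t * ((Λ * S) * (kG n A Λ C₀ * g)) := by
          gcongr
          exact Real.sqrt_nonneg _
      _ = _ := by ring
  have hB0 : 0 ≤ B₁ := by linarith
  -- E4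
  have ex : PP m p T x |eE m p u T x v wx cx| ≤ 3 * (B₁ * U) := by
    refine H.errx.trans ?_
    calc B₁ * √T * xE m K p u Q A₀ ρ T x v
        ≤ B₁ * √T * (3 * (√(Dt m n K p Q A₀ ρ T x) * nG m p u T x v)) :=
          mul_le_mul_of_nonneg_left (H.Px.x3 v) (by positivity)
      _ = 3 * (B₁ * (√T * (√(Dt m n K p Q A₀ ρ T x) * nG m p u T x v))) := by ring
      _ ≤ _ := by gcongr
  have eq' : PP m p T q |eE m p u T q v wq cq| ≤ 3 * (B₁ * U) := by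
    refine H.errq.trans ?_
    calc B₁ * √T * xE m K p u Q A₀ ρ T q v
        ≤ B₁ * √T * (3 * (√(Dt m n K p Q A₀ ρ T q) * nG m p u T q v)) :=
          mul_le_mul_of_nonneg_left (H.Pq.x3 v) (by positivity)
      _ = 3 * (B₁ * (√T * (√(Dt m n K p Q A₀ ρ T q) * nG m p u T q v))) := by ring
      _ ≤ _ := by gcongr
  have h4 : 4 * A ^ 2 * s ≤ T := by
    refine le_trans ?_ htT
    rw [hs]
    have : 4 * A ^ 2 * (t / (512 * A ^ 2)) = t / 128 := by field_simp; ring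
    rw [this]
    linarith
  have h5 : T ≤ 512 * A ^ 2 * Λ ^ 2 * s := by
    rw [hs, G.Tt]
    refine le_of_eq ?_
    field_simp
  have hbx := hC.test_A (bb_test h x hT)
  have hbq := hC.test_A (bb_test h q hT)
  have hW := fun w : E n => H751.uc_W hC hu w
  have hA' := fun w : E n => H751.uc_A hC hu w
  have m1 : ∀ (y : M) (w : E n) (a : ℝ), MemLp (eE m p u T y v w a : M →ₘ[m] ℝ) ∞ m := by
    intro y w a
    unfold H655.eE
    refine mem_sub (mem_sub (mem_sub ?_ (hA' v).2) (hA' w).2) (mem_smul _ mem_top_one)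
    exact hD.Γ_memTop (hC.test_A (bb_test h y hT)).1 (hC.test_Γ_top (bb_test h y hT)) (hW v)
      (hC.test_Γ_top (H751.uc_test hC hu v))
  have fx : PP m p s x |eE m p u T x v wx cx| ≤ kH n A Λ C₀ * (3 * (B₁ * U)) := by
    refine (PP_abs_harnack h (Γ := 512 * A ^ 2 * Λ ^ 2) (C₀ := C₀ * √(512 * A ^ 2)) (q := x) hxo hs0
      h4 h5 hT1 (by rw [dist_self]; positivity)
      (H751.PP_int_top h.ker hT x (gabs_mem (m1 x wx cx)))).trans ?_
    exact mul_le_mul_of_nonneg_left ex hkH.le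
  have hqs : dist x q ≤ C₀ * √(512 * A ^ 2) * √s := by
    have e : √(512 * A ^ 2) * √s = √t := by
      rw [← Real.sqrt_mul (by positivity), hs]
      congr 1
      field_simp
    rw [mul_assoc, e]
    exact G.xq
  have fq : PP m p s x |eE m p u T q v wq cq| ≤ kH n A Λ C₀ * (3 * (B₁ * U)) := by
    refine (PP_abs_harnack h (Γ := 512 * A ^ 2 * Λ ^ 2) (C₀ := C₀ * √(512 * A ^ 2)) (q := q) hxo hs0
      h4 h5 hT1 hqs (H751.PP_int_top h.ker hT q (gabs_mem (m1 q wq cq)))).trans ?_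
    exact mul_le_mul_of_nonneg_left eq' hkH.le
  -- the values
  have bx : √T * (√n * (√2 * (√(Dt m n K p Q A₀ ρ T x) * nG m p u T x wx)))
      ≤ √n * (√2 * (B₁ * U)) := by
    calc √T * (√n * (√2 * (√(Dt m n K p Q A₀ ρ T x) * nG m p u T x wx)))
        ≤ √T * (√n * (√2 * (√(Dt m n K p Q A₀ ρ T x) * (B₁ * nG m p u T x v)))) := by
          have := H.bdx
          gcongr
      _ = √n * (√2 * (B₁ * (√T * (√(Dt m n K p Q A₀ ρ T x) * nG m p u T x v)))) := by ring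
      _ ≤ _ := by gcongr
  have bq : √T * (√n * (√2 * (√(Dt m n K p Q A₀ ρ T q) * nG m p u T q wq)))
      ≤ √n * (√2 * (B₁ * U)) := by
    calc √T * (√n * (√2 * (√(Dt m n K p Q A₀ ρ T q) * nG m p u T q wq)))
        ≤ √T * (√n * (√2 * (√(Dt m n K p Q A₀ ρ T q) * (B₁ * nG m p u T q v)))) := by
          have := H.bdq
          gcongr
      _ = √n * (√2 * (B₁ * (√T * (√(Dt m n K p Q A₀ ρ T q) * nG m p u T q v)))) := by ring
      _ ≤ _ := by gcongr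
  have hsQ : s ≤ Q * ρ ^ 2 := (hst.trans (htT.trans hTρ)).trans hρQ
  have vx := (val_term h hu G.η0 G.xR G.ηA hs0 (hst.trans htT) hTρ hsQ (H.Px.lowT wx)
    H.Px.dfT).trans bx
  have vq := (val_term h hu G.η0 G.xR G.ηA hs0 (hst.trans htT) hTρ hsQ (H.Pq.lowT wq)
    H.Pq.dfT).trans bq
  -- the constants
  have cx' : |cx + ⟪v, uu x⟫_ℝ + ⟪wx, uu x⟫_ℝ| ≤ B₁ * U := by
    rw [add_assoc, ← inner_add_left]
    refine H.cstx.trans ?_
    calc B₁ * √T * √(Dt m n K p Q A₀ ρ T x) * nG m p u T x v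
        = B₁ * (√T * (√(Dt m n K p Q A₀ ρ T x) * nG m p u T x v)) := by ring
      _ ≤ _ := by gcongr
  have cq' : |cq + ⟪v, uu q⟫_ℝ + ⟪wq, uu q⟫_ℝ| ≤ B₁ * U := by
    rw [add_assoc, ← inner_add_left]
    refine H.cstq.trans ?_
    calc B₁ * √T * √(Dt m n K p Q A₀ ρ T q) * nG m p u T q v
        = B₁ * (√T * (√(Dt m n K p Q A₀ ρ T q) * nG m p u T q v)) := by ring
      _ ≤ _ := by gcongr
  -- the Laplacian term
  have hFt : MemLp (bb m q T - bb m x T - uc u c - c₀ • (1 : M →ₘ[m] ℝ)) ∞ m :=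
    mem_sub (mem_sub (mem_sub hbq.2 hbx.2) (hA' c).2) (mem_smul _ mem_top_one)
  have lt := lap_term h hu G.xR hs0 hsQ G.η0 hFt (W_le h hu H G hB0 hκ hs) v
  have lt2 : √((kW n |K| A Λ C₀ B₁ κ * t) ^ 2) * (√n * ‖v‖ * (η / ρ))
      ≤ kW n |K| A Λ C₀ B₁ κ * (√n * √2) * (√t * (S * g)) := by
    rw [Real.sqrt_sq (by positivity)]
    have sw := small_w (K := K) hρ G.η0 G.ηA ht (htT.trans hTρ) (H.Px.lowt v) H.Px.dfl
    have hdS : √(Dt m n K p Q A₀ ρ t x) ≤ S := Real.sqrt_le_sqrt (by linarith [H.Pq.d0])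
    calc kW n |K| A Λ C₀ B₁ κ * t * (√n * ‖v‖ * (η / ρ))
        = kW n |K| A Λ C₀ B₁ κ * (√n * (√t * (η * (√t / ρ * ‖v‖)))) := by
          conv_lhs => rw [← Real.mul_self_sqrt ht.le]
          ring
      _ ≤ kW n |K| A Λ C₀ B₁ κ * (√n * (√t * (√2 * (√(Dt m n K p Q A₀ ρ t x) * g)))) := by
          gcongr
      _ ≤ kW n |K| A Λ C₀ B₁ κ * (√n * (√t * (√2 * (S * g)))) := by gcongr
      _ = _ := by ring
  -- the main term
  have pl := prod_le h hu H G hs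
  have hℓ0 : 0 ≤ kE n |K| A Λ / √t * g := by positivity
  have mt : (kE n |K| A Λ / √t * g) * (B₁ * (t * S)) = kE n |K| A Λ * B₁ * (√t * (S * g)) := by
    have : t = √t * √t := (Real.mul_self_sqrt ht.le).symm
    conv_lhs => rw [this]
    field_simp
    rw [Real.sqrt_sq (by positivity)]
  have key := gl2_core' hD (H751.env_ph_A h hs0 x) (ph_mem1 h.ker hs0 x) (ph_nonneg h.ker hs0 x)
    (I_ph h.ker hs0 x) hbx hbq (hA' c) (hC.test_isLap (H751.uc_test hC hu v))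
    (hC.memLp _ (hW wx)) (hC.memLp _ (hW wq)) hℓ0 (nonneg_iff_ae.1 (ph_nonneg h.ker hT x))
    (ph_mem1 h.ker hT x) pl (lt.trans lt2) fx fq H.r1 vx vq
    (Yv := ⟪v, uu x⟫_ℝ) (Zv := ⟪v, uu q⟫_ℝ) (Zq := ⟪wq, uu q⟫_ℝ)
  have e1 : ⟪v + wq, uu x - uu q⟫_ℝ = (⟪v, uu x⟫_ℝ - ⟪v, uu q⟫_ℝ)
      + (⟪wq, uu x⟫_ℝ - ⟪wq, uu q⟫_ℝ) := by
    rw [inner_add_left, inner_sub_right, inner_sub_right]
  have e2 : Gm m p u s x c v = I (ph m p s x * (sob m).Γ (uc u c) (uc u v)) := rfl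
  rw [e1, e2, ← sub_sub]
  refine key.trans ?_
  rw [mt]
  have hfin : kS n |K| A Λ C₀ B₁ κ * (√t * (S * g))
      = kE n |K| A Λ * B₁ * (√t * (S * g)) + kW n |K| A Λ C₀ B₁ κ * (√n * √2) * (√t * (S * g))
        + 2 * (kH n A Λ C₀ * (3 * (B₁ * U))) + 2 * (√n * (√2 * (B₁ * U))) + 2 * (B₁ * U) := by
    rw [hU]
    unfold kS
    ring
  rw [hfin]
  linarith

end env

end Vale.Agent.P242.H448
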