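import Vale.Agent.P242.H448.RelF

/-! P242, package A-GL2 (helper448), part 8: the relation at one pair, at the time `t`. -/

set_option linter.all false

open MeasureTheory Filter Topology Set Metric
open scoped ENNReal NNReal InnerProductSpace

universe u

namespace Vale.Agent.P242.H448

open Vale.Agent.P233 Vale.Agent.P233.RA Vale.Agent.P242.H990 Vale.Agent.P242.H520 Vale.Agent.P242.H71
open Vale.Agent.P242.H655
open Vale.Agent.P242.H703 hiding E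

/-- constant of the change of the time -/
noncomputable def kT (n : ℕ) (κ₀ A Λ C₀ B₁ κ : ℝ) : ℝ :=
  2 * (√B₁ * (√2 * √(512 * A ^ 2)))
    + 12 * n * cH n A C₀ * (√2 * (kC n κ₀ Λ C₀ B₁ κ * √2))

/-- constant of the change of the matrices -/
noncomputable def kP (n : ℕ) (A Λ C₀ B₁ : ℝ) : ℝ :=
  2 * (C₀ * (√(cX n A C₀ * (8 * A ^ 2)) * (B₁ * (3 * (Λ * kG n A Λ C₀)))))

section env

variable {M : Type u} [MetricSpace M] [CompleteSpace M] [SecondCountableTopology M]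
  [MeasurableSpace M] [BorelSpace M] {m : Measure M} {n : ℕ} {K : ℝ} {o : M} {A : ℝ}
  {p : ℝ → M → M → ℝ} {R Q η ρ : ℝ} {u : Fin n → M →ₘ[m] ℝ} {uu : M → E n}
  {A₀ Λ B₁ κ C₀ t T : ℝ} {x q : M} {c v wx wq wq' : E n} {c₀ cx cq : ℝ}

theorem small_c {r : ℝ} {y : M} (hρ : 0 < ρ) (hr : 0 < r) (hrρ : r ≤ ρ ^ 2) {w : E n}
    (hlow : (r / ρ ^ 2) ^ (1 / 8 : ℝ) * ‖w‖ ^ 2 ≤ 2 * Gm m p u r y w w) :
    √r / ρ * ‖w‖ ≤ √2 * nG m p u r y w := by
  have hρ2 : 0 < ρ ^ 2 := by positivity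
  unfold nG
  rw [← Real.sqrt_mul (by norm_num)]
  refine Real.le_sqrt_of_sq_le (le_trans ?_ hlow)
  rw [mul_pow, div_pow, Real.sq_sqrt hr.le]
  refine mul_le_mul_of_nonneg_right ?_ (sq_nonneg _)
  exact rpow_eighth_ge (by positivity) (div_le_one_of_le₀ hrρ hρ2.le)

/-- the change of the time -/
theorem rel_time (h : Env m n K o A p) (hu : Cfg m n K o p R Q η ρ u uu)
    (H : RIn m K A p u uu Q A₀ Λ B₁ κ C₀ ρ t T x q c c₀ v wx wq wq' cx cq)
    (G : RG o A Λ C₀ R Q ρ A₀ η t T x q) (hB₁ : 1 ≤ B₁) (hκ : 0 < κ) (hQ8 : 8 * A ^ 2 ≤ Q) {s : ℝ}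
    (hs : s = t / (512 * A ^ 2)) :
    |Gm m p u t x c v - Gm m p u s x c v| ≤ kT n |K| A Λ C₀ B₁ κ
      * (√t * (√(Dt m n K p Q A₀ ρ t x + Dt m n K p Q A₀ ρ t q) * nG m p u t x v)) := by
  have hA := h.kb.one_le
  have hA0 := h.kb.pos
  have hA2 : 1 ≤ A ^ 2 := one_le_pow₀ hA
  obtain ⟨hT, htT, hTρ, hT1, hsT, hρQ⟩ := G.facts hA
  have hC1 := G.C1
  have ht := G.t0
  have hΛ := G.Λ1
  have hΛ2 : 0 < Λ ^ 2 := by positivity
  have hρ := hu.ρ_pos
  have hρ2 : 0 < ρ ^ 2 := by positivity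
  have htρ := htT.trans hTρ
  have hs0 : 0 < s := by rw [hs]; positivity
  have hst : s ≤ t := by rw [hs]; exact div_le_self ht.le (by linarith)
  have hsΛ : t / Λ ^ 2 ≤ s := by
    rw [hs]
    exact div_le_div_of_nonneg_left ht.le (by positivity) G.ΛA
  have hsq : 0 < √t := Real.sqrt_pos.2 ht
  have hssq : 0 < √s := Real.sqrt_pos.2 hs0
  set D := Dt m n K p Q A₀ ρ t x + Dt m n K p Q A₀ ρ t q with hDd
  have hg0 : 0 ≤ nG m p u t x v := Real.sqrt_nonneg _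
  have hS0 : 0 ≤ √D := Real.sqrt_nonneg _
  have hlow := H.Px.lowt v
  have g0 : 0 ≤ Gm m p u t x v v := by
    have : 0 ≤ (t / ρ ^ 2) ^ (1 / 8 : ℝ) * ‖v‖ ^ 2 := by positivity
    linarith
  have hH := hf_hyp h hu G.η0 hC1 hQ8 (R' := R) le_rfl
  have ha : ∀ r, s ≤ r → r ≤ t → (hf m K p u).gam r x c c ≤ B₁ * D := by
    intro r h1 h2
    rw [hf_gam h hu (hs0.trans_le h1)]
    exact H.r2 r (hsΛ.trans h1) h2
  have hb : ∀ r, s ≤ r → r ≤ t → (hf m K p u).gam r x v v ≤ 2 * Gm m p u t x v v / s := by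
    intro r h1 h2
    have hr0 := hs0.trans_le h1
    rw [hf_gam h hu hr0, le_div_iff₀ hs0]
    have k1 := H.tv r (hsΛ.trans h1) h2
    have k2 := H.Px.dn r t hr0 h2 htρ v
    have k3 : gm m K p u r x v v * s ≤ r * gm m K p u r x v v := by
      rw [mul_comm]
      exact mul_le_mul_of_nonneg_right h1 ((fh_of h hu).gm_nonneg hr0 v)
    linarith
  have key := time_change hH hs0 hst htρ G.xR ha hb
  rw [hf_G h hu ht, hf_G h hu hs0] at key
  refine key.trans ?_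
  have hcH : 1 ≤ cH n A C₀ := hH.one_le_C
  have hkC := kC_nonneg (n := n) (κ₀ := |K|) (C₀ := C₀) (by linarith : 0 ≤ Λ)
    (by linarith : 0 ≤ B₁) hκ
  have hc := c_le h hu H G (by linarith) hκ
  have e1 : √(B₁ * D) = √B₁ * √D := Real.sqrt_mul (by linarith) _
  have e2 : √(2 * Gm m p u t x v v / s) = √2 * nG m p u t x v / √s := by
    rw [Real.sqrt_div (by positivity), Real.sqrt_mul (by norm_num)]
    rfl
  have e3 : t / √s = √t * √(512 * A ^ 2) := by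
    rw [div_eq_iff hssq.ne', mul_assoc, ← Real.sqrt_mul (by positivity), hs]
    have : 512 * A ^ 2 * (t / (512 * A ^ 2)) = t := by field_simp
    rw [this, Real.mul_self_sqrt ht.le]
  have t1 : (t - s) * (2 * (√(B₁ * D) * √(2 * Gm m p u t x v v / s)))
      ≤ 2 * (√B₁ * (√2 * √(512 * A ^ 2))) * (√t * (√D * nG m p u t x v)) := by
    rw [e1, e2]
    calc (t - s) * (2 * (√B₁ * √D * (√2 * nG m p u t x v / √s)))
        ≤ t * (2 * (√B₁ * √D * (√2 * nG m p u t x v / √s))) := by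
          refine mul_le_mul_of_nonneg_right (by linarith) (by positivity)
      _ = 2 * (√B₁ * √D * (√2 * nG m p u t x v)) * (t / √s) := by ring
      _ = _ := by rw [e3]; ring
  have hdS : √(Dt m n K p Q A₀ ρ t x) ≤ √D := Real.sqrt_le_sqrt (by linarith [H.Pq.d0])
  have sw := small_w (K := K) hρ G.η0 G.ηA ht htρ (H.Px.lowt v) H.Px.dfl
  have sc := small_c hρ ht htρ (H.Px.lowt c)
  have t2 : (t - s) * (12 * n * cH n A C₀ * η / ρ ^ 2 * (‖c‖ * ‖v‖))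
      ≤ 12 * n * cH n A C₀ * (√2 * (kC n |K| Λ C₀ B₁ κ * √2))
        * (√t * (√D * nG m p u t x v)) := by
    have hη := G.η0
    have hnc : 0 ≤ nG m p u t x c := Real.sqrt_nonneg _
    calc (t - s) * (12 * n * cH n A C₀ * η / ρ ^ 2 * (‖c‖ * ‖v‖))
        ≤ t * (12 * n * cH n A C₀ * η / ρ ^ 2 * (‖c‖ * ‖v‖)) := by
          refine mul_le_mul_of_nonneg_right (by linarith) (by positivity)
      _ = 12 * n * cH n A C₀ * ((√t / ρ * ‖c‖) * (η * (√t / ρ * ‖v‖))) := by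
          conv_lhs => rw [← Real.mul_self_sqrt ht.le]
          ring
      _ ≤ 12 * n * cH n A C₀ * ((√2 * nG m p u t x c)
          * (√2 * (√(Dt m n K p Q A₀ ρ t x) * nG m p u t x v))) := by
          gcongr
      _ ≤ 12 * n * cH n A C₀ * ((√2 * (kC n |K| Λ C₀ B₁ κ * √t))
          * (√2 * (√D * nG m p u t x v))) := by
          gcongr
      _ = _ := by ring
  calc (t - s) * (2 * (√(B₁ * D) * √(2 * Gm m p u t x v v / s))
        + 12 * n * cH n A C₀ * η / ρ ^ 2 * (‖c‖ * ‖v‖))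
      = (t - s) * (2 * (√(B₁ * D) * √(2 * Gm m p u t x v v / s)))
        + (t - s) * (12 * n * cH n A C₀ * η / ρ ^ 2 * (‖c‖ * ‖v‖)) := by ring
    _ ≤ _ := add_le_add t1 t2
    _ = _ := by unfold kT; ring

/-- the change of the matrices -/
theorem rel_step (h : Env m n K o A p) (hu : Cfg m n K o p R Q η ρ u uu)
    (H : RIn m K A p u uu Q A₀ Λ B₁ κ C₀ ρ t T x q c c₀ v wx wq wq' cx cq)
    (G : RG o A Λ C₀ R Q ρ A₀ η t T x q) (hB₁ : 1 ≤ B₁) :
    |⟪wq' - wq, uu x - uu q⟫_ℝ| ≤ kP n A Λ C₀ B₁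
      * (√t * (√(Dt m n K p Q A₀ ρ t x + Dt m n K p Q A₀ ρ t q) * nG m p u t x v)) := by
  have hA := h.kb.one_le
  obtain ⟨hT, htT, hTρ, hT1, hsT, hρQ⟩ := G.facts hA
  have hC1 := G.C1
  have hΛ := G.Λ1
  have hg0 : 0 ≤ nG m p u t x v := Real.sqrt_nonneg _
  obtain ⟨hdx, hdq⟩ := sqrt_dT H hΛ
  have gq : nG m p u T q v ≤ kG n A Λ C₀ * nG m p u t x v := by
    refine (nGT_q h hu H G v).trans (mul_le_mul_of_nonneg_right ?_ hg0)
    unfold kG
    linarith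
  have hkG := kG_pos (n := n) (A := A) (C₀ := C₀) hΛ
  calc |⟪wq' - wq, uu x - uu q⟫_ℝ| ≤ 2 * (C₀ * √t) * nG m p u t x (wq' - wq) := H.iso _
    _ ≤ 2 * (C₀ * √t) * (√(cX n A C₀ * (8 * A ^ 2)) * nG m p u t q (wq' - wq)) := by
        gcongr
        exact nGt_q h hu H G _
    _ ≤ 2 * (C₀ * √t) * (√(cX n A C₀ * (8 * A ^ 2)) * (B₁ * xE m K p u Q A₀ ρ T q v)) := by
        gcongr
        exact H.stp
    _ ≤ 2 * (C₀ * √t) * (√(cX n A C₀ * (8 * A ^ 2)) * (B₁ *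
          (3 * (√(Dt m n K p Q A₀ ρ T q) * nG m p u T q v)))) := by
        gcongr
        exact H.Pq.x3 v
    _ ≤ 2 * (C₀ * √t) * (√(cX n A C₀ * (8 * A ^ 2)) * (B₁ *
          (3 * ((Λ * √(Dt m n K p Q A₀ ρ t x + Dt m n K p Q A₀ ρ t q))
            * (kG n A Λ C₀ * nG m p u t x v))))) := by
        gcongr
        exact Real.sqrt_nonneg _
    _ = _ := by unfold kP; ring

/-- **the relation at one pair** -/
theorem rel_at (h : Env m n K o A p) (hu : Cfg m n K o p R Q η ρ u uu)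
    (H : RIn m K A p u uu Q A₀ Λ B₁ κ C₀ ρ t T x q c c₀ v wx wq wq' cx cq)
    (G : RG o A Λ C₀ R Q ρ A₀ η t T x q) (hB₁ : 1 ≤ B₁) (hκ : 0 < κ) (hQ8 : 8 * A ^ 2 ≤ Q) :
    |Gm m p u t x c v - ⟪v + wq', uu x - uu q⟫_ℝ|
      ≤ (kT n |K| A Λ C₀ B₁ κ + kS n |K| A Λ C₀ B₁ κ + kP n A Λ C₀ B₁)
      * (√t * (√(Dt m n K p Q A₀ ρ t x + Dt m n K p Q A₀ ρ t q) * nG m p u t x v)) := by
  have k1 := rel_time h hu H G hB₁ hκ hQ8 rfl
  have k2 := rel_s h hu H G hB₁ hκ rfl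
  have k3 := rel_step h hu H G hB₁
  have e : Gm m p u t x c v - ⟪v + wq', uu x - uu q⟫_ℝ
      = (Gm m p u t x c v - Gm m p u (t / (512 * A ^ 2)) x c v)
        + (Gm m p u (t / (512 * A ^ 2)) x c v - ⟪v + wq, uu x - uu q⟫_ℝ)
        - ⟪wq' - wq, uu x - uu q⟫_ℝ := by
    rw [inner_add_left, inner_add_left, inner_sub_left]
    ring
  rw [e, add_mul, add_mul]
  refine (abs_sub _ _).trans (add_le_add ((abs_add_le _ _).trans (add_le_add k1 k2)) k3)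

end env

end Vale.Agent.P242.H448
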